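import Vale.Agent.P097.H898.NaE

/-! # P097 / ALG-NA, part F: the conic invariant is bounded near the ends -/

set_option linter.all false

open Complex Polynomial Filter Topology Set Metric

namespace Vale.Agent.P097.H898

open Vale.Agent.P097.TA Vale.Agent.P097.H202 Vale.Agent.P097.H402.Rat Vale.Agent.P097.NZ
open Vale.Agent.P097.Alg

variable {P : ℂ[X][X]} {B : Set ℂ}

theorem ee_sum' (P : ℂ[X][X]) (z Y : ℂ) :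
    (derivative P).evalEval z Y =
      ∑ i ∈ Finset.range (P.natDegree + 1), i * (P.coeff i).eval z * Y ^ (i - 1) := by
  have h1 := ee_deriv P z Y
  have h2 : HasDerivAt (fun Y => P.evalEval z Y)
      (∑ i ∈ Finset.range (P.natDegree + 1), (P.coeff i).eval z * (i * Y ^ (i - 1))) Y := by
    have h3 : (fun Y => P.evalEval z Y) = fun Y =>
        ∑ i ∈ Finset.range (P.natDegree + 1), (P.coeff i).eval z * Y ^ i := by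
      funext Y
      exact ee_sum P z Y
    rw [h3]
    exact HasDerivAt.fun_sum fun i _ => (hasDerivAt_pow i Y).const_mul _
  rw [h1.unique h2]
  refine Finset.sum_congr rfl fun i _ => ?_
  ring

/-- local form of the polynomial along `z = χ x` -/
structure Loc (P : ℂ[X][X]) (B : Set ℂ) (χ : ℂ → ℂ) (a : ℕ → ℂ → ℂ) (r : ℝ) : Prop where
  hr : 0 < r
  an : ∀ i, DifferentiableOn ℂ (a i) (ball 0 r)
  χB : ∀ x ∈ ball (0 : ℂ) r, x ≠ 0 → χ x ∉ B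
  eq : ∃ w : ℂ → ℂ, ∀ x ∈ ball (0 : ℂ) r, x ≠ 0 → w x ≠ 0 ∧
    ∀ i ≤ P.natDegree, a i x = w x * (P.coeff i).eval (χ x)

variable {χ : ℂ → ℂ} {a : ℕ → ℂ → ℂ} {r : ℝ}

theorem Loc.pv_iff (L : Loc P B χ a r) {x : ℂ} (hx : x ∈ ball (0 : ℂ) r) (hx0 : x ≠ 0) (Y : ℂ) :
    pv P.natDegree a x Y = 0 ↔ P.evalEval (χ x) Y = 0 := by
  obtain ⟨w, hw⟩ := L.eq
  obtain ⟨h1, h2⟩ := hw x hx hx0
  have h3 : pv P.natDegree a x Y = w x * P.evalEval (χ x) Y := by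
    rw [ee_sum, Finset.mul_sum]
    refine Finset.sum_congr rfl fun i hi => ?_
    rw [h2 i (by have := Finset.mem_range.1 hi; omega)]
    ring
  rw [h3]
  simp [h1]

theorem Loc.algF (L : Loc P B χ a r) (E : Exc P B) : AlgF P.natDegree a r := by
  obtain ⟨w, hw⟩ := L.eq
  refine ⟨L.hr, L.an, ?_, ?_, ?_⟩
  · intro x hx hx0
    obtain ⟨h1, h2⟩ := hw x hx hx0
    rw [h2 _ le_rfl]
    exact mul_ne_zero h1 (E.reg _ (L.χB x hx hx0)).lead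
  · intro x hx hx0
    obtain ⟨h1, h2⟩ := hw x hx hx0
    rw [h2 _ (Nat.zero_le _)]
    exact mul_ne_zero h1 (E.low _ (L.χB x hx hx0))
  · intro x hx hx0 Y hY
    obtain ⟨h1, h2⟩ := hw x hx hx0
    have h3 : pv' P.natDegree a x Y = w x * (derivative P).evalEval (χ x) Y := by
      rw [ee_sum', Finset.mul_sum]
      refine Finset.sum_congr rfl fun i hi => ?_
      rw [h2 i (by have := Finset.mem_range.1 hi; omega)]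
      ring
    rw [h3]
    exact mul_ne_zero h1 ((E.reg _ (L.χB x hx hx0)).simple Y ((L.pv_iff hx hx0 Y).1 hY))

/-- from the bounds along the Puiseux branches to the bound near the end -/
theorem Loc.bound (L : Loc P B χ a r) (E : Exc P B) (pp : PPU) (hd : 1 ≤ P.natDegree)
    (key : ∀ (N : ℕ) (ε : ℝ) (k : ℤ) (R : ℂ → ℂ), 1 ≤ N → 0 < ε → ε ^ N ≤ r →
      DifferentiableOn ℂ R (ball 0 ε) → (∀ ξ ∈ ball (0 : ℂ) ε, R ξ ≠ 0) →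
      (∀ ξ ∈ ball (0 : ℂ) ε, ξ ≠ 0 → P.evalEval (χ (ξ ^ N)) (ξ ^ k * R ξ) = 0) →
      ∃ r' > 0, ∃ M : ℝ, ∀ ξ ∈ ball (0 : ℂ) r', ξ ≠ 0 → GR P (χ (ξ ^ N)) (ξ ^ k * R ξ) →
        ‖KK P (χ (ξ ^ N)) (ξ ^ k * R ξ)‖ ≤ M) :
    ∃ η > 0, ∃ M : ℝ, ∀ x ∈ ball (0 : ℂ) η, x ≠ 0 → ∀ Y, P.evalEval (χ x) Y = 0 →
      GR P (χ x) Y → ‖KK P (χ x) Y‖ ≤ M := by
  obtain ⟨N, ε, k, R, hN, hε, hεr, hR, hR0, hroots⟩ := pp P.natDegree a r hd (L.algF E)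
  have hmem : ∀ ξ ∈ ball (0 : ℂ) ε, ξ ^ N ∈ ball (0 : ℂ) r := by
    intro ξ hξ
    rw [mem_ball_zero_iff] at hξ ⊢
    rw [norm_pow]
    exact lt_of_lt_of_le (pow_lt_pow_left₀ hξ (norm_nonneg _) (by omega)) hεr
  have h1 : ∀ j, ∃ r' > 0, ∃ M : ℝ, ∀ ξ ∈ ball (0 : ℂ) r', ξ ≠ 0 →
      GR P (χ (ξ ^ N)) (ξ ^ (k j) * R j ξ) → ‖KK P (χ (ξ ^ N)) (ξ ^ (k j) * R j ξ)‖ ≤ M := by
    intro j
    refine key N ε (k j) (R j) hN hε hεr (hR j) (hR0 j) fun ξ hξ hξ0 => ?_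
    rw [← L.pv_iff (hmem ξ hξ) (pow_ne_zero _ hξ0)]
    exact (hroots ξ hξ hξ0 _).2 ⟨j, rfl⟩
  choose r' hr' M hM using h1
  have h2 : ∀ᶠ ξ in 𝓝 (0 : ℂ), ∀ j, ξ ∈ ball (0 : ℂ) (r' j) :=
    Filter.eventually_all.2 fun j => ball_mem_nhds _ (hr' j)
  obtain ⟨r₀, hr₀, h3⟩ := Metric.eventually_nhds_iff_ball.1 (h2.and (ball_mem_nhds (0 : ℂ) hε))
  refine ⟨r₀ ^ N, pow_pos hr₀ N, ∑ j, |M j|, fun x hx hx0 Y hY hGR => ?_⟩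
  obtain ⟨ξ, hξ⟩ := IsAlgClosed.exists_pow_nat_eq x (n := N) (by omega)
  have hξ0 : ξ ≠ 0 := by
    rintro rfl
    rw [zero_pow (by omega)] at hξ
    exact hx0 hξ.symm
  have hξr : ξ ∈ ball (0 : ℂ) r₀ := by
    rw [mem_ball_zero_iff] at hx ⊢
    rw [← hξ, norm_pow] at hx
    exact lt_of_pow_lt_pow_left₀ N hr₀.le hx
  obtain ⟨h4, h5⟩ := h3 ξ hξr
  have h6 : pv P.natDegree a (ξ ^ N) Y = 0 := by
    rw [L.pv_iff (hmem ξ h5) (pow_ne_zero _ hξ0), hξ]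
    exact hY
  obtain ⟨j, hj⟩ := (hroots ξ h5 hξ0 Y).1 h6
  have h7 := hM j ξ (h4 j) hξ0 (by rw [hξ, ← hj]; exact hGR)
  rw [hξ, ← hj] at h7
  refine h7.trans ((le_abs_self _).trans ?_)
  exact Finset.single_le_sum (f := fun j => |M j|) (fun i _ => abs_nonneg _) (Finset.mem_univ j)

/-! ## the punctured disc and the half plane -/

theorem halfplane_conn (c : ℝ) : IsPreconnected {w : ℂ | w.re < c} :=
  (convex_halfSpace_re_lt c).isPreconnected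

theorem halfplane_open (c : ℝ) : IsOpen {w : ℂ | w.re < c} :=
  isOpen_lt Complex.continuous_re continuous_const

theorem exp_mem {ε : ℝ} (hε : 0 < ε) {w : ℂ} (hw : w.re < Real.log ε) :
    Complex.exp w ∈ ball (0 : ℂ) ε := by
  rw [mem_ball_zero_iff, Complex.norm_exp]
  rw [← Real.exp_log hε]
  exact Real.exp_lt_exp.2 hw

theorem log_mem {ε : ℝ} {ξ : ℂ} (hξ : ξ ∈ ball (0 : ℂ) ε) (hξ0 : ξ ≠ 0) :
    (Complex.log ξ).re < Real.log ε := by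
  rw [Complex.log_re]
  rw [mem_ball_zero_iff] at hξ
  exact Real.log_lt_log (norm_pos_iff.2 hξ0) hξ

theorem punct_conn {ε : ℝ} (hε : 0 < ε) : IsPreconnected (ball (0 : ℂ) ε \ {0}) := by
  have h : ball (0 : ℂ) ε \ {0} = Complex.exp '' {w : ℂ | w.re < Real.log ε} := by
    ext ξ
    constructor
    · rintro ⟨h1, h2⟩
      exact ⟨Complex.log ξ, log_mem h1 h2, Complex.exp_log h2⟩
    · rintro ⟨w, hw, rfl⟩
      exact ⟨exp_mem hε hw, Complex.exp_ne_zero _⟩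
  rw [h]
  exact (halfplane_conn _).image _ Complex.continuous_exp.continuousOn

theorem zpow_diffOn {ε : ℝ} (k : ℤ) {R : ℂ → ℂ} (hR : DifferentiableOn ℂ R (ball 0 ε)) :
    DifferentiableOn ℂ (fun ξ : ℂ => ξ ^ k * R ξ) (ball 0 ε \ {0}) := by
  intro ξ hξ
  have h1 : DifferentiableAt ℂ (fun ξ : ℂ => ξ ^ k) ξ := differentiableAt_zpow.2 (Or.inl hξ.2)
  have h2 : DifferentiableAt ℂ R ξ := hR.differentiableAt (isOpen_ball.mem_nhds hξ.1)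
  exact (h1.mul h2).differentiableWithinAt

/-! ## finite ends -/

theorem key_fin (eb : EndBd) (E : Exc P B) {ψb : ℂ}
    (hB : ∀ x ∈ ball (0 : ℂ) r, x ≠ 0 → ez (ψb + x) ∉ B)
    (N : ℕ) (ε : ℝ) (k : ℤ) (R : ℂ → ℂ) (hN : 1 ≤ N) (hε : 0 < ε) (hεr : ε ^ N ≤ r)
    (hR : DifferentiableOn ℂ R (ball 0 ε)) (hR0 : ∀ ξ ∈ ball (0 : ℂ) ε, R ξ ≠ 0)
    (hP : ∀ ξ ∈ ball (0 : ℂ) ε, ξ ≠ 0 → P.evalEval (ez (ψb + ξ ^ N)) (ξ ^ k * R ξ) = 0) :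
    ∃ r' > 0, ∃ M : ℝ, ∀ ξ ∈ ball (0 : ℂ) r', ξ ≠ 0 → GR P (ez (ψb + ξ ^ N)) (ξ ^ k * R ξ) →
      ‖KK P (ez (ψb + ξ ^ N)) (ξ ^ k * R ξ)‖ ≤ M := by
  by_cases h : ∃ ξ₀ ∈ ball (0 : ℂ) ε, ξ₀ ≠ 0 ∧ GR P (ez (ψb + ξ₀ ^ N)) (ξ₀ ^ k * R ξ₀)
  swap
  · push Not at h
    exact ⟨ε, hε, 0, fun ξ hξ hξ0 hG => absurd hG (h ξ hξ hξ0)⟩
  obtain ⟨ξ₀, hξ₀, hξ₀0, hG₀⟩ := h
  have hUo : IsOpen (ball (0 : ℂ) ε \ {0}) := isOpen_ball.sdiff isClosed_singleton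
  have hπd : Differentiable ℂ (fun ξ : ℂ => ψb + ξ ^ N) := by fun_prop
  have hπ' : ∀ ξ : ℂ, ξ ≠ 0 → deriv (fun ξ : ℂ => ψb + ξ ^ N) ξ ≠ 0 := by
    intro ξ hξ
    have h1 : HasDerivAt (fun ξ : ℂ => ψb + ξ ^ N) (N * ξ ^ (N - 1)) ξ :=
      (hasDerivAt_pow N ξ).const_add ψb
    rw [h1.deriv]
    have h2 : (N : ℂ) ≠ 0 := by
      have : N ≠ 0 := by omega
      exact_mod_cast this
    exact mul_ne_zero h2 (pow_ne_zero _ hξ)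
  have hmem : ∀ ξ ∈ ball (0 : ℂ) ε \ {0}, ez (ψb + ξ ^ N) ∉ B := by
    intro ξ hξ
    refine hB _ ?_ (pow_ne_zero _ hξ.2)
    have h1 := hξ.1
    rw [mem_ball_zero_iff] at h1 ⊢
    rw [norm_pow]
    exact lt_of_lt_of_le (pow_lt_pow_left₀ h1 (norm_nonneg _) (by omega)) hεr
  have hg : DifferentiableOn ℂ (fun ξ : ℂ => ξ ^ k * R ξ) (ball 0 ε \ {0}) := zpow_diffOn k hR
  have hs : ∀ ξ ∈ ball (0 : ℂ) ε \ {0},
      (derivative P).evalEval (ez (ψb + ξ ^ N)) (ξ ^ k * R ξ) ≠ 0 := fun ξ hξ =>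
    (E.reg _ (hmem ξ hξ)).simple _ (hP ξ hξ.1 hξ.2)
  have hcont := fun (ξ : ℂ) (hξ : ξ ∈ ball (0 : ℂ) ε \ {0}) =>
    GP_cont (P := P) (π := fun ξ : ℂ => ψb + ξ ^ N) (g := fun ξ : ℂ => ξ ^ k * R ξ) hUo
      (punct_conn hε) hπd.differentiableOn hg
      (fun u hu => ⟨hπ' u hu.2, mul_ne_zero (zpow_ne_zero _ hu.2) (hR0 u hu.1)⟩)
      (fun u hu => hP u hu.1 hu.2) hs (u₀ := ξ₀) (u := ξ) ⟨hξ₀, hξ₀0⟩ hξ (hG₀ _ rfl)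
  have hE : EndH N k R ψb ε := ⟨hε, hN, hR, hR0, fun ξ hξ hξ0 => (hcont ξ ⟨hξ, hξ0⟩).1⟩
  obtain ⟨r', hr', hr'ε, M, hM⟩ := eb N k R ψb ε hE
  refine ⟨r', hr', M, fun ξ hξ hξ0 _ => ?_⟩
  have hξU : ξ ∈ ball (0 : ℂ) ε \ {0} := ⟨ball_subset_ball hr'ε hξ, hξ0⟩
  have h1 : AnalyticAt ℂ (fun ξ : ℂ => ψb + ξ ^ N) ξ := hπd.analyticAt ξ
  have h2 : AnalyticAt ℂ (fun ξ : ℂ => ξ ^ k * R ξ) ξ := hg.analyticAt (hUo.mem_nhds hξU)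
  have h3 : ∀ᶠ u' in 𝓝 ξ, P.evalEval (ez (ψb + u' ^ N)) (u' ^ k * R u') = 0 := by
    filter_upwards [hUo.mem_nhds hξU] with u' hu'
    exact hP u' hu'.1 hu'.2
  obtain ⟨ρ, hρ⟩ := exists_rho (π := fun ξ : ℂ => ψb + ξ ^ N) (g := fun ξ : ℂ => ξ ^ k * R ξ)
    h1 (hπ' ξ hξ0) h2 h3 (hs ξ hξU)
  have h4 := kap_chart (π := fun ξ : ℂ => ψb + ξ ^ N) (g := fun ξ : ℂ => ξ ^ k * R ξ)
    h1 (hπ' ξ hξ0) h2 h3 (hs ξ hξU) hρ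
  rw [← h4]
  exact hM ξ hξ hξ0 ρ hρ

/-! ## isotropic ends -/

theorem key_iso (ei : EndBdI) (E : Exc P B) {s : ℂ} (hs1 : s = 1 ∨ s = -1)
    (hχ : ∀ x : ℂ, x ≠ 0 → ∀ ψ : ℂ, Complex.exp (s * I * ψ) = x → ez ψ = χ x)
    (hB : ∀ x ∈ ball (0 : ℂ) r, x ≠ 0 → χ x ∉ B)
    (N : ℕ) (ε : ℝ) (k : ℤ) (R : ℂ → ℂ) (hN : 1 ≤ N) (hε : 0 < ε) (hεr : ε ^ N ≤ r)
    (hR : DifferentiableOn ℂ R (ball 0 ε)) (hR0 : ∀ ξ ∈ ball (0 : ℂ) ε, R ξ ≠ 0)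
    (hP : ∀ ξ ∈ ball (0 : ℂ) ε, ξ ≠ 0 → P.evalEval (χ (ξ ^ N)) (ξ ^ k * R ξ) = 0) :
    ∃ r' > 0, ∃ M : ℝ, ∀ ξ ∈ ball (0 : ℂ) r', ξ ≠ 0 → GR P (χ (ξ ^ N)) (ξ ^ k * R ξ) →
      ‖KK P (χ (ξ ^ N)) (ξ ^ k * R ξ)‖ ≤ M := by
  by_cases h : ∃ ξ₀ ∈ ball (0 : ℂ) ε, ξ₀ ≠ 0 ∧ GR P (χ (ξ₀ ^ N)) (ξ₀ ^ k * R ξ₀)
  swap
  · push Not at h
    exact ⟨ε, hε, 0, fun ξ hξ hξ0 hG => absurd hG (h ξ hξ hξ0)⟩
  obtain ⟨ξ₀, hξ₀, hξ₀0, hG₀⟩ := h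
  have hs0 : s ≠ 0 := by rcases hs1 with rfl | rfl <;> norm_num
  have hN0 : (N : ℂ) ≠ 0 := by
    have : N ≠ 0 := by omega
    exact_mod_cast this
  have hsI : s * I ≠ 0 := mul_ne_zero hs0 I_ne_zero
  -- the chart through `(ψ₁, ξ₁)`
  have chartF : ∀ ξ₁ ∈ ball (0 : ℂ) ε, ξ₁ ≠ 0 → ∀ ψ₁ : ℂ, Complex.exp (s * I * ψ₁) = ξ₁ ^ N →
      ∃ (π : ℂ → ℂ) (w₁ : ℂ), Differentiable ℂ π ∧ (∀ w, deriv π w ≠ 0) ∧
        w₁.re < Real.log ε ∧ Complex.exp w₁ = ξ₁ ∧ π w₁ = ψ₁ ∧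
        (∀ w, Complex.exp (s * I * π w) = Complex.exp w ^ N) ∧
        ∀ w, xiI s N ψ₁ ξ₁ (π w) = Complex.exp w := by
    intro ξ₁ hξ₁ hξ₁0 ψ₁ hψ₁
    refine ⟨fun w => ψ₁ + N / (s * I) * (w - Complex.log ξ₁), Complex.log ξ₁, by fun_prop, ?_,
      log_mem hξ₁ hξ₁0, Complex.exp_log hξ₁0, by ring, ?_, ?_⟩
    · intro w
      have h1 : HasDerivAt (fun w : ℂ => ψ₁ + N / (s * I) * (w - Complex.log ξ₁))
          (N / (s * I) * 1) w :=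
        (((hasDerivAt_id w).sub_const (Complex.log ξ₁)).const_mul (N / (s * I))).const_add ψ₁
      rw [h1.deriv, mul_one]
      exact div_ne_zero hN0 hsI
    · intro w
      have h1 : s * I * (ψ₁ + N / (s * I) * (w - Complex.log ξ₁)) =
          s * I * ψ₁ + (N * w - N * Complex.log ξ₁) := by
        field_simp
      rw [h1, Complex.exp_add, hψ₁, Complex.exp_sub, Complex.exp_nat_mul, Complex.exp_nat_mul,
        Complex.exp_log hξ₁0]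
      field_simp
    · intro w
      have h1 : s * I * (ψ₁ + N / (s * I) * (w - Complex.log ξ₁) - ψ₁) / N =
          w - Complex.log ξ₁ := by
        field_simp
        ring
      unfold xiI
      rw [h1, Complex.exp_sub, Complex.exp_log hξ₁0]
      field_simp
  have hmem : ∀ ξ ∈ ball (0 : ℂ) ε, ξ ≠ 0 → χ (ξ ^ N) ∉ B := by
    intro ξ hξ hξ0
    refine hB _ ?_ (pow_ne_zero _ hξ0)
    rw [mem_ball_zero_iff] at hξ ⊢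
    rw [norm_pow]
    exact lt_of_lt_of_le (pow_lt_pow_left₀ hξ (norm_nonneg _) (by omega)) hεr
  set g : ℂ → ℂ := fun w => Complex.exp w ^ k * R (Complex.exp w) with hgdef
  have hgd : DifferentiableOn ℂ g {w : ℂ | w.re < Real.log ε} := by
    have h1 := zpow_diffOn k hR
    exact h1.comp Complex.differentiable_exp.differentiableOn
      fun w hw => ⟨exp_mem hε hw, Complex.exp_ne_zero _⟩
  have hg0 : ∀ w : ℂ, w.re < Real.log ε → g w ≠ 0 := fun w hw =>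
    mul_ne_zero (zpow_ne_zero _ (Complex.exp_ne_zero _)) (hR0 _ (exp_mem hε hw))
  -- data in a chart
  have hdata : ∀ π : ℂ → ℂ, (∀ w, Complex.exp (s * I * π w) = Complex.exp w ^ N) →
      ∀ w : ℂ, w.re < Real.log ε → ez (π w) = χ (Complex.exp w ^ N) ∧
        P.evalEval (ez (π w)) (g w) = 0 ∧ (derivative P).evalEval (ez (π w)) (g w) ≠ 0 := by
    intro π hπ w hw
    have h1 : ez (π w) = χ (Complex.exp w ^ N) :=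
      hχ _ (pow_ne_zero _ (Complex.exp_ne_zero _)) _ (hπ w)
    have h2 := hP _ (exp_mem hε hw) (Complex.exp_ne_zero _)
    refine ⟨h1, ?_, ?_⟩
    · rw [h1]
      exact h2
    · rw [h1]
      exact (E.reg _ (hmem _ (exp_mem hε hw) (Complex.exp_ne_zero _))).simple _ h2
  have hgood : ∀ ξ₁ ∈ ball (0 : ℂ) ε, ξ₁ ≠ 0 → ∀ ψ₁ : ℂ, Complex.exp (s * I * ψ₁) = ξ₁ ^ N →
      ∀ ρ : ℂ → ℂ, (∀ᶠ ψ in 𝓝 ψ₁, ρ ψ = xiI s N ψ₁ ξ₁ ψ ^ k * R (xiI s N ψ₁ ξ₁ ψ)) →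
      Good (Ik ρ) (TT ρ) ψ₁ := by
    intro ξ₁ hξ₁ hξ₁0 ψ₁ hψ₁ ρ hρ
    obtain ⟨π, w₁, c1, c2, c3, c4, c5, c6, c7⟩ := chartF ξ₁ hξ₁ hξ₁0 ψ₁ hψ₁
    have hw₀ : (Complex.log ξ₀).re < Real.log ε := log_mem hξ₀ hξ₀0
    have hew₀ : Complex.exp (Complex.log ξ₀) = ξ₀ := Complex.exp_log hξ₀0
    have h1 := GP_cont (P := P) (π := π) (g := g) (halfplane_open (Real.log ε))
      (halfplane_conn (Real.log ε)) c1.differentiableOn hgd (fun u hu => ⟨c2 u, hg0 u hu⟩)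
      (fun u hu => (hdata π c6 u hu).2.1) (fun u hu => (hdata π c6 u hu).2.2)
      (u₀ := Complex.log ξ₀) (u := w₁) hw₀ c3 (by
        have h2 : GP P (π (Complex.log ξ₀)) (ξ₀ ^ k * R ξ₀) := by
          refine hG₀ _ ?_
          rw [(hdata π c6 _ hw₀).1, hew₀]
        show GP P (π (Complex.log ξ₀))
          (Complex.exp (Complex.log ξ₀) ^ k * R (Complex.exp (Complex.log ξ₀)))
        rw [hew₀]
        exact h2)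
    have h3 := h1.1 ρ ?_
    · rwa [c5] at h3
    · have h4 : Tendsto π (𝓝 w₁) (𝓝 ψ₁) := by
        have := c1.continuous.continuousAt (x := w₁) |>.tendsto
        rwa [c5] at this
      filter_upwards [h4.eventually hρ] with w hw
      rw [hw, c7 w]
  have hE : EndI s N k R ε := ⟨hs1, hε, hN, hR, hR0, hgood⟩
  obtain ⟨r', hr', hr'ε, M, hM⟩ := ei s N k R ε hE
  refine ⟨r', hr', M, fun ξ₁ hξ₁ hξ₁0 _ => ?_⟩
  have hξ₁ε : ξ₁ ∈ ball (0 : ℂ) ε := ball_subset_ball hr'ε hξ₁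
  have hψ₁ : Complex.exp (s * I * (Complex.log (ξ₁ ^ N) / (s * I))) = ξ₁ ^ N := by
    rw [mul_div_cancel₀ _ hsI, Complex.exp_log (pow_ne_zero _ hξ₁0)]
  obtain ⟨π, w₁, c1, c2, c3, c4, c5, c6, c7⟩ :=
    chartF ξ₁ hξ₁ε hξ₁0 (Complex.log (ξ₁ ^ N) / (s * I)) hψ₁
  set ψ₁ : ℂ := Complex.log (ξ₁ ^ N) / (s * I) with hψ₁def
  have h1 := hM ξ₁ hξ₁ hξ₁0 ψ₁ hψ₁ (fun ψ => xiI s N ψ₁ ξ₁ ψ ^ k * R (xiI s N ψ₁ ξ₁ ψ))
    (Eventually.of_forall fun _ => rfl)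
  have h2 := kap_chart (P := P) (π := π) (g := g) (u := w₁)
    (ρ := fun ψ => xiI s N ψ₁ ξ₁ ψ ^ k * R (xiI s N ψ₁ ξ₁ ψ))
    (c1.analyticAt w₁) (c2 w₁) (hgd.analyticAt ((halfplane_open (Real.log ε)).mem_nhds c3)) (by
      filter_upwards [(halfplane_open (Real.log ε)).mem_nhds c3] with w hw
      exact (hdata π c6 w hw).2.1) (hdata π c6 w₁ c3).2.2 (Eventually.of_forall fun w => by
        show xiI s N ψ₁ ξ₁ (π w) ^ k * R (xiI s N ψ₁ ξ₁ (π w)) = g w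
        rw [c7 w])
  rw [c5] at h2
  have h3 : ez ψ₁ = χ (ξ₁ ^ N) := hχ _ (pow_ne_zero _ hξ₁0) _ hψ₁
  have h4 : g w₁ = ξ₁ ^ k * R ξ₁ := by
    show Complex.exp w₁ ^ k * R (Complex.exp w₁) = _
    rw [c4]
  rw [h3, h4] at h2
  rw [← h2]
  exact h1

end Vale.Agent.P097.H898
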