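import Vale.Agent.P097.H898.NaA
import Vale.Agent.P097.H898.NaF

/-! # P097 / ALG-NA: `PNA`, the conic invariant of an algebraic table is constant -/

set_option linter.all false

open Complex Polynomial Filter Topology Set Metric

namespace Vale.Agent.P097.H898

open Vale.Agent.P097.TA Vale.Agent.P097.H202 Vale.Agent.P097.H402.Rat Vale.Agent.P097.NZ
open Vale.Agent.P097.Alg

variable {P : ℂ[X][X]} {B : Set ℂ}

/-! ## the three kinds of ends -/

theorem Exc.eventually_ne (E : Exc P B) (b : ℂ) : ∀ᶠ z in 𝓝[≠] b, z ∉ B := by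
  have h2 : IsClosed (B \ {b}) := (E.fin.subset diff_subset).isClosed
  have h3 : (B \ {b})ᶜ ∈ 𝓝 b := h2.isOpen_compl.mem_nhds (by simp)
  filter_upwards [mem_nhdsWithin_of_mem_nhds h3, self_mem_nhdsWithin] with z' a b c
  exact a ⟨c, b⟩

/-- finite ends -/
theorem bound_fin (E : Exc P B) (eb : EndBd) (pp : PPU) (hd : 1 ≤ P.natDegree) {b : ℂ}
    (hb0 : b ≠ 0) : ∃ M : ℝ, ∀ᶠ z in 𝓝[≠] b, ∀ Y, P.evalEval z Y = 0 → GR P z Y →
      ‖KK P z Y‖ ≤ M := by
  set ψb : ℂ := Complex.log b / I with hψb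
  have hez : ez ψb = b := by
    unfold ez
    rw [hψb, mul_div_cancel₀ _ I_ne_zero, Complex.exp_log hb0]
  have h1 : ∀ᶠ x in 𝓝[≠] (0 : ℂ), ez (ψb + x) ∉ B := by
    have h2 : HasDerivAt (fun x => ez (ψb + x)) (I * ez (ψb + 0)) 0 :=
      HasDerivAt.comp_const_add ψb 0 (ez_hasDerivAt (ψb + 0))
    have h3 : I * ez (ψb + 0) ≠ 0 := mul_ne_zero I_ne_zero (ez_ne _)
    have h4 : ∀ᶠ x in 𝓝[≠] (0 : ℂ), ez (ψb + x) ≠ b := h2.eventually_ne h3
    have h5 : Tendsto (fun x => ez (ψb + x)) (𝓝[≠] (0 : ℂ)) (𝓝[≠] b) := by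
      refine tendsto_nhdsWithin_iff.2 ⟨?_, h4⟩
      have := h2.continuousAt.tendsto
      rw [add_zero, hez] at this
      exact this.mono_left nhdsWithin_le_nhds
    exact h5.eventually (E.eventually_ne b)
  rw [eventually_nhdsWithin_iff, Metric.eventually_nhds_iff_ball] at h1
  obtain ⟨r, hr, h6⟩ := h1
  have L : Loc P B (fun x => ez (ψb + x)) (fun i x => (P.coeff i).eval (ez (ψb + x))) r := by
    refine ⟨hr, fun i => ?_, fun x hx hx0 => h6 x hx hx0, fun _ => 1, fun x hx hx0 =>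
      ⟨one_ne_zero, fun i _ => (one_mul _).symm⟩⟩
    have h7 : Differentiable ℂ (fun x => (P.coeff i).eval (ez (ψb + x))) :=
      (P.coeff i).differentiable.comp (ez_diff.comp (differentiable_id.const_add ψb))
    exact h7.differentiableOn
  obtain ⟨η, hη, M, hM⟩ := L.bound E pp hd
    (key_fin eb E (fun x hx hx0 => h6 x hx hx0))
  refine ⟨M, ?_⟩
  have hcont : ContinuousAt (fun z : ℂ => Complex.log (z / b) / I) b := by
    have h8 : b / b ∈ slitPlane := by
      rw [div_self hb0]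
      exact one_mem_slitPlane
    exact ((continuousAt_id.div_const b).clog h8).div_const I
  have h9 : ∀ᶠ z in 𝓝 b, Complex.log (z / b) / I ∈ ball (0 : ℂ) η := by
    have h15 : ball (0 : ℂ) η ∈ 𝓝 (Complex.log (b / b) / I) := by
      rw [div_self hb0, Complex.log_one, zero_div]
      exact ball_mem_nhds _ hη
    exact hcont.eventually h15
  have h10 : ∀ᶠ z in 𝓝 b, z ≠ 0 := continuousAt_id.eventually_ne hb0
  filter_upwards [mem_nhdsWithin_of_mem_nhds h9, mem_nhdsWithin_of_mem_nhds h10,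
    self_mem_nhdsWithin] with z a0 a1 a2 Y hY hG
  have h11 : ez (ψb + Complex.log (z / b) / I) = z := by
    have h12 : z / b ≠ 0 := div_ne_zero a1 hb0
    have h13 : I * (ψb + Complex.log (z / b) / I) = I * ψb + Complex.log (z / b) := by
      rw [mul_add]
      congr 1
      exact mul_div_cancel₀ _ I_ne_zero
    unfold ez at hez ⊢
    rw [h13, Complex.exp_add, hez, Complex.exp_log h12]
    field_simp
  have h14 : Complex.log (z / b) / I ≠ 0 := by
    intro h15
    rw [h15, add_zero, hez] at h11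
    exact a2 h11.symm
  have h16 := hM _ a0 h14 Y
  simp only [h11] at h16
  exact h16 hY hG

/-- the end `z = 0` -/
theorem bound_zero (E : Exc P B) (ei : EndBdI) (pp : PPU) (hd : 1 ≤ P.natDegree) :
    ∃ M : ℝ, ∀ᶠ z in 𝓝[≠] (0 : ℂ), ∀ Y, P.evalEval z Y = 0 → GR P z Y → ‖KK P z Y‖ ≤ M := by
  have h1 := E.eventually_ne 0
  rw [eventually_nhdsWithin_iff, Metric.eventually_nhds_iff_ball] at h1
  obtain ⟨r, hr, h6⟩ := h1
  have L : Loc P B (fun x => x) (fun i x => (P.coeff i).eval x) r := by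
    refine ⟨hr, fun i => ?_, fun x hx hx0 => h6 x hx hx0, fun _ => 1, fun x hx hx0 =>
      ⟨one_ne_zero, fun i _ => (one_mul _).symm⟩⟩
    exact (P.coeff i).differentiable.differentiableOn
  obtain ⟨η, hη, M, hM⟩ := L.bound E pp hd
    (key_iso ei E (s := 1) (Or.inl rfl) (fun x _ ψ h => by
      unfold ez
      rw [← h, one_mul]) (fun x hx hx0 => h6 x hx hx0))
  refine ⟨M, ?_⟩
  filter_upwards [mem_nhdsWithin_of_mem_nhds (ball_mem_nhds (0 : ℂ) hη), self_mem_nhdsWithin]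
    with z a0 a2 Y hY hG
  exact hM z a0 a2 Y hY hG

/-- reversed coefficients -/
theorem eval_reflect {m : ℕ} {q : ℂ[X]} (hq : q.natDegree ≤ m) {x : ℂ} (hx : x ≠ 0) :
    (reflect m q).eval x = x ^ m * q.eval x⁻¹ := by
  have hx' : x⁻¹ ≠ 0 := inv_ne_zero hx
  letI : Invertible x⁻¹ := invertibleOfNonzero hx'
  have h := Polynomial.eval₂_reflect_mul_pow (RingHom.id ℂ) x⁻¹ m q hq
  rw [invOf_eq_inv, inv_inv, Polynomial.eval₂_id, Polynomial.eval₂_id] at h
  rw [← h, inv_pow]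
  field_simp

/-- the end `z = ∞` -/
theorem bound_inf (E : Exc P B) (ei : EndBdI) (pp : PPU) (hd : 1 ≤ P.natDegree) :
    ∃ M r : ℝ, ∀ z : ℂ, r < ‖z‖ → ∀ Y, P.evalEval z Y = 0 → GR P z Y → ‖KK P z Y‖ ≤ M := by
  obtain ⟨r₁, hr₁⟩ := E.fin.isBounded.subset_closedBall (0 : ℂ)
  set r₂ : ℝ := max r₁ 1 with hr₂
  have hr₂0 : 0 < r₂ := lt_of_lt_of_le one_pos (le_max_right _ _)
  have h6 : ∀ x ∈ ball (0 : ℂ) r₂⁻¹, x ≠ 0 → x⁻¹ ∉ B := by
    intro x hx hx0 h
    have h1 := hr₁ h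
    rw [mem_closedBall_zero_iff, norm_inv] at h1
    rw [mem_ball_zero_iff] at hx
    have h2 : r₂ < ‖x‖⁻¹ := by
      rw [lt_inv_comm₀ hr₂0 (norm_pos_iff.2 hx0)]
      exact hx
    have h3 := le_max_left r₁ 1
    linarith
  set m : ℕ := (Finset.range (P.natDegree + 1)).sup fun i => (P.coeff i).natDegree with hm
  have L : Loc P B (fun x => x⁻¹) (fun i x => (reflect m (P.coeff i)).eval x) r₂⁻¹ := by
    refine ⟨inv_pos.2 hr₂0, fun i => (reflect m (P.coeff i)).differentiable.differentiableOn,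
      h6, fun x => x ^ m, fun x hx hx0 => ⟨pow_ne_zero _ hx0, fun i hi => ?_⟩⟩
    refine eval_reflect ?_ hx0
    exact Finset.le_sup (f := fun i => (P.coeff i).natDegree) (Finset.mem_range.2 (by omega))
  obtain ⟨η, hη, M, hM⟩ := L.bound E pp hd
    (key_iso ei E (s := -1) (Or.inr rfl) (fun x _ ψ h => by
      unfold ez
      rw [← h, ← Complex.exp_neg]
      congr 1
      ring) h6)
  refine ⟨M, η⁻¹, fun z hz Y hY hG => ?_⟩
  have hz0 : 0 < ‖z‖ := lt_trans (inv_pos.2 hη) hz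
  have h1 : z⁻¹ ∈ ball (0 : ℂ) η := by
    rw [mem_ball_zero_iff, norm_inv]
    exact (inv_lt_comm₀ hz0 hη).2 hz
  have h2 : z⁻¹ ≠ 0 := inv_ne_zero (norm_pos_iff.1 hz0)
  have h3 := hM z⁻¹ h1 h2 Y
  simp only [inv_inv] at h3
  exact h3 hY hG

/-- **the conic invariant takes finitely many values on the good branches** -/
theorem finite_values (E : Exc P B) (eb : EndBd) (ei : EndBdI) (pp : PPU)
    (hd : 1 ≤ P.natDegree) :
    ∃ S : Set ℂ, S.Finite ∧ ∀ z, z ∉ B → ∀ Y, P.evalEval z Y = 0 → GR P z Y → KK P z Y ∈ S := by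
  refine norm_arg E.fin E.reg (GR P) (KK P) (hG E) (hK E) ?_ (bound_inf E ei pp hd)
  intro b _
  by_cases hb0 : b = 0
  · rw [hb0]
    exact bound_zero E ei pp hd
  · exact bound_fin E eb pp hd hb0

/-! ## the polynomials which vanish along the table -/

/-- the ideal of the table -/
noncomputable def VI (R : ℂ → ℂ) : Ideal ℂ[X][X] :=
  ⨅ x : ℝ, RingHom.ker (evalEvalRingHom (ez x) (R x))

theorem mem_VI {R : ℂ → ℂ} {Q : ℂ[X][X]} :
    Q ∈ VI R ↔ ∀ x : ℝ, Q.evalEval (ez x) (R x) = 0 := by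
  unfold VI
  rw [Submodule.mem_iInf]
  exact forall_congr' fun x => RingHom.mem_ker

section
variable {R : ℂ → ℂ} {δ : ℝ}

theorem ee_along (dR : DifferentiableOn ℂ R (Str δ)) (Q : ℂ[X][X]) :
    AnalyticOnNhd ℂ (fun z => Q.evalEval (ez z) (R z)) (Str δ) := by
  intro z hz
  have h1 : AnalyticAt ℂ (fun z => (ez z, R z)) z :=
    (ez_diff.analyticAt z).prod (dR.analyticAt ((isOpen_Str δ).mem_nhds hz))
  exact AnalyticAt.comp (f := fun z => (ez z, R z)) (g := fun p : ℂ × ℂ => Q.evalEval p.1 p.2)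
    (ee_an Q _) h1

/-- identity theorem along the real axis -/
theorem real_ident (hδ : 0 < δ) {f : ℂ → ℂ} (hf : AnalyticOnNhd ℂ f (Str δ)) {x₀ : ℝ}
    (h : ∀ᶠ x : ℝ in 𝓝[≠] x₀, f x = 0) : ∀ z ∈ Str δ, f z = 0 := by
  have h1 : ∃ᶠ z in 𝓝[≠] (x₀ : ℂ), f z = 0 := by
    have h2 : Tendsto (fun x : ℝ => (x : ℂ)) (𝓝[≠] x₀) (𝓝[≠] (x₀ : ℂ)) := by
      refine tendsto_nhdsWithin_iff.2 ⟨?_, ?_⟩
      · exact (Complex.continuous_ofReal.tendsto x₀).mono_left nhdsWithin_le_nhds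
      · filter_upwards [self_mem_nhdsWithin] with x hx h3
        exact hx (Complex.ofReal_injective h3)
    exact h2.frequently h.frequently
  exact fun z hz => hf.eqOn_zero_of_preconnected_of_frequently_eq_zero
    (convex_Str δ).isPreconnected (real_mem_Str hδ x₀) h1 hz

theorem VI_prime (hδ : 0 < δ) (dR : DifferentiableOn ℂ R (Str δ)) : (VI R).IsPrime := by
  refine ⟨?_, ?_⟩
  · intro h
    have h1 : (1 : ℂ[X][X]) ∈ VI R := by rw [h]; trivial
    have h2 := mem_VI.1 h1 0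
    simp at h2
  · intro Q₁ Q₂ hQ
    rw [or_iff_not_imp_left]
    intro h1
    rw [mem_VI] at h1 hQ ⊢
    push Not at h1
    obtain ⟨x₀, hx₀⟩ := h1
    have h2 : ContinuousAt (fun x : ℝ => Q₁.evalEval (ez x) (R x)) x₀ :=
      ContinuousAt.comp (f := fun x : ℝ => (x : ℂ)) (g := fun z => Q₁.evalEval (ez z) (R z))
        (ee_along dR Q₁ _ (real_mem_Str hδ x₀)).continuousAt Complex.continuous_ofReal.continuousAt
    have h3 : ∀ᶠ x : ℝ in 𝓝[≠] x₀, Q₂.evalEval (ez x) (R x) = 0 := by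
      filter_upwards [mem_nhdsWithin_of_mem_nhds (h2.eventually_ne hx₀)] with x hx
      have h4 := hQ x
      rw [evalEval_mul] at h4
      exact (mul_eq_zero.1 h4).resolve_left hx
    exact fun x => real_ident hδ (ee_along dR Q₂) h3 x (real_mem_Str hδ x)

theorem VI_C {p : ℂ[X]} (h : C p ∈ VI R) : p = 0 := by
  rw [mem_VI] at h
  refine Polynomial.eq_zero_of_infinite_isRoot p ?_
  have h1 : (fun x : ℝ => ez x) '' Ioo (0 : ℝ) 1 ⊆ {x | p.IsRoot x} := by
    rintro _ ⟨x, -, rfl⟩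
    have h2 := h x
    rw [evalEval_C] at h2
    exact h2
  refine Set.Infinite.mono h1 ?_
  refine Set.Infinite.image ?_ (Ioo_infinite one_pos)
  intro x hx y hy hxy
  have hpi := Real.pi_gt_three
  have key : ∀ t : ℝ, t ∈ Ioo (0 : ℝ) 1 → Complex.log (ez t) = I * t := by
    intro t ht
    refine Complex.log_exp ?_ ?_
    · simp only [mul_im, I_re, ofReal_im, mul_zero, I_im, ofReal_re, one_mul, zero_add]
      linarith [ht.1]
    · simp only [mul_im, I_re, ofReal_im, mul_zero, I_im, ofReal_re, one_mul, zero_add]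
      linarith [ht.2]
  have h3 : I * (x : ℂ) = I * y := by
    rw [← key x hx, ← key y hy]
    exact congrArg Complex.log hxy
  exact Complex.ofReal_injective (mul_left_cancel₀ I_ne_zero h3)

theorem periodic_int (Rp : ∀ z ∈ Str δ, R (z + 2 * Real.pi) = R z) (n : ℤ) :
    ∀ z ∈ Str δ, R (z + n * (2 * Real.pi)) = R z := by
  have hm : ∀ z ∈ Str δ, ∀ t : ℝ, z + t ∈ Str δ := fun z hz t => add_real_mem_Str hz t
  induction n using Int.induction_on with
  | zero => intro z _; simp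
  | succ n ih =>
    intro z hz
    have h1 := ih z hz
    have h2 := Rp (z + ((((n : ℤ) : ℝ) * (2 * Real.pi) : ℝ) : ℂ)) (hm z hz _)
    rw [← h1]
    push_cast at h2 ⊢
    rw [← h2]
    congr 1
    ring
  | pred n ih =>
    intro z hz
    have h1 := ih z hz
    have h2 := Rp (z + (((((-(n : ℤ) - 1 : ℤ)) : ℝ) * (2 * Real.pi) : ℝ) : ℂ)) (hm z hz _)
    rw [← h1]
    push_cast at h2 ⊢
    rw [← h2]
    congr 1
    ring

end

/-- **ALG-NA**: the norm argument -/
theorem pna (eb : EndBd) (ei : EndBdI) (pp : PPU) : PNA := by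
  intro R δ hδ dR R0 Rp hgood hP₀
  haveI := VI_prime hδ dR
  obtain ⟨P₀, hP₀0, hP₀⟩ := hP₀
  obtain ⟨P, hPV, hd, hc0, U, W, D, hD, hUW⟩ := exists_min (VI R) ⟨P₀, mem_VI.2 hP₀, hP₀0⟩
    (fun a ha => VI_C ha) (by
      intro h
      have h1 := mem_VI.1 h 0
      rw [evalEval_X] at h1
      exact R0 _ (real_mem_Str hδ 0) h1)
  have hP0 : P ≠ 0 := by
    rintro rfl
    simp at hd
  set Z : ℂ[X] := X * D * P.leadingCoeff * P.coeff 0 with hZ
  have hZ0 : Z ≠ 0 :=
    mul_ne_zero (mul_ne_zero (mul_ne_zero X_ne_zero hD) (leadingCoeff_ne_zero.2 hP0)) hc0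
  set B : Set ℂ := {z | Z.eval z = 0} with hB
  have hBZ : ∀ z, z ∉ B → z ≠ 0 ∧ D.eval z ≠ 0 ∧ P.leadingCoeff.eval z ≠ 0 ∧
      (P.coeff 0).eval z ≠ 0 := by
    intro z hz
    have h1 : Z.eval z ≠ 0 := hz
    rw [hZ, eval_mul, eval_mul, eval_mul, eval_X] at h1
    exact ⟨left_ne_zero_of_mul (left_ne_zero_of_mul (left_ne_zero_of_mul h1)),
      right_ne_zero_of_mul (left_ne_zero_of_mul (left_ne_zero_of_mul h1)),
      right_ne_zero_of_mul (left_ne_zero_of_mul h1), right_ne_zero_of_mul h1⟩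
  have E : Exc P B := by
    refine ⟨?_, ?_, ?_, fun z hz => (hBZ z hz).2.2.2⟩
    · refine (Z.roots.toFinset.finite_toSet).subset fun z hz => ?_
      rw [Finset.mem_coe, Multiset.mem_toFinset, Polynomial.mem_roots hZ0]
      exact hz
    · show Z.eval 0 = 0
      rw [hZ, eval_mul, eval_mul, eval_mul, eval_X]
      ring
    · intro z hz
      refine ⟨(hBZ z hz).2.2.1, fun Y hY h => (hBZ z hz).2.1 ?_⟩
      have h1 := congrArg (fun Q : ℂ[X][X] => Q.evalEval z Y) hUW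
      simp only [evalEval_add, evalEval_mul, evalEval_C, hY, h, mul_zero, add_zero] at h1
      exact h1.symm
  obtain ⟨S, hS, hval⟩ := finite_values E eb ei pp hd
  have hPz : ∀ z ∈ Str δ, P.evalEval (ez z) (R z) = 0 :=
    real_ident hδ (ee_along dR P) (x₀ := 0) (Eventually.of_forall fun x => mem_VI.1 hPV x)
  -- the values on the real axis
  have hRan : ∀ x : ℝ, AnalyticAt ℂ R x := fun x =>
    dR.analyticAt ((isOpen_Str δ).mem_nhds (real_mem_Str hδ x))
  have hPx : ∀ x : ℝ, ∀ᶠ ψ in 𝓝 (x : ℂ), P.evalEval (ez ψ) (R ψ) = 0 := fun x => by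
    filter_upwards [(isOpen_Str δ).mem_nhds (real_mem_Str hδ x)] with ψ hψ
    exact hPz ψ hψ
  have hmem : ∀ x : ℝ, ez x ∉ B → kap R x ∈ S := by
    intro x hx
    have hs : (derivative P).evalEval (ez x) (R x) ≠ 0 :=
      (E.reg _ hx).simple _ (hPz x (real_mem_Str hδ x))
    have h1 : kap R x = KK P (ez x) (R x) := by
      have h2 := kap_chart (P := P) (π := fun u => u) (g := R) (u := (x : ℂ)) analyticAt_id
        (by simp) (hRan x) (hPx x) hs (ρ := R) (Eventually.of_forall fun _ => rfl)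
      exact h2
    rw [h1]
    refine hval _ hx _ (hPz x (real_mem_Str hδ x)) ?_
    intro ψ hψ ρ hρ hρx hρP
    -- `ψ` is real
    obtain ⟨n, hn⟩ := Complex.exp_eq_exp_iff_exists_int.1 (show Complex.exp (I * ψ) =
      Complex.exp (I * x) from hψ)
    have h3 : ψ = ((x + n * (2 * Real.pi) : ℝ) : ℂ) := by
      apply mul_left_cancel₀ I_ne_zero
      rw [hn]
      push_cast
      ring
    have h4 : R ψ = R x := by
      have := periodic_int Rp n x (real_mem_Str hδ x)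
      rw [h3]
      push_cast
      exact this
    obtain ⟨t, ht⟩ : ∃ t : ℝ, ψ = (t : ℂ) := ⟨_, h3⟩
    rw [ht] at hρ hρx hρP h4 hψ ⊢
    have h5 : R =ᶠ[𝓝 (t : ℂ)] ρ := by
      refine germ_unique (P := P) (E := ez) ez_cont.continuousAt (hRan t).continuousAt
        hρ.continuousAt ?_ ?_ (hPx t) hρP
      · rw [hψ, h4]
        exact hs
      · rw [hρx, h4]
    exact Good.germ (Vale.Agent.P097.H65.rootA) (hRan t) (R0 _ (real_mem_Str hδ t)) h5 (hgood t)
  -- continuity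
  have hkc : Continuous (fun x : ℝ => kap R x) := by
    rw [continuous_iff_continuousAt]
    intro x
    have h1 : AnalyticAt ℂ (kap R) x := by
      have h2 := hRan x
      have h3 := h2.deriv
      have h4 := h3.deriv
      unfold kap
      refine AnalyticAt.div ?_ (h2.pow 8) (pow_ne_zero _ (R0 _ (real_mem_Str hδ x)))
      fun_prop
    exact ContinuousAt.comp (f := fun x : ℝ => (x : ℂ)) (g := kap R) h1.continuousAt
      Complex.continuous_ofReal.continuousAt
  have hmem' : ∀ x : ℝ, kap R x ∈ S := by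
    intro x
    have h1 : ∀ᶠ x' : ℝ in 𝓝[≠] x, ez x' ∉ B := by
      have h2 : HasDerivAt (fun x : ℝ => ez x) (I * ez x) x := (ez_hasDerivAt x).comp_ofReal
      have h3 : ∀ᶠ x' : ℝ in 𝓝[≠] x, ez x' ≠ ez x :=
        h2.eventually_ne (mul_ne_zero I_ne_zero (ez_ne _))
      have h5 : Tendsto (fun x' : ℝ => ez x') (𝓝[≠] x) (𝓝[≠] (ez x)) :=
        tendsto_nhdsWithin_iff.2 ⟨h2.continuousAt.tendsto.mono_left nhdsWithin_le_nhds, h3⟩
      exact h5.eventually (E.eventually_ne _)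
    have h6 : Tendsto (fun x' : ℝ => kap R x') (𝓝[≠] x) (𝓝 (kap R x)) :=
      hkc.continuousAt.tendsto.mono_left nhdsWithin_le_nhds
    exact hS.isClosed.mem_of_tendsto h6 (h1.mono fun x' hx' => hmem x' hx')
  -- connectedness
  have h1 := (isPreconnected_univ (α := ℝ)).eqOn_const_of_mapsTo (T := S) hS.isDiscrete
    hkc.continuousOn (fun x _ => hmem' x) ⟨_, hmem' 0⟩
  obtain ⟨c, -, hc⟩ := h1
  exact ⟨c, fun x => hc (mem_univ x)⟩

end Vale.Agent.P097.H898
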