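import Vale.Agent.P097.H898.CiI
import Vale.Agent.P097.H402.Alg.PAlg
import Vale.Agent.P097.H772.Even
import Vale.Agent.P097.H128.Sector.Defs2

/-! # P097 / CASE I, part J: unconditional form -/

set_option linter.all false

open Complex Filter Topology Set Metric
open scoped ComplexConjugate

namespace Vale.Agent.P097.H898

open Vale.Agent.P097.TA Vale.Agent.P097.H202 Vale.Agent.P097.NZ

variable {h : ℝ → ℝ} {κ ρ Λ L : ℝ} {H HH lam Φ : ℂ → ℂ} {l φ : ℝ → ℝ}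

/-- **CASE I.**  A table with a collar of invariant curves whose normal angle `Φ` and support number
`H ∘ Φ`, as functions of the Lazutkin coordinate, are meromorphic (`exp (I Φ)` and `H ∘ Φ`) in the
strip `|Im x| < b`: either the table is an ellipse, or `Φ` and `H ∘ Φ` are holomorphic in the strip,
with all the points regular. -/
theorem caseI_main (T : LD h κ ρ Λ L H HH lam Φ l φ) (Hs : SmoothTable h) {η : ℝ} (hη : 0 < η)
    (Hc : Collar h η) {b : ℝ} (hb : 0 < b) (M : SC.MerStrip H Φ b) :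
    H407.IsEllipse h ∨
    ∃ Φb qb : ℂ → ℂ, DifferentiableOn ℂ Φb (Str b) ∧ DifferentiableOn ℂ qb (Str b) ∧
      (∀ x : ℝ, Φb x = Φ x ∧ qb x = H (Φ x)) ∧
      (∀ z ∈ Str b, Φb (z + 1) = Φb z + 2 * Real.pi) ∧
      (∀ z ∈ Str b, Φb (conj z) = conj (Φb z)) ∧
      (∀ z ∈ Str b, qb (z + 1) = qb z) ∧ (∀ z ∈ Str b, qb (conj z) = conj (qb z)) ∧
      (∀ x ∈ Str b, SC.Crv Φb qb ((Λ : ℂ) ^ 3) x) ∧
      ∀ x ∈ Str b, (deriv Φb x ≠ 0 ∧ GoodAt Φb (fun z => (Λ : ℂ) ^ 3 / deriv Φb z ^ 3) x) ∨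
        (deriv Φb x = 0 ∧ deriv (deriv Φb) x ≠ 0) := by
  obtain ⟨Z, q, mZ, mq, hr⟩ := M
  rcases caseI Alg.endBd_main Alg.endBdI_main (fun s R ε E => H772.even_iso E) T Hs hη Hc hb mZ
    (fun x => (hr x).1) with h1 | ⟨Φb, a1, a2, a3, a4, a5, a6⟩
  · exact Or.inl h1
  · right
    obtain ⟨qb, b1, b2, b3, b4, b5, b6⟩ := caseI_supp T hb a1 a2 (fun x hx => by
      rcases a6 x hx with h | h
      · exact Or.inl h.1
      · exact Or.inr h.2) mq (fun x => (hr x).2)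
    refine ⟨Φb, qb, a1, b1, fun x => ⟨a2 x, b2 x⟩, a3, a4, b3, b4, fun x hx => ?_, a6⟩
    refine ⟨a1.analyticAt ((isOpen_Str b).mem_nhds hx), b1.analyticAt ((isOpen_Str b).mem_nhds hx), ?_⟩
    filter_upwards [(isOpen_Str b).mem_nhds hx] with z hz
    exact b6 z hz

end Vale.Agent.P097.H898
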