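import Mathlib

/-! # P097 / CASE I, part A: analytic tools (local inverse, roots, logarithms, punctured discs) -/

set_option linter.all false

open Complex Filter Topology Set Metric

namespace Vale.Agent.P097.H898

/-- analytic local inverse -/
theorem local_inv {f : ℂ → ℂ} {a : ℂ} (hf : AnalyticAt ℂ f a) (h0 : deriv f a ≠ 0) :
    ∃ g : ℂ → ℂ, AnalyticAt ℂ g (f a) ∧ g (f a) = a ∧ deriv g (f a) ≠ 0 ∧
      (∀ᶠ y in 𝓝 (f a), f (g y) = y) ∧ ∀ᶠ x in 𝓝 a, g (f x) = x := by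
  have hs : HasStrictDerivAt f (deriv f a) a := hf.hasStrictDerivAt
  set e := hs.hasStrictFDerivAt_equiv h0
  have h1 : HasStrictFDerivAt f ((ContinuousLinearEquiv.unitsEquivAut ℂ (Units.mk0 _ h0) :
    ℂ ≃L[ℂ] ℂ) : ℂ →L[ℂ] ℂ) a := hs.hasStrictFDerivAt_equiv h0
  have hcd : ContDiffAt ℂ ⊤ f a := hf.contDiffAt
  have hn0 : (⊤ : WithTop ℕ∞) ≠ 0 := by simp
  set g := hcd.localInverse h1.hasFDerivAt hn0 with hg
  have h2 : AnalyticAt ℂ g (f a) := (hcd.to_localInverse h1.hasFDerivAt hn0).analyticAt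
  have h3 : g (f a) = a := hcd.localInverse_apply_image h1.hasFDerivAt hn0
  have h4 : ∀ᶠ x in 𝓝 a, g (f x) = x := by
    have := (hcd.hasStrictFDerivAt' h1.hasFDerivAt hn0).eventually_left_inverse
    exact this
  have h5 : ∀ᶠ y in 𝓝 (f a), f (g y) = y := by
    have := (hcd.hasStrictFDerivAt' h1.hasFDerivAt hn0).eventually_right_inverse
    exact this
  refine ⟨g, h2, h3, ?_, h5, h4⟩
  intro hcon
  have h6 : HasDerivAt (fun x => g (f x)) (deriv g (f a) * deriv f a) a :=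
    HasDerivAt.comp a h2.differentiableAt.hasDerivAt hf.differentiableAt.hasDerivAt
  have h7 : HasDerivAt (fun x => g (f x)) 1 a :=
    (hasDerivAt_id a).congr_of_eventuallyEq h4
  have h8 := h6.unique h7
  rw [hcon, zero_mul] at h8
  exact zero_ne_one h8

/-- root coordinate -/
theorem root_coord {f u : ℂ → ℂ} {x₀ : ℂ} {n : ℕ} (hn : 1 ≤ n) (hu : AnalyticAt ℂ u x₀)
    (hu0 : u x₀ ≠ 0) (hf : ∀ᶠ x in 𝓝 x₀, f x = (x - x₀) ^ n * u x) :
    ∃ X : ℂ → ℂ, AnalyticAt ℂ X 0 ∧ X 0 = x₀ ∧ deriv X 0 ≠ 0 ∧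
      ∀ᶠ ξ in 𝓝 (0 : ℂ), f (X ξ) = ξ ^ n := by
  have hn0 : (n : ℂ) ≠ 0 := by
    have : n ≠ 0 := by omega
    exact_mod_cast this
  obtain ⟨c, hc⟩ := IsAlgClosed.exists_pow_nat_eq (u x₀) (n := n) (by omega)
  have hc0 : c ≠ 0 := by
    rintro rfl
    rw [zero_pow (by omega)] at hc
    exact hu0 hc.symm
  set v : ℂ → ℂ := fun x => c * Complex.exp (Complex.log (u x / u x₀) / n) with hv
  have hsl : u x₀ / u x₀ ∈ slitPlane := by
    rw [div_self hu0]
    exact one_mem_slitPlane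
  have h1 : AnalyticAt ℂ (fun x => u x / u x₀) x₀ := hu.div_const
  have h2 : AnalyticAt ℂ v x₀ := by
    refine analyticAt_const.mul ?_
    exact (((h1.clog hsl)).div_const).cexp
  have hv0 : v x₀ = c := by
    rw [hv]
    simp only [div_self hu0, Complex.log_one, zero_div, Complex.exp_zero, mul_one]
  have h3 : ∀ᶠ x in 𝓝 x₀, v x ^ n = u x := by
    filter_upwards [hu.continuousAt.eventually_ne hu0] with x hx
    have h4 : u x / u x₀ ≠ 0 := div_ne_zero hx hu0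
    rw [hv]
    simp only
    rw [mul_pow, hc, ← Complex.exp_nat_mul, mul_div_cancel₀ _ hn0, Complex.exp_log h4]
    field_simp
  set ζ : ℂ → ℂ := fun x => (x - x₀) * v x with hζ
  have h5 : AnalyticAt ℂ ζ x₀ := (analyticAt_id.sub analyticAt_const).mul h2
  have h6 : ζ x₀ = 0 := by simp [hζ]
  have h7 : deriv ζ x₀ ≠ 0 := by
    have h8 : HasDerivAt ζ (1 * v x₀ + (x₀ - x₀) * deriv v x₀) x₀ :=
      ((hasDerivAt_id x₀).sub_const x₀).mul h2.differentiableAt.hasDerivAt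
    rw [h8.deriv, hv0]
    simpa using hc0
  obtain ⟨X, a1, a2, a3, a4, a5⟩ := local_inv h5 h7
  rw [h6] at a1 a2 a3 a4
  refine ⟨X, a1, a2, a3, ?_⟩
  have h9 : Tendsto X (𝓝 0) (𝓝 x₀) := by
    have := a1.continuousAt.tendsto
    rwa [a2] at this
  filter_upwards [a4, h9.eventually (hf.and h3)] with ξ b1 b2
  rw [b2.1, ← b2.2, ← mul_pow]
  congr 1

/-- local logarithm through a given value -/
theorem exists_log {Z : ℂ → ℂ} {x₀ ψ₀ : ℂ} (hZ : AnalyticAt ℂ Z x₀)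
    (h : Complex.exp (I * ψ₀) = Z x₀) :
    ∃ π : ℂ → ℂ, AnalyticAt ℂ π x₀ ∧ π x₀ = ψ₀ ∧ ∀ᶠ x in 𝓝 x₀, Complex.exp (I * π x) = Z x := by
  have h0 : Z x₀ ≠ 0 := by
    rw [← h]
    exact Complex.exp_ne_zero _
  have hsl : Z x₀ / Z x₀ ∈ slitPlane := by
    rw [div_self h0]
    exact one_mem_slitPlane
  refine ⟨fun x => ψ₀ - I * Complex.log (Z x / Z x₀), ?_, ?_, ?_⟩
  · exact analyticAt_const.sub (analyticAt_const.mul ((hZ.div_const).clog hsl))
  · simp only [div_self h0, Complex.log_one, mul_zero, sub_zero]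
  · filter_upwards [hZ.continuousAt.eventually_ne h0] with x hx
    have h1 : Z x / Z x₀ ≠ 0 := div_ne_zero hx h0
    have h2 : I * (ψ₀ - I * Complex.log (Z x / Z x₀)) = I * ψ₀ + Complex.log (Z x / Z x₀) := by
      have := I_mul_I
      linear_combination (-Complex.log (Z x / Z x₀)) * this
    rw [h2, Complex.exp_add, h, Complex.exp_log h1]
    field_simp

/-- uniqueness of the logarithm -/
theorem log_unique {π₁ π₂ : ℂ → ℂ} {x₀ : ℂ} (h1 : ContinuousAt π₁ x₀) (h2 : ContinuousAt π₂ x₀)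
    (h0 : π₁ x₀ = π₂ x₀) (h : ∀ᶠ x in 𝓝 x₀, Complex.exp (I * π₁ x) = Complex.exp (I * π₂ x)) :
    π₁ =ᶠ[𝓝 x₀] π₂ := by
  have h3 : ContinuousAt (fun x => I * π₁ x - I * π₂ x) x₀ :=
    (continuousAt_const.mul h1).sub (continuousAt_const.mul h2)
  have h4 : ∀ᶠ x in 𝓝 x₀, I * π₁ x - I * π₂ x ∈ ball (0 : ℂ) 1 := by
    refine h3.eventually ?_
    show ball (0 : ℂ) 1 ∈ 𝓝 (I * π₁ x₀ - I * π₂ x₀)
    rw [h0, sub_self]
    exact ball_mem_nhds _ one_pos
  filter_upwards [h, h4] with x a b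
  have h5 : Complex.exp (I * π₁ x - I * π₂ x) = 1 := by
    rw [Complex.exp_sub, a, div_self (Complex.exp_ne_zero _)]
  have h6 := abs_im_le_norm (I * π₁ x - I * π₂ x)
  rw [mem_ball_zero_iff] at b
  have hpi := Real.pi_gt_three
  have h7 := abs_lt.1 (lt_of_le_of_lt h6 b)
  have h8 : Complex.log (Complex.exp (I * π₁ x - I * π₂ x)) = I * π₁ x - I * π₂ x :=
    Complex.log_exp (by linarith [h7.1]) (by linarith [h7.2])
  rw [h5, Complex.log_one] at h8
  exact mul_left_cancel₀ I_ne_zero (sub_eq_zero.1 h8.symm)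

/-- uniqueness of the `N`-th root -/
theorem root_unique {f g : ℂ → ℂ} {x₀ : ℂ} {N : ℕ} (hN : 1 ≤ N) (h1 : ContinuousAt f x₀)
    (h2 : ContinuousAt g x₀) (h0 : f x₀ = g x₀) (hg : g x₀ ≠ 0)
    (h : ∀ᶠ x in 𝓝 x₀, f x ^ N = g x ^ N) : f =ᶠ[𝓝 x₀] g := by
  have hc : ContinuousAt (fun x => f x / g x) x₀ := h1.div h2 hg
  have hfin : ({z : ℂ | z ^ N = 1} \ {1}).Finite := by
    have h3 : ({z : ℂ | z ^ N = 1}).Finite := by
      have h4 : (Polynomial.X ^ N - Polynomial.C (1 : ℂ)) ≠ 0 :=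
        Polynomial.X_pow_sub_C_ne_zero (by omega) 1
      refine ((Polynomial.X ^ N - Polynomial.C (1 : ℂ)).roots.toFinset.finite_toSet).subset ?_
      intro z hz
      rw [Finset.mem_coe, Multiset.mem_toFinset, Polynomial.mem_roots h4]
      simp only [Polynomial.IsRoot.def, Polynomial.eval_sub, Polynomial.eval_pow,
        Polynomial.eval_X, Polynomial.eval_C]
      rw [show z ^ N = 1 from hz, sub_self]
    exact h3.subset diff_subset
  have h5 : ∀ᶠ x in 𝓝 x₀, f x / g x ∈ ({z : ℂ | z ^ N = 1} \ {1})ᶜ := by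
    refine hc.eventually (hfin.isClosed.isOpen_compl.mem_nhds ?_)
    show f x₀ / g x₀ ∈ ({z : ℂ | z ^ N = 1} \ {1})ᶜ
    rw [h0, div_self hg]
    simp
  filter_upwards [h, h5, h2.eventually_ne hg] with x a b c
  have h6 : (f x / g x) ^ N = 1 := by
    rw [div_pow, a, div_self (pow_ne_zero _ c)]
  have h7 : f x / g x = 1 := by
    by_contra hne
    exact b ⟨h6, hne⟩
  rwa [div_eq_one_iff_eq c] at h7

/-- punctured discs are preconnected -/
theorem punct_conn' {c : ℂ} {r : ℝ} : IsPreconnected (ball c r \ {c}) := by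
  rcases le_or_gt r 0 with hr | hr
  · rw [ball_eq_empty.2 hr, empty_diff]
    exact isPreconnected_empty
  have h : ball c r \ {c} = (fun w => c + Complex.exp w) '' {w : ℂ | w.re < Real.log r} := by
    ext ξ
    constructor
    · rintro ⟨h1, h2⟩
      have h3 : ξ - c ≠ 0 := sub_ne_zero.2 h2
      refine ⟨Complex.log (ξ - c), ?_, ?_⟩
      · show (Complex.log (ξ - c)).re < Real.log r
        rw [Complex.log_re]
        rw [mem_ball, dist_eq_norm] at h1
        exact Real.log_lt_log (norm_pos_iff.2 h3) h1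
      · simp only [Complex.exp_log h3]
        ring
    · rintro ⟨w, hw, rfl⟩
      refine ⟨?_, ?_⟩
      · rw [mem_ball, dist_eq_norm]
        simp only [add_sub_cancel_left]
        rw [Complex.norm_exp, ← Real.exp_log hr]
        exact Real.exp_lt_exp.2 hw
      · intro h4
        have h5 : Complex.exp w = 0 := by
          have : c + Complex.exp w = c := h4
          simpa using this
        exact Complex.exp_ne_zero _ h5
  rw [h]
  refine (convex_halfSpace_re_lt _).isPreconnected.image _ ?_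
  exact (continuous_const.add Complex.continuous_exp).continuousOn

/-- a property which is locally constant on small punctured discs propagates -/
theorem propagate {U : Set ℂ} (hc : IsPreconnected U) {P : ℂ → Prop}
    (hloc : ∀ x₀ ∈ U, ∀ᶠ x in 𝓝[≠] x₀, ∀ᶠ x' in 𝓝 x, (P x' ↔ P x)) {x₁ : ℂ} (hx₁ : x₁ ∈ U)
    (h1 : ∀ᶠ x in 𝓝[≠] x₁, P x) : ∀ x₀ ∈ U, ∀ᶠ x in 𝓝[≠] x₀, P x := by
  intro x₀ hx₀
  refine (hc.induction₂' (fun x y => (∀ᶠ z in 𝓝[≠] x, P z) ↔ ∀ᶠ z in 𝓝[≠] y, P z) ?_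
    (fun x y z _ _ _ h1 h2 => h1.trans h2) hx₁ hx₀).1 h1
  intro x hx
  have h2 := hloc x hx
  rw [eventually_nhdsWithin_iff, Metric.eventually_nhds_iff_ball] at h2
  obtain ⟨r, hr, h3⟩ := h2
  -- constant on the punctured disc
  have h4 : ∀ y ∈ ball x r \ {x}, ∀ z ∈ ball x r \ {x}, (P y ↔ P z) := by
    intro y hy z hz
    refine (punct_conn' (c := x) (r := r)).induction₂' (fun y z => P y ↔ P z) ?_
      (fun x y z _ _ _ h1 h2 => h1.trans h2) hy hz
    intro y hy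
    filter_upwards [mem_nhdsWithin_of_mem_nhds (h3 y hy.1 hy.2)] with z hz
    exact ⟨hz.symm, hz⟩
  have h5 : ∀ y ∈ ball x r, ∀ᶠ z in 𝓝[≠] y, z ∈ ball x r \ {x} := by
    intro y hy
    have h6 : ∀ᶠ z in 𝓝[≠] y, z ∈ ball x r :=
      mem_nhdsWithin_of_mem_nhds (isOpen_ball.mem_nhds hy)
    by_cases hyx : y = x
    · subst hyx
      filter_upwards [h6, self_mem_nhdsWithin] with z a b
      exact ⟨a, b⟩
    · have h7 : ∀ᶠ z in 𝓝[≠] y, z ≠ x :=
        mem_nhdsWithin_of_mem_nhds (isOpen_ne.mem_nhds hyx)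
      filter_upwards [h6, h7] with z a b
      exact ⟨a, b⟩
  have h8 : ∀ y ∈ ball x r, ∀ z ∈ ball x r,
      ((∀ᶠ w in 𝓝[≠] y, P w) → ∀ᶠ w in 𝓝[≠] z, P w) := by
    intro y hy z hz hP
    obtain ⟨w₀, hw₀⟩ := (hP.and (h5 y hy)).exists
    filter_upwards [h5 z hz] with w hw
    exact (h4 w₀ hw₀.2 w hw).1 hw₀.1
  filter_upwards [mem_nhdsWithin_of_mem_nhds (ball_mem_nhds x hr)] with y hy
  exact ⟨⟨h8 x (mem_ball_self hr) y hy, h8 y hy x (mem_ball_self hr)⟩,
    ⟨h8 y hy x (mem_ball_self hr), h8 x (mem_ball_self hr) y hy⟩⟩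

end Vale.Agent.P097.H898
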