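import Vale.Agent.P097.H898.CiA
import Vale.Agent.P097.H402.Alg.Defs
import Vale.Agent.P097.H846.ContGood
import Vale.Agent.P097.H65.NZA

/-! # P097 / CASE I, part B: goodness along a meromorphic continuation of `exp (i Φ)` -/

set_option linter.all false

open Complex Filter Topology Set Metric

namespace Vale.Agent.P097.H898

open Vale.Agent.P097.TA Vale.Agent.P097.H202 Vale.Agent.P097.H402.Rat Vale.Agent.P097.NZ
open Vale.Agent.P097.Alg

/-- `W = Φ'` if `Z = exp (i Φ)` -/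
noncomputable def Wz (Z : ℂ → ℂ) (x : ℂ) : ℂ := deriv Z x / (I * Z x)

/-- radius of curvature in the Lazutkin coordinate -/
noncomputable def gz (Λ : ℂ) (Z : ℂ → ℂ) (x : ℂ) : ℂ := Λ ^ 3 / Wz Z x ^ 3

/-- regular points of the first kind -/
structure RegZ (Z : ℂ → ℂ) (x : ℂ) : Prop where
  an : AnalyticAt ℂ Z x
  ne : Z x ≠ 0
  d : deriv Z x ≠ 0

/-- the point `x` is good: all the germs of angle functions through `x` are good -/
def GG (Λ : ℂ) (Z : ℂ → ℂ) (x : ℂ) : Prop := ∀ π : ℂ → ℂ, AnalyticAt ℂ π x →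
  (∀ᶠ x' in 𝓝 x, Complex.exp (I * π x') = Z x') → GoodAt π (gz Λ Z) x

variable {Z : ℂ → ℂ} {Λ : ℂ} {x : ℂ}

theorem RegZ.eventually (h : RegZ Z x) : ∀ᶠ x' in 𝓝 x, RegZ Z x' := by
  filter_upwards [h.an.eventually_analyticAt, h.an.continuousAt.eventually_ne h.ne,
    h.an.deriv.continuousAt.eventually_ne h.d] with x' a b c
  exact ⟨a, b, c⟩

theorem RegZ.W_ne (h : RegZ Z x) : Wz Z x ≠ 0 :=
  div_ne_zero h.d (mul_ne_zero I_ne_zero h.ne)

theorem RegZ.W_an (h : RegZ Z x) : AnalyticAt ℂ (Wz Z) x := by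
  unfold Wz
  exact h.an.deriv.div (analyticAt_const.mul h.an) (mul_ne_zero I_ne_zero h.ne)

theorem RegZ.g_an (h : RegZ Z x) : AnalyticAt ℂ (gz Λ Z) x := by
  unfold gz
  exact analyticAt_const.div (h.W_an.pow 3) (pow_ne_zero _ h.W_ne)

theorem RegZ.g_ne (h : RegZ Z x) (hΛ : Λ ≠ 0) : gz Λ Z x ≠ 0 :=
  div_ne_zero (pow_ne_zero _ hΛ) (pow_ne_zero _ h.W_ne)

/-- the derivative of an angle function -/
theorem deriv_log {π : ℂ → ℂ} (hπ : AnalyticAt ℂ π x)
    (h : ∀ᶠ x' in 𝓝 x, Complex.exp (I * π x') = Z x') : deriv π x = Wz Z x := by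
  have h1 : HasDerivAt (fun x' => Complex.exp (I * π x'))
      (Complex.exp (I * π x) * (I * deriv π x)) x :=
    (hπ.differentiableAt.hasDerivAt.const_mul I).cexp
  have h2 : HasDerivAt Z (Complex.exp (I * π x) * (I * deriv π x)) x :=
    h1.congr_of_eventuallyEq (h.mono fun x' hx' => hx'.symm)
  have h3 : Z x ≠ 0 := by
    rw [← h.self_of_nhds]
    exact Complex.exp_ne_zero _
  unfold Wz
  rw [h2.deriv, ← h.self_of_nhds]
  field_simp

theorem goodAt_congr {π π' g : ℂ → ℂ} {u : ℂ} (h : π =ᶠ[𝓝 u] π') (hg : GoodAt π g u) :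
    GoodAt π' g u := by
  intro ρ hρ
  rw [← h.self_of_nhds]
  refine hg ρ ?_
  filter_upwards [h, hρ] with u' a b
  rw [a, b]

/-- goodness is locally constant at the regular points -/
theorem GG_local (hΛ : Λ ≠ 0) (h : RegZ Z x) : ∀ᶠ x' in 𝓝 x, (GG Λ Z x' ↔ GG Λ Z x) := by
  have hq : ContinuousAt (fun x' => Z x' / Z x) x := h.an.continuousAt.div_const _
  have h1 : ∀ᶠ x' in 𝓝 x, Z x' / Z x ∈ slitPlane := by
    refine hq.eventually (isOpen_slitPlane.mem_nhds ?_)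
    show Z x / Z x ∈ slitPlane
    rw [div_self h.ne]
    exact one_mem_slitPlane
  obtain ⟨r, hr, h2⟩ := Metric.eventually_nhds_iff_ball.1 (h.eventually.and h1)
  have key : ∀ x₁ ∈ ball x r, ∀ x₂ ∈ ball x r, GG Λ Z x₁ → GG Λ Z x₂ := by
    intro x₁ hx₁ x₂ hx₂ hG π₂ hπ₂ hπ₂Z
    set ψ₀ : ℂ := π₂ x₂ + I * Complex.log (Z x₂ / Z x) with hψ₀
    set π : ℂ → ℂ := fun x' => ψ₀ - I * Complex.log (Z x' / Z x) with hπ
    have hexp0 : Complex.exp (I * ψ₀) = Z x := by
      have h3 : Z x₂ / Z x ≠ 0 := slitPlane_ne_zero (h2 x₂ hx₂).2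
      have h4 : I * ψ₀ = I * π₂ x₂ - Complex.log (Z x₂ / Z x) := by
        have := I_mul_I
        rw [hψ₀]
        linear_combination (Complex.log (Z x₂ / Z x)) * this
      rw [h4, Complex.exp_sub, Complex.exp_log h3, hπ₂Z.self_of_nhds]
      have h5 := (h2 x₂ hx₂).1.ne
      have h6 := h.ne
      field_simp
    have hexp : ∀ x' ∈ ball x r, Complex.exp (I * π x') = Z x' := by
      intro x' hx'
      have h3 : Z x' / Z x ≠ 0 := slitPlane_ne_zero (h2 x' hx').2
      have h4 : I * π x' = I * ψ₀ + Complex.log (Z x' / Z x) := by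
        have := I_mul_I
        rw [hπ]
        linear_combination (-Complex.log (Z x' / Z x)) * this
      rw [h4, Complex.exp_add, hexp0, Complex.exp_log h3]
      have h6 := h.ne
      field_simp
    have hπa : ∀ x' ∈ ball x r, AnalyticAt ℂ π x' := by
      intro x' hx'
      exact analyticAt_const.sub (analyticAt_const.mul
        (((h2 x' hx').1.an.div_const).clog (h2 x' hx').2))
    have hπx₂ : π x₂ = π₂ x₂ := by
      rw [hπ, hψ₀]
      simp only
      ring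
    have hev : ∀ x' ∈ ball x r, ∀ᶠ x'' in 𝓝 x', Complex.exp (I * π x'') = Z x'' := by
      intro x' hx'
      filter_upwards [isOpen_ball.mem_nhds hx'] with x'' hx''
      exact hexp x'' hx''
    have h7 : GoodAt π (gz Λ Z) x₁ := hG π (hπa x₁ hx₁) (hev x₁ hx₁)
    have h8 := contGood (Vale.Agent.P097.H65.rootA) (ball x r) π (gz Λ Z) x₁ isOpen_ball
      (convex_ball x r).isPreconnected
      (fun x' hx' => (hπa x' hx').differentiableAt.differentiableWithinAt)
      (fun x' hx' => ((h2 x' hx').1.g_an (Λ := Λ)).differentiableAt.differentiableWithinAt)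
      (fun x' hx' => ⟨by
        rw [deriv_log (hπa x' hx') (hev x' hx')]
        exact (h2 x' hx').1.W_ne, (h2 x' hx').1.g_ne hΛ⟩) hx₁ h7 x₂ hx₂
    refine goodAt_congr ?_ h8
    refine log_unique (hπa x₂ hx₂).continuousAt hπ₂.continuousAt hπx₂ ?_
    filter_upwards [hev x₂ hx₂, hπ₂Z] with x' a b
    rw [a, b]
  filter_upwards [ball_mem_nhds x hr] with x' hx'
  exact ⟨key x' hx' x (mem_ball_self hr), key x (mem_ball_self hr) x' hx'⟩

/-- near every point of a meromorphic function, the points are regular -/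
theorem eventually_regZ {b : ℝ} (hb : 0 < b) (mZ : MeromorphicOn Z (Str b))
    (hreal : ∃ x : ℝ, ∀ᶠ z in 𝓝[≠] (x : ℂ), RegZ Z z) :
    ∀ x ∈ Str b, ∀ᶠ z in 𝓝[≠] x, RegZ Z z := by
  have hpc : IsPreconnected (Str b) := (convex_Str b).isPreconnected
  obtain ⟨x₁, hx₁⟩ := hreal
  have hx₁b : (x₁ : ℂ) ∈ Str b := real_mem_Str hb x₁
  have m' : MeromorphicOn (deriv Z) (Str b) := mZ.deriv
  have h1 : meromorphicOrderAt Z x₁ ≠ ⊤ := by
    rw [meromorphicOrderAt_ne_top_iff_eventually_ne_zero (mZ _ hx₁b)]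
    filter_upwards [hx₁] with z hz
    exact hz.ne
  have h2 : meromorphicOrderAt (deriv Z) x₁ ≠ ⊤ := by
    rw [meromorphicOrderAt_ne_top_iff_eventually_ne_zero (m' _ hx₁b)]
    filter_upwards [hx₁] with z hz
    exact hz.d
  intro x hx
  have h3 : meromorphicOrderAt Z x ≠ ⊤ :=
    mZ.meromorphicOrderAt_ne_top_of_isPreconnected hpc hx₁b hx h1
  have h4 : meromorphicOrderAt (deriv Z) x ≠ ⊤ :=
    m'.meromorphicOrderAt_ne_top_of_isPreconnected hpc hx₁b hx h2
  rw [meromorphicOrderAt_ne_top_iff_eventually_ne_zero (mZ _ hx)] at h3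
  rw [meromorphicOrderAt_ne_top_iff_eventually_ne_zero (m' _ hx)] at h4
  filter_upwards [h3, h4, (mZ _ hx).eventually_analyticAt] with z a b c
  exact ⟨c, a, b⟩

/-- goodness near all the points of the strip -/
theorem GG_all {b : ℝ} (hb : 0 < b) (hΛ : Λ ≠ 0) (mZ : MeromorphicOn Z (Str b)) {x₁ : ℝ}
    (hreal : ∀ᶠ z in 𝓝[≠] (x₁ : ℂ), RegZ Z z) (hG : ∀ᶠ z in 𝓝[≠] (x₁ : ℂ), GG Λ Z z) :
    ∀ x ∈ Str b, ∀ᶠ z in 𝓝[≠] x, RegZ Z z ∧ GG Λ Z z := by
  have h1 := eventually_regZ hb mZ ⟨x₁, hreal⟩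
  have h2 := propagate (convex_Str b).isPreconnected (P := GG Λ Z) (fun x hx => by
    filter_upwards [h1 x hx] with z hz
    exact GG_local hΛ hz) (real_mem_Str hb x₁) hG
  exact fun x hx => (h1 x hx).and (h2 x hx)

end Vale.Agent.P097.H898
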