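import Vale.Agent.P097.H898.CiB

/-! # P097 / CASE I, part C: the ends in the strip of meromorphy -/

set_option linter.all false

open Complex Filter Topology Set Metric

namespace Vale.Agent.P097.H898

open Vale.Agent.P097.TA Vale.Agent.P097.H202 Vale.Agent.P097.H402.Rat Vale.Agent.P097.NZ
open Vale.Agent.P097.Alg

variable {Z : ℂ → ℂ} {Λ : ℂ} {x x₀ : ℂ}

theorem ev_ev {P : ℂ → Prop} (h : ∀ᶠ z in 𝓝[≠] x₀, P z) :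
    ∀ᶠ z in 𝓝[≠] x₀, ∀ᶠ z' in 𝓝 z, P z' := by
  rw [eventually_nhdsWithin_iff] at h ⊢
  filter_upwards [h.eventually_nhds] with z hz hz0
  filter_upwards [hz, isOpen_ne.mem_nhds hz0] with z' a b
  exact a b

/-- local coordinate `X` at `x₀`: `x = X ξ` -/
structure Coord (X : ℂ → ℂ) (x₀ : ℂ) (ε : ℝ) : Prop where
  hε : 0 < ε
  an : ∀ ξ ∈ ball (0 : ℂ) ε, AnalyticAt ℂ X ξ
  zero : X 0 = x₀
  d : ∀ ξ ∈ ball (0 : ℂ) ε, deriv X ξ ≠ 0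
  ne : ∀ ξ ∈ ball (0 : ℂ) ε, ξ ≠ 0 → X ξ ≠ x₀

theorem Coord.map {X : ℂ → ℂ} {ε : ℝ} (C : Coord X x₀ ε) {ξ : ℂ} (hξ : ξ ∈ ball (0 : ℂ) ε) :
    map X (𝓝 ξ) = 𝓝 (X ξ) :=
  (C.an ξ hξ).hasStrictDerivAt.map_nhds_eq (C.d ξ hξ)

theorem Coord.mono {X : ℂ → ℂ} {ε ε' : ℝ} (C : Coord X x₀ ε) (h0 : 0 < ε') (h : ε' ≤ ε) :
    Coord X x₀ ε' :=
  ⟨h0, fun ξ hξ => C.an ξ (ball_subset_ball h hξ), C.zero,
    fun ξ hξ => C.d ξ (ball_subset_ball h hξ), fun ξ hξ => C.ne ξ (ball_subset_ball h hξ)⟩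

/-- properties near `x₀` from properties in the coordinate -/
theorem Coord.eventually {X : ℂ → ℂ} {ε : ℝ} (C : Coord X x₀ ε) {P : ℂ → Prop}
    (h : ∀ ξ ∈ ball (0 : ℂ) ε, ξ ≠ 0 → P (X ξ)) : ∀ᶠ x in 𝓝[≠] x₀, P x := by
  have h1 : ∀ᶠ ξ in 𝓝 (0 : ℂ), X ξ ≠ x₀ → P (X ξ) := by
    filter_upwards [ball_mem_nhds (0 : ℂ) C.hε] with ξ hξ h2
    refine h ξ hξ ?_
    rintro rfl
    exact h2 C.zero
  have h3 : ∀ᶠ x in 𝓝 x₀, x ≠ x₀ → P x := by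
    rw [← C.zero, ← C.map (mem_ball_self C.hε), Filter.eventually_map, C.zero]
    exact h1
  exact eventually_nhdsWithin_iff.2 h3

theorem exists_coord {X : ℂ → ℂ} (h1 : AnalyticAt ℂ X 0) (h2 : X 0 = x₀) (h3 : deriv X 0 ≠ 0)
    {P : ℂ → Prop} (hP : ∀ᶠ x in 𝓝[≠] x₀, P x) {P' : ℂ → Prop} (hP' : ∀ᶠ ξ in 𝓝 (0 : ℂ), P' ξ) :
    ∃ ε : ℝ, Coord X x₀ ε ∧ (∀ ξ ∈ ball (0 : ℂ) ε, ξ ≠ 0 → P (X ξ)) ∧
      ∀ ξ ∈ ball (0 : ℂ) ε, P' ξ := by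
  have h4 : ∀ᶠ ξ in 𝓝[≠] (0 : ℂ), X ξ ≠ x₀ :=
    h1.differentiableAt.hasDerivAt.eventually_ne h3
  have h5 : Tendsto X (𝓝[≠] (0 : ℂ)) (𝓝[≠] x₀) := by
    refine tendsto_nhdsWithin_iff.2 ⟨?_, h4⟩
    have := h1.continuousAt.tendsto
    rw [h2] at this
    exact this.mono_left nhdsWithin_le_nhds
  have h6 := h4.and (h5.eventually hP)
  rw [eventually_nhdsWithin_iff] at h6
  obtain ⟨ε, hε, h7⟩ := Metric.eventually_nhds_iff_ball.1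
    (((h1.eventually_analyticAt).and (h1.deriv.continuousAt.eventually_ne h3)).and (h6.and hP'))
  exact ⟨ε, ⟨hε, fun ξ hξ => (h7 ξ hξ).1.1, h2, fun ξ hξ => (h7 ξ hξ).1.2,
    fun ξ hξ hξ0 => ((h7 ξ hξ).2.1 hξ0).1⟩, fun ξ hξ hξ0 => ((h7 ξ hξ).2.1 hξ0).2,
    fun ξ hξ => (h7 ξ hξ).2.2⟩

/-- **finite points** -/
theorem fin_point (hΛ : Λ ≠ 0) (hev : ∀ᶠ z in 𝓝[≠] x₀, RegZ Z z ∧ GG Λ Z z) {Zt : ℂ → ℂ}
    (hZt : AnalyticAt ℂ Zt x₀) (h0 : Zt x₀ ≠ 0) (hZ : ∀ᶠ z in 𝓝[≠] x₀, Z z = Zt z) :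
    ∃ (n : ℕ) (X Φ₀ R : ℂ → ℂ) (ψ₀ : ℂ) (ε : ℝ), 1 ≤ n ∧ Coord X x₀ ε ∧ AnalyticAt ℂ Φ₀ x₀ ∧
      (∀ᶠ x in 𝓝 x₀, Complex.exp (I * Φ₀ x) = Zt x) ∧
      (∀ ξ ∈ ball (0 : ℂ) ε, Φ₀ (X ξ) = ψ₀ + ξ ^ n) ∧
      (∀ ξ ∈ ball (0 : ℂ) ε, ξ ≠ 0 → RegZ Z (X ξ) ∧ GG Λ Z (X ξ) ∧ AnalyticAt ℂ Φ₀ (X ξ) ∧
        ∀ᶠ x in 𝓝 (X ξ), Complex.exp (I * Φ₀ x) = Z x) ∧
      (∀ ξ ∈ ball (0 : ℂ) ε, ξ ≠ 0 → gz Λ Z (X ξ) = ξ ^ (3 - 3 * (n : ℤ)) * R ξ) ∧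
      EndH n (3 - 3 * n) R ψ₀ ε := by
  have hlog : Complex.exp (I * (-I * Complex.log (Zt x₀))) = Zt x₀ := by
    have h1 : I * (-I * Complex.log (Zt x₀)) = Complex.log (Zt x₀) := by
      have := I_mul_I
      linear_combination (-Complex.log (Zt x₀)) * this
    rw [h1, Complex.exp_log h0]
  obtain ⟨Φ₀, a1, a2, a3⟩ := exists_log hZt hlog
  set ψ₀ : ℂ := -I * Complex.log (Zt x₀) with hψ₀
  -- punctured equality, eventually in neighbourhoods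
  have hZ' : ∀ᶠ z in 𝓝[≠] x₀, ∀ᶠ z' in 𝓝 z, Z z' = Zt z' := ev_ev hZ
  have ha3 : ∀ᶠ z in 𝓝[≠] x₀, ∀ᶠ z' in 𝓝 z, Complex.exp (I * Φ₀ z') = Zt z' :=
    eventually_nhdsWithin_of_eventually_nhds a3.eventually_nhds
  have ha1 : ∀ᶠ z in 𝓝[≠] x₀, AnalyticAt ℂ Φ₀ z :=
    eventually_nhdsWithin_of_eventually_nhds a1.eventually_analyticAt
  have hall : ∀ᶠ z in 𝓝[≠] x₀, RegZ Z z ∧ GG Λ Z z ∧ AnalyticAt ℂ Φ₀ z ∧
      ∀ᶠ z' in 𝓝 z, Complex.exp (I * Φ₀ z') = Z z' := by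
    filter_upwards [hev, hZ', ha3, ha1] with z b1 b2 b3 b4
    refine ⟨b1.1, b1.2, b4, ?_⟩
    filter_upwards [b2, b3] with z' c1 c2
    rw [c2, c1]
  -- the order
  have hf : AnalyticAt ℂ (fun z => Φ₀ z - ψ₀) x₀ := a1.sub analyticAt_const
  have hnz : ¬ ∀ᶠ z in 𝓝 x₀, Φ₀ z - ψ₀ = 0 := by
    intro hcon
    have h2 := eventually_nhdsWithin_of_eventually_nhds (s := {x₀}ᶜ) hcon.eventually_nhds
    obtain ⟨z, hz1, hz2⟩ := (h2.and hall).exists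
    have h3 : deriv Φ₀ z = 0 := by
      have h4 : Φ₀ =ᶠ[𝓝 z] fun _ => ψ₀ := by
        filter_upwards [hz1] with z' hz'
        exact sub_eq_zero.1 hz'
      rw [h4.deriv_eq, deriv_const]
    have h5 := deriv_log hz2.2.2.1 hz2.2.2.2
    rw [h3] at h5
    exact hz2.1.W_ne h5.symm
  obtain ⟨n, u, hu, hu0, hfu⟩ := (hf.exists_eventuallyEq_pow_smul_nonzero_iff).2 hnz
  have hn : 1 ≤ n := by
    by_contra hcon
    have hn0 : n = 0 := by omega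
    subst hn0
    have h6 := hfu.self_of_nhds
    rw [a2, sub_self] at h6
    simp at h6
    exact hu0 h6.symm
  obtain ⟨X, b1, b2, b3, b4⟩ := root_coord hn hu hu0 (f := fun z => Φ₀ z - ψ₀)
    (by simpa [smul_eq_mul] using hfu)
  obtain ⟨ε, C, hC, hC'⟩ := exists_coord b1 b2 b3 hall b4.eventually_nhds
  have hn0 : (n : ℂ) ≠ 0 := by
    have : n ≠ 0 := by omega
    exact_mod_cast this
  have hval : ∀ ξ ∈ ball (0 : ℂ) ε, Φ₀ (X ξ) = ψ₀ + ξ ^ n := by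
    intro ξ hξ
    have := (hC' ξ hξ).self_of_nhds
    linear_combination this
  -- the derivative
  have hW : ∀ ξ ∈ ball (0 : ℂ) ε, ξ ≠ 0 → Wz Z (X ξ) * deriv X ξ = n * ξ ^ (n - 1) := by
    intro ξ hξ hξ0
    obtain ⟨c1, c2, c3, c4⟩ := hC ξ hξ hξ0
    rw [← deriv_log c3 c4]
    have h7 : HasDerivAt (fun ξ => Φ₀ (X ξ)) (deriv Φ₀ (X ξ) * deriv X ξ) ξ :=
      HasDerivAt.comp ξ c3.differentiableAt.hasDerivAt (C.an ξ hξ).differentiableAt.hasDerivAt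
    have h8 : HasDerivAt (fun ξ => Φ₀ (X ξ)) (n * ξ ^ (n - 1)) ξ := by
      have h9 : HasDerivAt (fun ξ : ℂ => ψ₀ + ξ ^ n) (n * ξ ^ (n - 1)) ξ :=
        (hasDerivAt_pow n ξ).const_add ψ₀
      refine h9.congr_of_eventuallyEq ?_
      filter_upwards [hC' ξ hξ] with ξ' h10
      linear_combination h10
    exact h7.unique h8
  have hg : ∀ ξ ∈ ball (0 : ℂ) ε, ξ ≠ 0 →
      gz Λ Z (X ξ) = ξ ^ (3 - 3 * (n : ℤ)) * (Λ * deriv X ξ / n) ^ 3 := by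
    intro ξ hξ hξ0
    have h1 := hW ξ hξ hξ0
    have h2 := C.d ξ hξ
    have h3 : Wz Z (X ξ) = n * ξ ^ (n - 1) / deriv X ξ := by
      rw [eq_div_iff h2]
      exact h1
    have h4 : ξ ^ (3 - 3 * (n : ℤ)) = 1 / (ξ ^ (n - 1)) ^ 3 := by
      rw [eq_div_iff (pow_ne_zero _ (pow_ne_zero _ hξ0)), ← pow_mul, ← zpow_natCast, ← zpow_add₀ hξ0]
      have : (3 - 3 * (n : ℤ)) + (((n - 1) * 3 : ℕ) : ℤ) = 0 := by
        push_cast [Nat.cast_sub hn]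
        ring
      rw [this, zpow_zero]
    unfold gz
    rw [h3, h4]
    have h5 : ξ ^ (n - 1) ≠ 0 := pow_ne_zero _ hξ0
    field_simp
  refine ⟨n, X, Φ₀, fun ξ => (Λ * deriv X ξ / n) ^ 3, ψ₀, ε, hn, C, a1, a3, hval, hC, hg, ?_⟩
  refine ⟨C.hε, hn, ?_, ?_, ?_⟩
  · intro ξ hξ
    have h1 : AnalyticAt ℂ (fun ξ => (Λ * deriv X ξ / n) ^ 3) ξ :=
      ((analyticAt_const.mul (C.an ξ hξ).deriv).div_const).pow 3
    exact h1.differentiableAt.differentiableWithinAt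
  · intro ξ hξ
    exact pow_ne_zero _ (div_ne_zero (mul_ne_zero hΛ (C.d ξ hξ)) hn0)
  · intro ξ hξ hξ0 ρ hρ
    obtain ⟨c1, c2, c3, c4⟩ := hC ξ hξ hξ0
    have h1 := c2 Φ₀ c3 c4 ρ ?_
    · rwa [hval ξ hξ] at h1
    · rw [← C.map hξ, Filter.eventually_map]
      have h2 : ∀ᶠ ξ' in 𝓝 ξ, ξ' ∈ ball (0 : ℂ) ε ∧ ξ' ≠ 0 :=
        Filter.Eventually.and (isOpen_ball.mem_nhds hξ) (isOpen_ne.mem_nhds hξ0)
      filter_upwards [hρ, h2] with ξ' d1 d2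
      rw [hval ξ' d2.1, d1, hg ξ' d2.1 d2.2]

/-- **isotropic points** -/
theorem iso_point (hΛ : Λ ≠ 0) (hev : ∀ᶠ z in 𝓝[≠] x₀, RegZ Z z ∧ GG Λ Z z) {f : ℂ → ℂ} {s : ℤ}
    (hs : s = 1 ∨ s = -1) (hf : AnalyticAt ℂ f x₀) (h0 : f x₀ = 0)
    (hZ : ∀ᶠ z in 𝓝[≠] x₀, Z z = f z ^ s) :
    ∃ (N : ℕ) (X : ℂ → ℂ) (ε : ℝ), 1 ≤ N ∧ Coord X x₀ ε ∧
      (∀ ξ ∈ ball (0 : ℂ) ε, ξ ≠ 0 → RegZ Z (X ξ) ∧ GG Λ Z (X ξ) ∧ Z (X ξ) = (ξ ^ N) ^ s) ∧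
      (∀ ξ ∈ ball (0 : ℂ) ε, ξ ≠ 0 →
        gz Λ Z (X ξ) = ξ ^ 3 * (Λ * I * deriv X ξ / (N * s)) ^ 3) ∧
      EndI s N 3 (fun ξ => (Λ * I * deriv X ξ / (N * s)) ^ 3) ε := by
  have hs0 : (s : ℂ) ≠ 0 := by rcases hs with rfl | rfl <;> norm_num
  have hss : s * s = 1 := by rcases hs with rfl | rfl <;> norm_num
  have hnz : ¬ ∀ᶠ z in 𝓝 x₀, f z = 0 := by
    intro hcon
    have h2 := eventually_nhdsWithin_of_eventually_nhds (s := {x₀}ᶜ) hcon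
    obtain ⟨z, hz1, hz2, hz3⟩ := (h2.and (hev.and hZ)).exists
    have h3 : Z z = 0 := by
      rw [hz3, hz1]
      rcases hs with rfl | rfl <;> simp
    exact hz2.1.ne h3
  obtain ⟨N, u, hu, hu0, hfu⟩ := (hf.exists_eventuallyEq_pow_smul_nonzero_iff).2 hnz
  have hN : 1 ≤ N := by
    by_contra hcon
    have hn0 : N = 0 := by omega
    subst hn0
    have h6 := hfu.self_of_nhds
    rw [h0] at h6
    simp at h6
    exact hu0 h6.symm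
  have hN0 : (N : ℂ) ≠ 0 := by
    have : N ≠ 0 := by omega
    exact_mod_cast this
  obtain ⟨X, b1, b2, b3, b4⟩ := root_coord hN hu hu0 (f := f)
    (by simpa [smul_eq_mul] using hfu)
  have hall : ∀ᶠ z in 𝓝[≠] x₀, RegZ Z z ∧ GG Λ Z z ∧ Z z = f z ^ s := by
    filter_upwards [hev, hZ] with z c1 c2
    exact ⟨c1.1, c1.2, c2⟩
  obtain ⟨ε, C, hC, hC'⟩ := exists_coord b1 b2 b3 hall b4
  have hZX : ∀ ξ ∈ ball (0 : ℂ) ε, ξ ≠ 0 → Z (X ξ) = (ξ ^ N) ^ s := by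
    intro ξ hξ hξ0
    rw [(hC ξ hξ hξ0).2.2, hC' ξ hξ]
  have hnear : ∀ ξ ∈ ball (0 : ℂ) ε, ξ ≠ 0 → ∀ᶠ ξ' in 𝓝 ξ, ξ' ∈ ball (0 : ℂ) ε ∧ ξ' ≠ 0 :=
    fun ξ hξ hξ0 => Filter.Eventually.and (isOpen_ball.mem_nhds hξ) (isOpen_ne.mem_nhds hξ0)
  have hW : ∀ ξ ∈ ball (0 : ℂ) ε, ξ ≠ 0 → Wz Z (X ξ) = N * s / (I * ξ * deriv X ξ) := by
    intro ξ hξ hξ0
    obtain ⟨c1, c2, c3⟩ := hC ξ hξ hξ0
    have h7 : HasDerivAt (fun ξ => Z (X ξ)) (deriv Z (X ξ) * deriv X ξ) ξ :=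
      HasDerivAt.comp ξ c1.an.differentiableAt.hasDerivAt
        (C.an ξ hξ).differentiableAt.hasDerivAt
    have h8 : HasDerivAt (fun ξ => Z (X ξ)) (s * (ξ ^ N) ^ (s - 1) * (N * ξ ^ (N - 1))) ξ := by
      have h9 : HasDerivAt (fun ξ : ℂ => (ξ ^ N) ^ s)
          (s * (ξ ^ N) ^ (s - 1) * (N * ξ ^ (N - 1))) ξ :=
        HasDerivAt.comp ξ (hasDerivAt_zpow s (ξ ^ N) (Or.inl (pow_ne_zero _ hξ0)))
          (hasDerivAt_pow N ξ)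
      refine h9.congr_of_eventuallyEq ?_
      filter_upwards [hnear ξ hξ hξ0] with ξ' h10
      exact hZX ξ' h10.1 h10.2
    have h9 := h7.unique h8
    have h10 := C.d ξ hξ
    have h11 : deriv Z (X ξ) = s * (ξ ^ N) ^ (s - 1) * (N * ξ ^ (N - 1)) / deriv X ξ := by
      rw [eq_div_iff h10]
      exact h9
    have h12 : ξ ^ N = ξ * ξ ^ (N - 1) := by
      rw [← pow_succ', Nat.sub_add_cancel hN]
    have h13 : (ξ ^ N) ^ s = (ξ ^ N) ^ (s - 1) * ξ ^ N := by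
      rw [← zpow_add_one₀ (pow_ne_zero _ hξ0), sub_add_cancel]
    have h14 : (ξ ^ N) ^ (s - 1) ≠ 0 := zpow_ne_zero _ (pow_ne_zero _ hξ0)
    have h15 : ξ ^ (N - 1) ≠ 0 := pow_ne_zero _ hξ0
    unfold Wz
    rw [h11, hZX ξ hξ hξ0, h13]
    generalize (ξ ^ N) ^ (s - 1) = A at *
    rw [h12]
    field_simp
  have hg : ∀ ξ ∈ ball (0 : ℂ) ε, ξ ≠ 0 →
      gz Λ Z (X ξ) = ξ ^ 3 * (Λ * I * deriv X ξ / (N * s)) ^ 3 := by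
    intro ξ hξ hξ0
    have h2 := C.d ξ hξ
    have h3 := I_ne_zero
    unfold gz
    rw [hW ξ hξ hξ0]
    field_simp
  refine ⟨N, X, ε, hN, C, fun ξ hξ hξ0 => ⟨(hC ξ hξ hξ0).1, (hC ξ hξ hξ0).2.1, hZX ξ hξ hξ0⟩,
    hg, ?_⟩
  refine ⟨?_, C.hε, hN, ?_, ?_, ?_⟩
  · rcases hs with rfl | rfl
    · left; norm_num
    · right; norm_num
  · intro ξ hξ
    have h1 : AnalyticAt ℂ (fun ξ => (Λ * I * deriv X ξ / (N * s)) ^ 3) ξ :=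
      ((analyticAt_const.mul (C.an ξ hξ).deriv).div_const).pow 3
    exact h1.differentiableAt.differentiableWithinAt
  · intro ξ hξ
    exact pow_ne_zero _ (div_ne_zero (mul_ne_zero (mul_ne_zero hΛ I_ne_zero) (C.d ξ hξ))
      (mul_ne_zero hN0 hs0))
  · intro ξ₁ hξ₁ hξ₁0 ψ₁ hψ₁ ρ hρ
    obtain ⟨c1, c2, c3⟩ := hC ξ₁ hξ₁ hξ₁0
    have hexp : ∀ ψ : ℂ, Complex.exp (s * I * ψ) = Complex.exp (I * ψ) ^ s := by
      intro ψ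
      rw [← Complex.exp_int_mul]
      congr 1
      ring
    have hψ₁Z : Complex.exp (I * ψ₁) = Z (X ξ₁) := by
      rw [hZX ξ₁ hξ₁ hξ₁0, ← hψ₁, hexp, ← zpow_mul, hss, zpow_one]
    obtain ⟨π, d1, d2, d3⟩ := exists_log c1.an hψ₁Z
    have h1 := c2 π d1 d3 ρ ?_
    · rwa [d2] at h1
    · rw [← C.map hξ₁, Filter.eventually_map]
      -- `xiI (π (X ξ')) = ξ'`
      have hXc : ContinuousAt X ξ₁ := (C.an ξ₁ hξ₁).continuousAt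
      have hπX : ContinuousAt (fun ξ' => π (X ξ')) ξ₁ :=
        ContinuousAt.comp (f := X) (g := π) d1.continuousAt hXc
      have h2 : (fun ξ' => xiI s N ψ₁ ξ₁ (π (X ξ'))) =ᶠ[𝓝 ξ₁] fun ξ' => ξ' := by
        refine root_unique hN ?_ continuousAt_id ?_ hξ₁0 ?_
        · unfold xiI
          refine continuousAt_const.mul ?_
          refine ContinuousAt.cexp ?_
          exact (continuousAt_const.mul (hπX.sub continuousAt_const)).div_const _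
        · simp only [xiI, d2, sub_self, mul_zero, zero_div, Complex.exp_zero, mul_one]
        · filter_upwards [hXc.eventually d3, hnear ξ₁ hξ₁ hξ₁0] with ξ' e1 e2
          unfold xiI
          rw [mul_pow, ← Complex.exp_nat_mul]
          have h3 : (N : ℂ) * (s * I * (π (X ξ') - ψ₁) / N) =
              s * I * π (X ξ') - s * I * ψ₁ := by
            field_simp
          rw [h3, Complex.exp_sub, hψ₁, hexp, e1, hZX ξ' e2.1 e2.2, ← zpow_mul, hss, zpow_one]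
          have h4 : ξ₁ ^ N ≠ 0 := pow_ne_zero _ hξ₁0
          field_simp
      have h3 : ∀ᶠ ξ' in 𝓝 ξ₁, ρ (π (X ξ')) = xiI s N ψ₁ ξ₁ (π (X ξ')) ^ (3 : ℤ) *
          (Λ * I * deriv X (xiI s N ψ₁ ξ₁ (π (X ξ'))) / (N * s)) ^ 3 := by
        have h4 : Tendsto (fun ξ' => π (X ξ')) (𝓝 ξ₁) (𝓝 ψ₁) := by
          have := hπX.tendsto
          rwa [d2] at this
        exact h4.eventually hρ
      filter_upwards [h2, h3, hnear ξ₁ hξ₁ hξ₁0] with ξ' e1 e2 e3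
      rw [e2, e1, hg ξ' e3.1 e3.2]
      norm_cast

end Vale.Agent.P097.H898
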