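import Vale.Agent.P097.H898.CiC
import Vale.Agent.P097.H402.Alg.Main

/-! # P097 / CASE I, part D: the conic invariant in the Lazutkin coordinate -/

set_option linter.all false

open Complex Filter Topology Set Metric

namespace Vale.Agent.P097.H898

open Vale.Agent.P097.TA Vale.Agent.P097.H202 Vale.Agent.P097.H402.Rat Vale.Agent.P097.NZ
open Vale.Agent.P097.Alg

variable {Z : ℂ → ℂ} {Λ : ℂ} {x x₀ : ℂ}

/-- `(2 W³ + W'') / (Λ² W)` -/
noncomputable def Qc (Λ : ℂ) (Z : ℂ → ℂ) (x : ℂ) : ℂ :=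
  (2 * Wz Z x ^ 3 + deriv (deriv (Wz Z)) x) / (Λ ^ 2 * Wz Z x)

/-- one derivative -/
theorem step_deriv {π g ρ : ℂ → ℂ} (hπ : AnalyticAt ℂ π x) (hd : deriv π x ≠ 0)
    (hg : AnalyticAt ℂ g x) (h : ∀ᶠ x' in 𝓝 x, ρ (π x') = g x') :
    ∀ᶠ x' in 𝓝 x, deriv ρ (π x') = deriv g x' / deriv π x' := by
  have hcomp : AnalyticAt ℂ (ρ ∘ π) x := hg.congr (by
    filter_upwards [h] with x hx
    exact hx.symm)
  have hρ : AnalyticAt ℂ ρ (π x) := (analyticAt_comp_iff_of_deriv_ne_zero hπ hd).1 hcomp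
  have hρe : ∀ᶠ x' in 𝓝 x, AnalyticAt ℂ ρ (π x') :=
    hπ.continuousAt.eventually hρ.eventually_analyticAt
  filter_upwards [h.eventually_nhds, hρe, hg.eventually_analyticAt, hπ.eventually_analyticAt,
    hπ.deriv.continuousAt.eventually_ne hd] with x' h1 h2 h3 h4 h5
  have e1 : HasDerivAt (fun x => ρ (π x)) (deriv ρ (π x') * deriv π x') x' :=
    HasDerivAt.comp x' h2.differentiableAt.hasDerivAt h4.differentiableAt.hasDerivAt
  have e2 : HasDerivAt (fun x => ρ (π x)) (deriv g x') x' :=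
    h3.differentiableAt.hasDerivAt.congr_of_eventuallyEq h1
  rw [eq_div_iff h5]
  exact e1.unique e2

/-- the conic invariant in the Lazutkin coordinate -/
theorem kap_eq (hΛ : Λ ≠ 0) (h : RegZ Z x) {π ρ : ℂ → ℂ} (hπ : AnalyticAt ℂ π x)
    (hZ : ∀ᶠ x' in 𝓝 x, Complex.exp (I * π x') = Z x')
    (hρ : ∀ᶠ x' in 𝓝 x, ρ (π x') = gz Λ Z x') : kap ρ (π x) = Qc Λ Z x ^ 3 := by
  have hW := h.W_ne
  have hWe : ∀ᶠ x' in 𝓝 x, deriv π x' = Wz Z x' := by
    filter_upwards [hZ.eventually_nhds, hπ.eventually_analyticAt] with x' a b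
    exact deriv_log b a
  have hd : deriv π x ≠ 0 := by
    rw [hWe.self_of_nhds]
    exact hW
  have hWn : ∀ᶠ x' in 𝓝 x, Wz Z x' ≠ 0 := h.W_an.continuousAt.eventually_ne hW
  -- first derivative
  have s1 : ∀ᶠ x' in 𝓝 x, deriv ρ (π x') = -3 * Λ ^ 3 * deriv (Wz Z) x' / Wz Z x' ^ 5 := by
    filter_upwards [step_deriv hπ hd h.g_an hρ, hWe, hWn, h.W_an.eventually_analyticAt]
      with x' a b c d
    rw [a, b]
    have e1 : HasDerivAt (gz Λ Z) (-(Λ ^ 3 * (3 * Wz Z x' ^ 2 * deriv (Wz Z) x')) /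
        (Wz Z x' ^ 3) ^ 2) x' := by
      have e2 : HasDerivAt (fun x => Wz Z x ^ 3) (3 * Wz Z x' ^ 2 * deriv (Wz Z) x') x' := by
        have := d.differentiableAt.hasDerivAt.fun_pow 3
        simpa using this
      have e3 := (hasDerivAt_const x' (Λ ^ 3)).fun_div e2 (pow_ne_zero 3 c)
      refine e3.congr_deriv ?_
      ring
    rw [e1.deriv]
    field_simp
  have g1_an : AnalyticAt ℂ (fun x' => -3 * Λ ^ 3 * deriv (Wz Z) x' / Wz Z x' ^ 5) x :=
    (analyticAt_const.mul h.W_an.deriv).div (h.W_an.pow 5) (pow_ne_zero _ hW)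
  have s2 : deriv (deriv ρ) (π x) = -3 * Λ ^ 3 * (deriv (deriv (Wz Z)) x / Wz Z x ^ 6 -
      5 * deriv (Wz Z) x ^ 2 / Wz Z x ^ 7) := by
    have h2 := (step_deriv hπ hd g1_an s1).self_of_nhds
    rw [h2, hWe.self_of_nhds]
    have e2 : HasDerivAt (fun x => Wz Z x ^ 5) (5 * Wz Z x ^ 4 * deriv (Wz Z) x) x := by
      have := h.W_an.differentiableAt.hasDerivAt.fun_pow 5
      simpa using this
    have e3 : HasDerivAt (fun x => -3 * Λ ^ 3 * deriv (Wz Z) x)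
        (-3 * Λ ^ 3 * deriv (deriv (Wz Z)) x) x :=
      h.W_an.deriv.differentiableAt.hasDerivAt.const_mul _
    have e4 := e3.fun_div e2 (pow_ne_zero 5 hW)
    rw [e4.deriv]
    field_simp
    ring
  rw [kap, hρ.self_of_nhds, s1.self_of_nhds, s2, Qc, gz]
  field_simp
  ring

/-- a meromorphic function which is locally bounded extends to a holomorphic function -/
theorem ext_hol {U : Set ℂ} {f : ℂ → ℂ} (hf : MeromorphicOn f U)
    (hb : ∀ x ∈ U, ∃ M : ℝ, ∀ᶠ z in 𝓝[≠] x, ‖f z‖ ≤ M) :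
    ∃ F : ℂ → ℂ, (∀ x ∈ U, AnalyticAt ℂ F x) ∧ ∀ x ∈ U, ∀ᶠ z in 𝓝[≠] x, f z = F z := by
  refine ⟨toMeromorphicNFOn f U, ?_, ?_⟩
  · intro x hx
    have h1 : MeromorphicNFAt (toMeromorphicNFOn f U) x :=
      meromorphicNFOn_toMeromorphicNFOn f U hx
    rw [← h1.meromorphicOrderAt_nonneg_iff_analyticAt, meromorphicOrderAt_toMeromorphicNFOn hf hx]
    by_contra hcon
    push Not at hcon
    have h2 := tendsto_cobounded_of_meromorphicOrderAt_neg hcon
    obtain ⟨M, hM⟩ := hb x hx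
    rw [← tendsto_norm_atTop_iff_cobounded] at h2
    obtain ⟨z, hz1, hz2⟩ := ((h2.eventually_gt_atTop M).and hM).exists
    exact absurd hz2 (not_le.2 hz1)
  · intro x hx
    exact (hf.toMeromorphicNFOn_eq_self_on_nhdsNE hx).symm
end Vale.Agent.P097.H898
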