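import Vale.Agent.P097.H898.CiD
import Vale.Agent.P097.H147.EL
import Vale.Agent.P097.H791.Iso2

/-! # P097 / CASE I, part E: classification of the points, bounds -/

set_option linter.all false

open Complex Filter Topology Set Metric

namespace Vale.Agent.P097.H898

open Vale.Agent.P097.TA Vale.Agent.P097.H202 Vale.Agent.P097.H402.Rat Vale.Agent.P097.NZ
open Vale.Agent.P097.Alg

variable {Z : ℂ → ℂ} {Λ : ℂ} {x x₀ : ℂ}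

/-- exponents at the finite points -/
theorem fin_exp {n : ℕ} {R : ℂ → ℂ} {ψ₀ : ℂ} {ε : ℝ} (E : EndH n (3 - 3 * n) R ψ₀ ε) :
    n = 1 ∨ n = 2 := by
  have hN := E.hN
  have hN0 : (0 : ℝ) < n := by exact_mod_cast hN
  obtain ⟨F, hF, hodd, hFc, hlaw⟩ := (endE Vale.Agent.P097.H65.rootA) n (3 - 3 * n) R ψ₀ ε E.hε hN
    E.dR E.R0 E.good
  have hcast : (((3 - 3 * n : ℤ) : ℂ) / (n : ℂ)) = ((((3 - 3 * n : ℤ) : ℝ) / (n : ℝ) : ℝ) : ℂ) := by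
    push_cast
    rfl
  simp only [hcast] at hlaw
  obtain ⟨f, hf⟩ := (Vale.Agent.P097.NZ.lawEB Vale.Agent.P097.H65.rootA)
    (((3 - 3 * n : ℤ) : ℝ) / n) F hF hodd hFc hlaw
  rcases kb_main _ f hf with h1 | h1 | h1
  · left
    rw [div_eq_zero_iff] at h1
    rcases h1 with h1 | h1
    · have : (3 - 3 * n : ℤ) = 0 := by exact_mod_cast h1
      omega
    · exact absurd h1 hN0.ne'
  · right
    rw [div_eq_div_iff hN0.ne' two_ne_zero] at h1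
    have : ((2 * (3 - 3 * n) : ℤ) : ℝ) = ((-3 * n : ℤ) : ℝ) := by
      push_cast at h1 ⊢
      linarith
    have h2 : (2 * (3 - 3 * n) : ℤ) = -3 * n := by exact_mod_cast this
    omega
  · exfalso
    rw [div_le_iff₀ hN0] at h1
    push_cast at h1
    linarith

/-- exponents at the isotropic points -/
theorem iso_exp {s : ℂ} {N : ℕ} {R : ℂ → ℂ} {ε : ℝ} (E : EndI s N 3 R ε) : N = 1 := by
  have hN := E.hN
  have hN0 : (0 : ℝ) < N := by exact_mod_cast hN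
  obtain ⟨f, hf⟩ := (Vale.Agent.P097.H147.endLI Vale.Agent.P097.H65.rootA
    (Vale.Agent.P097.Alg.lawI0 Vale.Agent.P097.H65.rootA)) s N 3 R ε E (by norm_num)
  have h3 : (3 * (N : ℝ) / ((3 : ℤ) : ℝ)) = N := by
    push_cast
    field_simp
  rw [h3] at hf
  by_contra hne
  rcases lt_or_ge (N : ℝ) 3 with h2 | h2
  · refine Vale.Agent.P097.H244.pk5 _ f hN0 h2 ?_ hf
    exact_mod_cast hne
  · exact Vale.Agent.P097.H330.KI.pk6 _ f h2 hf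

/-- the alternative at a point -/
theorem point_cases (hev : ∀ᶠ z in 𝓝[≠] x₀, RegZ Z z) (hm : MeromorphicAt Z x₀) :
    (meromorphicOrderAt Z x₀ = 0 ∧ ∃ Zt : ℂ → ℂ, AnalyticAt ℂ Zt x₀ ∧ Zt x₀ ≠ 0 ∧
      ∀ᶠ z in 𝓝[≠] x₀, Z z = Zt z) ∨
    (meromorphicOrderAt Z x₀ ≠ 0 ∧ ∃ (f : ℂ → ℂ) (s : ℤ), (s = 1 ∨ s = -1) ∧ AnalyticAt ℂ f x₀ ∧
      f x₀ = 0 ∧ ∀ᶠ z in 𝓝[≠] x₀, Z z = f z ^ s) := by
  have h1 : meromorphicOrderAt Z x₀ ≠ ⊤ := by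
    rw [meromorphicOrderAt_ne_top_iff_eventually_ne_zero hm]
    filter_upwards [hev] with z hz
    exact hz.ne
  obtain ⟨n, hn⟩ := WithTop.ne_top_iff_exists.1 h1
  obtain ⟨g, g1, g2, g3⟩ := (meromorphicOrderAt_eq_int_iff hm).1 hn.symm
  rcases lt_trichotomy n 0 with hn0 | hn0 | hn0
  · right
    refine ⟨?_, fun z => (z - x₀) ^ n.natAbs * (g z)⁻¹, -1, Or.inr rfl, ?_, ?_, ?_⟩
    · rw [← hn]
      intro hcon
      have : n = 0 := by exact_mod_cast hcon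
      omega
    · exact ((analyticAt_id.sub analyticAt_const).pow _).mul (g1.inv g2)
    · have : n.natAbs ≠ 0 := by omega
      simp [this]
    · filter_upwards [g3, self_mem_nhdsWithin] with z hz hz0
      have h2 : z - x₀ ≠ 0 := sub_ne_zero.2 hz0
      have h3 : n = -(n.natAbs : ℤ) := by omega
      rw [hz, smul_eq_mul, zpow_neg, zpow_one, mul_inv, inv_inv]
      congr 1
      rw [← zpow_natCast, ← zpow_neg]
      congr 1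
  · left
    refine ⟨by rw [← hn, hn0]; rfl, g, g1, g2, ?_⟩
    filter_upwards [g3] with z hz
    rw [hz, hn0]
    simp
  · right
    refine ⟨?_, fun z => (z - x₀) ^ n.natAbs * g z, 1, Or.inl rfl, ?_, ?_, ?_⟩
    · rw [← hn]
      intro hcon
      have : n = 0 := by exact_mod_cast hcon
      omega
    · exact ((analyticAt_id.sub analyticAt_const).pow _).mul g1
    · have : n.natAbs ≠ 0 := by omega
      simp [this]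
    · filter_upwards [g3] with z hz
      have h3 : n = (n.natAbs : ℤ) := by omega
      rw [hz, smul_eq_mul, zpow_one]
      congr 1
      rw [← zpow_natCast]
      congr 1

theorem exists_rhoZ {π : ℂ → ℂ} (hπ : AnalyticAt ℂ π x) (hd : deriv π x ≠ 0) (g : ℂ → ℂ) :
    ∃ ρ : ℂ → ℂ, ∀ᶠ x' in 𝓝 x, ρ (π x') = g x' := by
  obtain ⟨v, -, -, -, -, hv⟩ := local_inv hπ hd
  refine ⟨fun ψ => g (v ψ), ?_⟩
  filter_upwards [hv] with x' hx'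
  rw [hx']

theorem cube_bd {q : ℂ} {M : ℝ} (h : ‖q ^ 3‖ ≤ M) : ‖q‖ ≤ max 1 M := by
  rw [norm_pow] at h
  by_contra hcon
  push Not at hcon
  have h1 : 1 < ‖q‖ := lt_of_le_of_lt (le_max_left _ _) hcon
  have h2 : M < ‖q‖ := lt_of_le_of_lt (le_max_right _ _) hcon
  have h3 : ‖q‖ ≤ ‖q‖ ^ 3 := le_self_pow₀ h1.le (by norm_num)
  linarith

/-- bound at the finite points -/
theorem bdd_fin (eb : EndBd) (hΛ : Λ ≠ 0) (hev : ∀ᶠ z in 𝓝[≠] x₀, RegZ Z z ∧ GG Λ Z z)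
    {Zt : ℂ → ℂ} (hZt : AnalyticAt ℂ Zt x₀) (h0 : Zt x₀ ≠ 0)
    (hZ : ∀ᶠ z in 𝓝[≠] x₀, Z z = Zt z) : ∃ M : ℝ, ∀ᶠ z in 𝓝[≠] x₀, ‖Qc Λ Z z‖ ≤ M := by
  obtain ⟨n, X, Φ₀, R, ψ₀, ε, hn, C, a1, a2, a3, a4, a5, E⟩ := fin_point hΛ hev hZt h0 hZ
  obtain ⟨r, hr, hrε, M, hM⟩ := eb _ _ _ _ _ E
  refine ⟨max 1 M, (C.mono hr hrε).eventually fun ξ hξ hξ0 => ?_⟩
  have hξ' : ξ ∈ ball (0 : ℂ) ε := ball_subset_ball hrε hξ
  obtain ⟨c1, c2, c3, c4⟩ := a4 ξ hξ' hξ0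
  have hd : deriv Φ₀ (X ξ) ≠ 0 := by
    rw [deriv_log c3 c4]
    exact c1.W_ne
  obtain ⟨ρ, hρ⟩ := exists_rhoZ c3 hd (gz Λ Z)
  refine cube_bd ?_
  rw [← kap_eq hΛ c1 c3 c4 hρ, a3 ξ hξ']
  refine hM ξ hξ hξ0 ρ ?_
  have h1 : ∀ᶠ ξ' in 𝓝 ξ, ρ (Φ₀ (X ξ')) = gz Λ Z (X ξ') := by
    rw [← C.map hξ', Filter.eventually_map] at hρ
    exact hρ
  have h2 : ∀ᶠ ξ' in 𝓝 ξ, ξ' ∈ ball (0 : ℂ) ε ∧ ξ' ≠ 0 :=
    Filter.Eventually.and (isOpen_ball.mem_nhds hξ') (isOpen_ne.mem_nhds hξ0)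
  filter_upwards [h1, h2] with ξ' d1 d2
  rw [← a3 ξ' d2.1, d1, a5 ξ' d2.1 d2.2]

theorem xiI_root {s : ℤ} (hs : s = 1 ∨ s = -1) {N : ℕ} (hN : 1 ≤ N) {X : ℂ → ℂ} {ε : ℝ}
    (C : Coord X x₀ ε) (hZX : ∀ ξ ∈ ball (0 : ℂ) ε, ξ ≠ 0 → Z (X ξ) = (ξ ^ N) ^ s) {ξ₁ ψ₁ : ℂ}
    (hξ₁ : ξ₁ ∈ ball (0 : ℂ) ε) (hξ₁0 : ξ₁ ≠ 0) (hψ₁ : Complex.exp (s * I * ψ₁) = ξ₁ ^ N)
    {π : ℂ → ℂ} (d1 : AnalyticAt ℂ π (X ξ₁)) (d2 : π (X ξ₁) = ψ₁)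
    (d3 : ∀ᶠ x in 𝓝 (X ξ₁), Complex.exp (I * π x) = Z x) :
    ∀ᶠ ξ' in 𝓝 ξ₁, xiI s N ψ₁ ξ₁ (π (X ξ')) = ξ' := by
  have hss : s * s = 1 := by rcases hs with rfl | rfl <;> norm_num
  have hN0 : (N : ℂ) ≠ 0 := by
    have : N ≠ 0 := by omega
    exact_mod_cast this
  have hexp : ∀ ψ : ℂ, Complex.exp (s * I * ψ) = Complex.exp (I * ψ) ^ s := by
    intro ψ
    rw [← Complex.exp_int_mul]
    congr 1
    ring
  have hnear : ∀ᶠ ξ' in 𝓝 ξ₁, ξ' ∈ ball (0 : ℂ) ε ∧ ξ' ≠ 0 :=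
    Filter.Eventually.and (isOpen_ball.mem_nhds hξ₁) (isOpen_ne.mem_nhds hξ₁0)
  have hXc : ContinuousAt X ξ₁ := (C.an ξ₁ hξ₁).continuousAt
  have hπX : ContinuousAt (fun ξ' => π (X ξ')) ξ₁ :=
    ContinuousAt.comp (f := X) (g := π) d1.continuousAt hXc
  refine root_unique hN ?_ continuousAt_id ?_ hξ₁0 ?_
  · unfold xiI
    refine continuousAt_const.mul ?_
    refine ContinuousAt.cexp ?_
    exact (continuousAt_const.mul (hπX.sub continuousAt_const)).div_const _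
  · simp only [xiI, d2, sub_self, mul_zero, zero_div, Complex.exp_zero, mul_one, id]
  · filter_upwards [hXc.eventually d3, hnear] with ξ' e1 e2
    unfold xiI
    rw [mul_pow, ← Complex.exp_nat_mul]
    have h3 : (N : ℂ) * (s * I * (π (X ξ') - ψ₁) / N) =
        s * I * π (X ξ') - s * I * ψ₁ := by
      field_simp
    rw [h3, Complex.exp_sub, hψ₁, hexp, e1, hZX ξ' e2.1 e2.2, ← zpow_mul, hss, zpow_one]
    have h4 : ξ₁ ^ N ≠ 0 := pow_ne_zero _ hξ₁0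
    show ξ₁ ^ N * (ξ' ^ N / ξ₁ ^ N) = ξ' ^ N
    field_simp

/-- bound at the isotropic points -/
theorem bdd_iso (ei : EndBdI) (hΛ : Λ ≠ 0) (hev : ∀ᶠ z in 𝓝[≠] x₀, RegZ Z z ∧ GG Λ Z z)
    {f : ℂ → ℂ} {s : ℤ} (hs : s = 1 ∨ s = -1) (hf : AnalyticAt ℂ f x₀) (h0 : f x₀ = 0)
    (hZ : ∀ᶠ z in 𝓝[≠] x₀, Z z = f z ^ s) : ∃ M : ℝ, ∀ᶠ z in 𝓝[≠] x₀, ‖Qc Λ Z z‖ ≤ M := by
  have hss : s * s = 1 := by rcases hs with rfl | rfl <;> norm_num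
  obtain ⟨N, X, ε, hN, C, a4, a5, E⟩ := iso_point hΛ hev hs hf h0 hZ
  obtain ⟨r, hr, hrε, M, hM⟩ := ei _ _ _ _ _ E
  refine ⟨max 1 M, (C.mono hr hrε).eventually fun ξ hξ hξ0 => ?_⟩
  have hξ' : ξ ∈ ball (0 : ℂ) ε := ball_subset_ball hrε hξ
  obtain ⟨c1, c2, c3⟩ := a4 ξ hξ' hξ0
  have hexp : ∀ ψ : ℂ, Complex.exp (s * I * ψ) = Complex.exp (I * ψ) ^ s := by
    intro ψ
    rw [← Complex.exp_int_mul]
    congr 1
    ring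
  obtain ⟨ψ₁, hψ₁⟩ : ∃ ψ₁ : ℂ, Complex.exp (I * ψ₁) = Z (X ξ) := by
    refine ⟨-I * Complex.log (Z (X ξ)), ?_⟩
    have h1 : I * (-I * Complex.log (Z (X ξ))) = Complex.log (Z (X ξ)) := by
      have := I_mul_I
      linear_combination (-Complex.log (Z (X ξ))) * this
    rw [h1, Complex.exp_log c1.ne]
  have hψ₁' : Complex.exp (s * I * ψ₁) = ξ ^ N := by
    rw [hexp, hψ₁, c3, ← zpow_mul, hss, zpow_one]
  obtain ⟨π, d1, d2, d3⟩ := exists_log c1.an hψ₁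
  have hd : deriv π (X ξ) ≠ 0 := by
    rw [deriv_log d1 d3]
    exact c1.W_ne
  obtain ⟨ρ, hρ⟩ := exists_rhoZ d1 hd (gz Λ Z)
  refine cube_bd ?_
  rw [← kap_eq hΛ c1 d1 d3 hρ, d2]
  refine hM ξ hξ hξ0 ψ₁ hψ₁' ρ ?_
  have hmap : map (fun ξ' => π (X ξ')) (𝓝 ξ) = 𝓝 ψ₁ := by
    have h1 : map π (𝓝 (X ξ)) = 𝓝 (π (X ξ)) := d1.hasStrictDerivAt.map_nhds_eq hd
    rw [d2] at h1
    rw [← h1, ← C.map hξ', Filter.map_map]
    rfl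
  rw [← hmap, Filter.eventually_map]
  have h1 : ∀ᶠ ξ' in 𝓝 ξ, ρ (π (X ξ')) = gz Λ Z (X ξ') := by
    rw [← C.map hξ', Filter.eventually_map] at hρ
    exact hρ
  have h2 : ∀ᶠ ξ' in 𝓝 ξ, ξ' ∈ ball (0 : ℂ) ε ∧ ξ' ≠ 0 :=
    Filter.Eventually.and (isOpen_ball.mem_nhds hξ') (isOpen_ne.mem_nhds hξ0)
  filter_upwards [h1, h2, xiI_root hs hN C (fun ξ hξ hξ0 => (a4 ξ hξ hξ0).2.2) hξ' hξ0 hψ₁' d1 d2 d3]
    with ξ' e1 e2 e3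
  rw [e3, e1, a5 ξ' e2.1 e2.2]
  norm_cast

end Vale.Agent.P097.H898
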