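import Vale.Agent.P097.H898.CiE
import Vale.Agent.P097.H818.EndI

/-! # P097 / CASE I, part F: global statements -/

set_option linter.all false

open Complex Filter Topology Set Metric
open scoped ComplexConjugate

namespace Vale.Agent.P097.H898

open Vale.Agent.P097.TA Vale.Agent.P097.H202 Vale.Agent.P097.H402.Rat Vale.Agent.P097.NZ
open Vale.Agent.P097.Alg

variable {Z : ℂ → ℂ} {Λ : ℂ} {x x₀ : ℂ}

theorem mero_Wz {b : ℝ} (mZ : MeromorphicOn Z (Str b)) : MeromorphicOn (Wz Z) (Str b) :=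
  fun x hx => (mZ.deriv x hx).fun_div ((MeromorphicAt.const I x).fun_mul (mZ x hx))

theorem mero_Qc {b : ℝ} (mZ : MeromorphicOn Z (Str b)) : MeromorphicOn (Qc Λ Z) (Str b) := by
  have h1 := mero_Wz mZ
  intro x hx
  have h2 : MeromorphicAt (Wz Z) x := h1 x hx
  have h3 : MeromorphicAt (deriv (deriv (Wz Z))) x := h1.deriv.deriv x hx
  exact (((MeromorphicAt.const 2 x).fun_mul (h2.fun_pow 3)).fun_add h3).fun_div
    ((MeromorphicAt.const (Λ ^ 2) x).fun_mul h2)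

/-- **the conic invariant is holomorphic in the strip** -/
theorem exists_Q (eb : EndBd) (ei : EndBdI) (hΛ : Λ ≠ 0) {b : ℝ} (mZ : MeromorphicOn Z (Str b))
    (hall : ∀ x ∈ Str b, ∀ᶠ z in 𝓝[≠] x, RegZ Z z ∧ GG Λ Z z) :
    ∃ Q : ℂ → ℂ, (∀ x ∈ Str b, AnalyticAt ℂ Q x) ∧
      ∀ x ∈ Str b, ∀ᶠ z in 𝓝[≠] x, Qc Λ Z z = Q z := by
  refine ext_hol (mero_Qc mZ) fun x hx => ?_
  rcases point_cases ((hall x hx).mono fun z hz => hz.1) (mZ x hx) with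
    ⟨-, Zt, h1, h2, h3⟩ | ⟨-, f, s, h1, h2, h3, h4⟩
  · exact bdd_fin eb hΛ (hall x hx) h1 h2 h3
  · exact bdd_iso ei hΛ (hall x hx) h1 h2 h3 h4

/-- reflection and derivative -/
theorem refl_deriv {F : ℂ → ℂ} {c : ℂ} (h : ∀ᶠ z in 𝓝[≠] x₀, F (2 * x₀ - z) = c * F z) :
    ∀ᶠ z in 𝓝[≠] x₀, deriv F (2 * x₀ - z) = -c * deriv F z := by
  filter_upwards [ev_ev h] with z hz
  have h1 : (fun z => F (2 * x₀ - z)) =ᶠ[𝓝 z] fun z => c * F z := hz
  have h2 := h1.deriv_eq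
  rw [deriv_comp_const_sub, deriv_const_mul_field] at h2
  linear_combination -h2

theorem refl_tendsto : Tendsto (fun z => 2 * x₀ - z) (𝓝[≠] x₀) (𝓝[≠] x₀) := by
  refine tendsto_nhdsWithin_iff.2 ⟨?_, ?_⟩
  · have h1 : Tendsto (fun z => 2 * x₀ - z) (𝓝 x₀) (𝓝 (2 * x₀ - x₀)) :=
      (continuous_const.sub continuous_id).tendsto _
    rw [show 2 * x₀ - x₀ = x₀ by ring] at h1
    exact h1.mono_left nhdsWithin_le_nhds
  · filter_upwards [self_mem_nhdsWithin] with z hz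
    intro h2
    apply hz
    have h3 : 2 * x₀ - z = x₀ := h2
    show z = x₀
    linear_combination -h3

/-- the symmetry at an isotropic point -/
theorem Z_odd (even : ∀ (s : ℂ) (R : ℂ → ℂ) (ε : ℝ), EndI s 1 3 R ε →
      ∀ᶠ ξ in 𝓝 (0 : ℂ), R (-ξ) = R ξ) (hΛ : Λ ≠ 0)
    (hev : ∀ᶠ z in 𝓝[≠] x₀, RegZ Z z ∧ GG Λ Z z) {f : ℂ → ℂ} {s : ℤ} (hs : s = 1 ∨ s = -1)
    (hf : AnalyticAt ℂ f x₀) (h0 : f x₀ = 0) (hZ : ∀ᶠ z in 𝓝[≠] x₀, Z z = f z ^ s) :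
    ∀ᶠ z in 𝓝[≠] x₀, Z (2 * x₀ - z) = -1 * Z z := by
  obtain ⟨N, X, ε, hN, C, a4, a5, E⟩ := iso_point hΛ hev hs hf h0 hZ
  have hN1 : N = 1 := iso_exp E
  subst hN1
  have hs0 : (s : ℂ) ≠ 0 := by rcases hs with rfl | rfl <;> norm_num
  have h1 := even _ _ _ E
  have hX : AnalyticAt ℂ X 0 := C.an 0 (mem_ball_self C.hε)
  have hd : deriv X 0 ≠ 0 := C.d 0 (mem_ball_self C.hε)
  have hc1 : ContinuousAt (fun ξ => deriv X (-ξ)) (0 : ℂ) := by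
    have h2 : ContinuousAt (deriv X) (-0 : ℂ) := by
      rw [neg_zero]
      exact hX.deriv.continuousAt
    exact ContinuousAt.comp (f := fun ξ : ℂ => -ξ) (g := deriv X) h2 continuous_neg.continuousAt
  have h3 : (fun ξ => deriv X (-ξ)) =ᶠ[𝓝 (0 : ℂ)] deriv X := by
    refine root_unique (N := 3) (by norm_num) hc1 hX.deriv.continuousAt (by simp) hd ?_
    filter_upwards [h1] with ξ hξ
    have h4 : (Λ * I / ((1 : ℕ) * s)) ^ 3 ≠ 0 := by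
      refine pow_ne_zero _ (div_ne_zero (mul_ne_zero hΛ I_ne_zero) ?_)
      simpa using hs0
    refine mul_left_cancel₀ h4 ?_
    rw [← mul_pow, ← mul_pow]
    have h5 : (Λ * I * deriv X (-ξ) / ((1 : ℕ) * s)) ^ 3 = (Λ * I * deriv X ξ / ((1 : ℕ) * s)) ^ 3 :=
      hξ
    calc (Λ * I / ((1 : ℕ) * s) * deriv X (-ξ)) ^ 3
        = (Λ * I * deriv X (-ξ) / ((1 : ℕ) * s)) ^ 3 := by ring
      _ = (Λ * I * deriv X ξ / ((1 : ℕ) * s)) ^ 3 := h5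
      _ = (Λ * I / ((1 : ℕ) * s) * deriv X ξ) ^ 3 := by ring
  -- `X ξ + X (-ξ) = 2 x₀`
  obtain ⟨r, hr, h6⟩ := Metric.eventually_nhds_iff_ball.1 h3
  set r' := min r ε with hr'
  have hr'0 : 0 < r' := lt_min hr C.hε
  have h7 : ∀ ξ ∈ ball (0 : ℂ) r', X (-ξ) = 2 * x₀ - X ξ := by
    have hneg : ∀ ξ ∈ ball (0 : ℂ) r', -ξ ∈ ball (0 : ℂ) r' := by
      intro ξ hξ
      rw [mem_ball_zero_iff] at hξ ⊢
      rwa [norm_neg]
    have hdd : ∀ ξ ∈ ball (0 : ℂ) r', HasDerivAt (fun ξ => X (-ξ) + X ξ) 0 ξ := by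
      intro ξ hξ
      have b1 : ξ ∈ ball (0 : ℂ) ε := ball_subset_ball (min_le_right _ _) hξ
      have b2 : -ξ ∈ ball (0 : ℂ) ε := ball_subset_ball (min_le_right _ _) (hneg ξ hξ)
      have b3 : HasDerivAt (fun ξ => X (-ξ)) (deriv X (-ξ) * -1) ξ :=
        HasDerivAt.comp ξ (C.an _ b2).differentiableAt.hasDerivAt (hasDerivAt_neg ξ)
      refine (b3.add (C.an ξ b1).differentiableAt.hasDerivAt).congr_deriv ?_
      have b4 := h6 ξ (ball_subset_ball (min_le_left _ _) hξ)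
      have b5 : deriv X (-ξ) = deriv X ξ := b4
      rw [b5]
      ring
    intro ξ hξ
    have h8 := (convex_ball (0 : ℂ) r').norm_image_sub_le_of_norm_hasDerivWithin_le
      (f := fun ξ => X (-ξ) + X ξ) (f' := fun _ => 0) (C := 0)
      (fun w hw => (hdd w hw).hasDerivWithinAt) (fun w _ => by simp) (mem_ball_self hr'0) hξ
    rw [zero_mul, norm_le_zero_iff, sub_eq_zero] at h8
    have h9 : X (-ξ) + X ξ = X (-0) + X 0 := h8
    rw [neg_zero, C.zero] at h9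
    linear_combination h9
  refine (C.mono hr'0 (min_le_right _ _)).eventually fun ξ hξ hξ0 => ?_
  have b1 : ξ ∈ ball (0 : ℂ) ε := ball_subset_ball (min_le_right _ _) hξ
  have b2 : -ξ ∈ ball (0 : ℂ) ε := by
    rw [mem_ball_zero_iff] at b1 ⊢
    rwa [norm_neg]
  rw [← h7 ξ hξ, (a4 ξ b1 hξ0).2.2, (a4 (-ξ) b2 (neg_ne_zero.2 hξ0)).2.2]
  rcases hs with rfl | rfl
  · simp
  · simp only [pow_one, zpow_neg, zpow_one]
    rw [inv_neg]
    ring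

/-- the conic invariant is even about an isotropic point -/
theorem Q_even (h : ∀ᶠ z in 𝓝[≠] x₀, Z (2 * x₀ - z) = -1 * Z z) {Q : ℂ → ℂ}
    (hQ : ∀ᶠ z in 𝓝[≠] x₀, Qc Λ Z z = Q z) : ∀ᶠ z in 𝓝 x₀, Q (2 * x₀ - z) = Q z := by
  have h1 := refl_deriv h
  have hW : ∀ᶠ z in 𝓝[≠] x₀, Wz Z (2 * x₀ - z) = -1 * Wz Z z := by
    filter_upwards [h, h1] with z a b
    rw [Wz, Wz, a, b]
    rw [show - -1 * deriv Z z = deriv Z z by ring, show I * (-1 * Z z) = -(I * Z z) by ring, div_neg]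
    ring
  have hW2 := refl_deriv (refl_deriv hW)
  have h3 : ∀ᶠ z in 𝓝[≠] x₀, Qc Λ Z (2 * x₀ - z) = Qc Λ Z z := by
    filter_upwards [hW, hW2] with z a b
    rw [Qc, Qc, a, b]
    rw [show 2 * (-1 * Wz Z z) ^ 3 + - - -1 * deriv (deriv (Wz Z)) z =
      -(2 * Wz Z z ^ 3 + deriv (deriv (Wz Z)) z) by ring,
      show Λ ^ 2 * (-1 * Wz Z z) = -(Λ ^ 2 * Wz Z z) by ring, neg_div_neg_eq]
  have h4 : ∀ᶠ z in 𝓝[≠] x₀, Q (2 * x₀ - z) = Q z := by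
    filter_upwards [h3, hQ, refl_tendsto.eventually hQ] with z a b c
    rw [← b, ← c, a]
  rw [eventually_nhdsWithin_iff] at h4
  filter_upwards [h4] with z hz
  rcases eq_or_ne z x₀ with rfl | hne
  · rw [show 2 * z - z = z by ring]
  · exact hz hne

end Vale.Agent.P097.H898
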