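import Vale.Agent.P097.H898.CiF
import Vale.Agent.P097.H407.Final

/-! # P097 / CASE I, part G: the real axis -/

set_option linter.all false

open Complex Filter Topology Set Metric
open scoped ComplexConjugate

namespace Vale.Agent.P097.H898

open Vale.Agent.P097.TA Vale.Agent.P097.H202 Vale.Agent.P097.H402.Rat Vale.Agent.P097.NZ
open Vale.Agent.P097.Alg

variable {Z : ℂ → ℂ} {x₀ : ℂ}
variable {h : ℝ → ℝ} {κ ρ Λ L : ℝ} {H HH lam Φ : ℂ → ℂ} {l φ : ℝ → ℝ}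

theorem ofReal_tendsto (x : ℝ) :
    Tendsto (fun y : ℝ => (y : ℂ)) (𝓝[≠] x) (𝓝[≠] (x : ℂ)) := by
  refine tendsto_nhdsWithin_iff.2
    ⟨continuous_ofReal.continuousAt.tendsto.mono_left nhdsWithin_le_nhds, ?_⟩
  filter_upwards [self_mem_nhdsWithin] with y hy
  exact fun h => hy (ofReal_inj.1 h)

theorem anΦ (T : LD h κ ρ Λ L H HH lam Φ l φ) {z : ℂ} (hz : z ∈ Str ρ) : AnalyticAt ℂ Φ z :=
  T.dΦ'.analyticAt ((isOpen_Str ρ).mem_nhds hz)

/-- near the real points `Z = exp (I Φ)` -/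
theorem real_eq (T : LD h κ ρ Λ L H HH lam Φ l φ) {b : ℝ} (hb : 0 < b)
    (mZ : MeromorphicOn Z (Str b)) (hZ : ∀ x : ℝ, Z x = Complex.exp (I * Φ x)) (x : ℝ) :
    ∀ᶠ z in 𝓝 (x : ℂ), Complex.exp (I * Φ z) = Z z := by
  have h1 : AnalyticAt ℂ (fun z => Complex.exp (I * Φ z)) x :=
    (analyticAt_const.mul (anΦ T (real_mem_Str T.ρ0 x))).cexp
  have h2 : ∃ᶠ z in 𝓝[≠] (x : ℂ), Complex.exp (I * Φ z) = Z z :=
    (ofReal_tendsto x).frequently
      (Filter.Eventually.frequently (Filter.Eventually.of_forall fun y => (hZ y).symm))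
  have h3 := (h1.meromorphicAt.frequently_eq_iff_eventuallyEq (mZ x (real_mem_Str hb x))).1 h2
  have h4 := eventually_nhdsWithin_iff.1 h3
  filter_upwards [h4] with z hz
  rcases eq_or_ne z (x : ℂ) with rfl | hne
  · exact (hZ x).symm
  · exact hz hne

theorem dΦ_ne (T : LD h κ ρ Λ L H HH lam Φ l φ) {z : ℂ} (hz : z ∈ Str ρ) : deriv Φ z ≠ 0 := by
  rw [(T.dΦ z hz).deriv]
  exact div_ne_zero (by exact_mod_cast T.Λ0.ne') (T.lam0 _ (T.Φm' hz))

theorem real_reg (T : LD h κ ρ Λ L H HH lam Φ l φ) {b : ℝ} (hb : 0 < b)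
    (mZ : MeromorphicOn Z (Str b)) (hZ : ∀ x : ℝ, Z x = Complex.exp (I * Φ x)) (x : ℝ) :
    RegZ Z x := by
  have h1 := real_eq T hb mZ hZ x
  have h0 := anΦ T (real_mem_Str T.ρ0 x)
  have h2 : AnalyticAt ℂ (fun z => Complex.exp (I * Φ z)) x := (analyticAt_const.mul h0).cexp
  refine ⟨h2.congr h1, ?_, ?_⟩
  · rw [hZ]
    exact Complex.exp_ne_zero _
  · have h3 : HasDerivAt (fun x' => Complex.exp (I * Φ x'))
        (Complex.exp (I * Φ x) * (I * deriv Φ x)) x :=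
      (h0.differentiableAt.hasDerivAt.const_mul I).cexp
    have h4 : HasDerivAt Z (Complex.exp (I * Φ x) * (I * deriv Φ x)) x :=
      h3.congr_of_eventuallyEq (h1.mono fun x' hx' => hx'.symm)
    rw [h4.deriv]
    exact mul_ne_zero (Complex.exp_ne_zero _)
      (mul_ne_zero I_ne_zero (dΦ_ne T (real_mem_Str T.ρ0 x)))

theorem real_W (T : LD h κ ρ Λ L H HH lam Φ l φ) {b : ℝ} (hb : 0 < b)
    (mZ : MeromorphicOn Z (Str b)) (hZ : ∀ x : ℝ, Z x = Complex.exp (I * Φ x)) (x : ℝ) :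
    ∀ᶠ z in 𝓝 (x : ℂ), Wz Z z = deriv Φ z := by
  have h0 := anΦ T (real_mem_Str T.ρ0 x)
  filter_upwards [(real_eq T hb mZ hZ x).eventually_nhds, h0.eventually_analyticAt] with z a c
  exact (deriv_log c a).symm

/-- `R` and `H + H''` agree near the real axis -/
theorem R_eq (T : LD h κ ρ Λ L H HH lam Φ l φ) {R : ℂ → ℂ} {δ : ℝ} (hδ : 0 < δ)
    (dR : DifferentiableOn ℂ R (Str δ))
    (hR : ∀ x : ℝ, R x = ((h x + deriv (deriv h) x : ℝ) : ℂ)) :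
    ∀ z ∈ Str (min δ κ), R z = lam z ^ 3 := by
  have hm : 0 < min δ κ := lt_min hδ T.κ0
  have h1 : DifferentiableOn ℂ R (Str (min δ κ)) := dR.mono (Str_mono (min_le_left _ _))
  have h2 : DifferentiableOn ℂ (fun z => lam z ^ 3) (Str (min δ κ)) :=
    (T.dlam.mono (Str_mono (min_le_right _ _))).fun_pow 3
  refine fun z hz => H500.strip_eq hm h1 h2 (fun x => ?_) z hz
  rw [hR x, ← T.l3 x, T.lamr x]
  push_cast
  rfl

theorem per_int {δ : ℝ} {R : ℂ → ℂ} (Rp : ∀ z ∈ Str δ, R (z + 2 * Real.pi) = R z) (n : ℤ) :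
    ∀ z ∈ Str δ, R (z + n * (2 * Real.pi)) = R z := by
  have hst : ∀ (n : ℤ) (z : ℂ), z ∈ Str δ → z + n * (2 * Real.pi) ∈ Str δ := by
    intro n z hz
    have := add_real_mem_Str hz (n * (2 * Real.pi))
    push_cast at this
    exact this
  induction n using Int.induction_on with
  | zero => intro z _; simp
  | succ n ih =>
    intro z hz
    have h1 := Rp (z + n * (2 * Real.pi)) (by simpa using hst n z hz)
    have h2 : z + (((n : ℤ) + 1 : ℤ) : ℂ) * (2 * Real.pi) =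
        z + (n : ℂ) * (2 * Real.pi) + 2 * Real.pi := by push_cast; ring
    rw [h2, h1]
    simpa using ih z hz
  | pred n ih =>
    intro z hz
    have h1 := Rp (z + ((-(n : ℤ) - 1 : ℤ) : ℂ) * (2 * Real.pi)) (hst _ _ hz)
    have h2 : z + ((-(n : ℤ) - 1 : ℤ) : ℂ) * (2 * Real.pi) + 2 * Real.pi =
        z + ((-(n : ℤ) : ℤ) : ℂ) * (2 * Real.pi) := by
      push_cast; ring
    rw [h2] at h1
    rw [← h1]
    exact ih z hz

theorem exp_shift {a c : ℂ} (h : Complex.exp (I * a) = Complex.exp (I * c)) :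
    ∃ n : ℤ, a = c + n * (2 * Real.pi) := by
  obtain ⟨n, hn⟩ := Complex.exp_eq_exp_iff_exists_int.1 h
  refine ⟨n, mul_left_cancel₀ I_ne_zero ?_⟩
  rw [hn]
  ring

/-- the real points are good -/
theorem real_GG (T : LD h κ ρ Λ L H HH lam Φ l φ) {b : ℝ} (hb : 0 < b)
    (mZ : MeromorphicOn Z (Str b)) (hZ : ∀ x : ℝ, Z x = Complex.exp (I * Φ x)) {R : ℂ → ℂ} {δ : ℝ}
    {E ξ X : ℂ → ℂ → ℂ} (hR : ∀ x : ℝ, R x = ((h x + deriv (deriv h) x : ℝ) : ℂ))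
    (P : Pen R δ E ξ X) (x : ℝ) : GG Λ Z x := by
  intro π hπ hπZ σ hσ
  have hx : (x : ℂ) ∈ Str ρ := real_mem_Str T.ρ0 x
  have h0 := anΦ T hx
  have h1 := real_eq T hb mZ hZ x
  obtain ⟨n, hn⟩ := exp_shift (a := π x) (c := Φ x) (by
    rw [hπZ.self_of_nhds, h1.self_of_nhds])
  have hperE : ∀ z : ℂ, Complex.exp (I * (z + n * (2 * Real.pi))) = Complex.exp (I * z) := by
    intro z
    rw [show I * (z + n * (2 * Real.pi)) = I * z + n * (2 * Real.pi * I) by ring, Complex.exp_add,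
      Complex.exp_int_mul_two_pi_mul_I, mul_one]
  have h2 : π =ᶠ[𝓝 (x : ℂ)] fun z => Φ z + n * (2 * Real.pi) := by
    refine log_unique hπ.continuousAt (h0.continuousAt.add continuousAt_const) hn ?_
    filter_upwards [hπZ, h1] with z a c
    rw [a, hperE, c]
  have hm : 0 < min δ κ := lt_min P.hδ T.κ0
  have h3 : ∀ᶠ z in 𝓝 (x : ℂ), Φ z ∈ Str (min δ κ) := by
    refine h0.continuousAt.eventually ((isOpen_Str _).mem_nhds ?_)
    rw [T.Φr]
    exact real_mem_Str hm _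
  have hΛ : (Λ : ℂ) ≠ 0 := by exact_mod_cast T.Λ0.ne'
  have h4 : ∀ᶠ z in 𝓝 (x : ℂ), σ (π z) = R (π z) := by
    filter_upwards [hσ, h2, h3, real_W T hb mZ hZ x, (isOpen_Str ρ).mem_nhds hx] with z a c d e f
    have f' : z ∈ Str ρ := f
    rw [a, gz, e, (T.dΦ z f').deriv, c, per_int P.Rp n _ (Str_mono (min_le_left _ _) d),
      R_eq T P.hδ P.dR hR _ d]
    have h5 := T.lam0 _ (T.Φm' f')
    field_simp
  have hd : deriv π x ≠ 0 := by
    rw [h2.deriv_eq, deriv_add_const]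
    exact dΦ_ne T hx
  have h6 : ∀ᶠ ψ in 𝓝 (π x), R ψ = σ ψ := by
    rw [← hπ.hasStrictDerivAt.map_nhds_eq hd, Filter.eventually_map]
    filter_upwards [h4] with z hz
    exact hz.symm
  have h7 : π x = ((φ x + n * (2 * Real.pi) : ℝ) : ℂ) := by
    rw [hn, T.Φr]
    push_cast
    rfl
  rw [h7] at h6 ⊢
  have h8 : ((φ x + n * (2 * Real.pi) : ℝ) : ℂ) ∈ Str δ := real_mem_Str P.hδ _
  exact Good.germ Vale.Agent.P097.H65.rootA (P.dR.analyticAt ((isOpen_Str δ).mem_nhds h8))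
    (P.R0 _ h8) h6 (Vale.Agent.P097.H247.realStart Vale.Agent.P097.H65.rootA R δ E ξ X P _)

theorem symm_deriv {β : ℝ} {f : ℂ → ℂ} (hf : ∀ z ∈ Str β, f (conj z) = conj (f z)) :
    ∀ z ∈ Str β, deriv f (conj z) = conj (deriv f z) := by
  intro z hz
  have h1 : (conj ∘ f ∘ conj) =ᶠ[𝓝 z] f := by
    filter_upwards [(isOpen_Str β).mem_nhds hz] with w hw
    show conj (f (conj w)) = f w
    rw [hf w hw, starRingEnd_self_apply]
  have h2 := h1.deriv_eq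
  rw [deriv_conj_conj] at h2
  rw [← h2]
  show deriv f (conj z) = conj (conj (deriv f (conj z)))
  rw [starRingEnd_self_apply]

theorem per_deriv' {β : ℝ} {f : ℂ → ℂ} {c : ℂ} (hf : ∀ z ∈ Str β, f (z + 1) = f z + c) :
    ∀ z ∈ Str β, deriv f (z + 1) = deriv f z := by
  intro z hz
  have h1 : (fun z => f (z + 1)) =ᶠ[𝓝 z] fun z => f z + c := by
    filter_upwards [(isOpen_Str β).mem_nhds hz] with w hw
    exact hf w hw
  have h2 := h1.deriv_eq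
  rwa [deriv_comp_add_const, deriv_add_const] at h2

/-- the conic invariant near the real axis -/
noncomputable def Qr (Λ : ℂ) (Φ : ℂ → ℂ) (z : ℂ) : ℂ :=
  (2 * deriv Φ z ^ 3 + deriv (deriv (deriv Φ)) z) / (Λ ^ 2 * deriv Φ z)

theorem real_Qc (T : LD h κ ρ Λ L H HH lam Φ l φ) {b : ℝ} (hb : 0 < b)
    (mZ : MeromorphicOn Z (Str b)) (hZ : ∀ x : ℝ, Z x = Complex.exp (I * Φ x)) (x : ℝ) :
    Qc Λ Z x = Qr Λ Φ x := by
  have h1 : Wz Z =ᶠ[𝓝 (x : ℂ)] deriv Φ := real_W T hb mZ hZ x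
  rw [Qc, Qr, h1.self_of_nhds, h1.deriv.deriv.self_of_nhds]

theorem Qc_an {Λ : ℂ} (hΛ : Λ ≠ 0) {x : ℂ} (h : RegZ Z x) : AnalyticAt ℂ (Qc Λ Z) x := by
  unfold Qc
  refine AnalyticAt.div ?_ ?_ (mul_ne_zero (pow_ne_zero _ hΛ) h.W_ne)
  · exact (analyticAt_const.mul (h.W_an.pow 3)).add h.W_an.deriv.deriv
  · exact analyticAt_const.mul h.W_an

theorem eq_of_punct {f g : ℂ → ℂ} {x : ℂ} (hf : ContinuousAt f x) (hg : ContinuousAt g x)
    (h : ∀ᶠ z in 𝓝[≠] x, f z = g z) : f x = g x := by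
  have h1 : Tendsto f (𝓝[≠] x) (𝓝 (f x)) := hf.tendsto.mono_left nhdsWithin_le_nhds
  have h2 : Tendsto g (𝓝[≠] x) (𝓝 (g x)) := hg.tendsto.mono_left nhdsWithin_le_nhds
  exact tendsto_nhds_unique (h1.congr' h) h2

/-- the value of the extension at the real points -/
theorem Q_real (T : LD h κ ρ Λ L H HH lam Φ l φ) {b : ℝ} (hb : 0 < b)
    (mZ : MeromorphicOn Z (Str b)) (hZ : ∀ x : ℝ, Z x = Complex.exp (I * Φ x)) {Q : ℂ → ℂ}
    (hQa : ∀ x ∈ Str b, AnalyticAt ℂ Q x) (hQ : ∀ x ∈ Str b, ∀ᶠ z in 𝓝[≠] x, Qc Λ Z z = Q z)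
    (x : ℝ) : Q x = Qr Λ Φ x := by
  have hΛ : (Λ : ℂ) ≠ 0 := by exact_mod_cast T.Λ0.ne'
  rw [← real_Qc T hb mZ hZ x]
  exact (eq_of_punct (Qc_an hΛ (real_reg T hb mZ hZ x)).continuousAt
    (hQa x (real_mem_Str hb x)).continuousAt (hQ x (real_mem_Str hb x))).symm

theorem Q_per (T : LD h κ ρ Λ L H HH lam Φ l φ) {b : ℝ} (hb : 0 < b)
    (mZ : MeromorphicOn Z (Str b)) (hZ : ∀ x : ℝ, Z x = Complex.exp (I * Φ x)) {Q : ℂ → ℂ}
    (hQa : ∀ x ∈ Str b, AnalyticAt ℂ Q x) (hQ : ∀ x ∈ Str b, ∀ᶠ z in 𝓝[≠] x, Qc Λ Z z = Q z) :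
    ∀ z ∈ Str b, Q (z + 1) = Q z := by
  have dQ : DifferentiableOn ℂ Q (Str b) := fun z hz =>
    (hQa z hz).differentiableAt.differentiableWithinAt
  have h1 : DifferentiableOn ℂ (fun z => Q (z + 1)) (Str b) := by
    refine dQ.comp (by fun_prop) fun z hz => ?_
    have := add_real_mem_Str hz 1
    rwa [ofReal_one] at this
  refine fun z hz => H500.strip_eq hb h1 dQ (fun x => ?_) z hz
  have h2 : Q ((x + 1 : ℝ) : ℂ) = Qr Λ Φ ((x + 1 : ℝ) : ℂ) := Q_real T hb mZ hZ hQa hQ (x + 1)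
  have h3 : ((x + 1 : ℝ) : ℂ) = (x : ℂ) + 1 := by push_cast; rfl
  have hx : (x : ℂ) ∈ Str ρ := real_mem_Str T.ρ0 x
  have p1 : ∀ z ∈ Str ρ, deriv Φ (z + 1) = deriv Φ z := per_deriv' T.Φp
  have p2 : ∀ z ∈ Str ρ, deriv (deriv Φ) (z + 1) = deriv (deriv Φ) z :=
    per_deriv' (c := 0) fun z hz => by rw [p1 z hz, add_zero]
  have p3 : ∀ z ∈ Str ρ, deriv (deriv (deriv Φ)) (z + 1) = deriv (deriv (deriv Φ)) z :=
    per_deriv' (c := 0) fun z hz => by rw [p2 z hz, add_zero]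
  show Q ((x : ℂ) + 1) = Q x
  rw [← h3, h2, Q_real T hb mZ hZ hQa hQ x, h3, Qr, Qr, p1 _ hx, p3 _ hx]

theorem Q_conj (T : LD h κ ρ Λ L H HH lam Φ l φ) {b : ℝ} (hb : 0 < b)
    (mZ : MeromorphicOn Z (Str b)) (hZ : ∀ x : ℝ, Z x = Complex.exp (I * Φ x)) {Q : ℂ → ℂ}
    (hQa : ∀ x ∈ Str b, AnalyticAt ℂ Q x) (hQ : ∀ x ∈ Str b, ∀ᶠ z in 𝓝[≠] x, Qc Λ Z z = Q z) :
    ∀ z ∈ Str b, Q (conj z) = conj (Q z) := by
  have dQ : DifferentiableOn ℂ Q (Str b) := fun z hz =>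
    (hQa z hz).differentiableAt.differentiableWithinAt
  refine conj_strip hb dQ fun x => ?_
  have hx : (x : ℂ) ∈ Str ρ := real_mem_Str T.ρ0 x
  have p1 := symm_deriv T.Φc
  have p2 := symm_deriv p1
  have p3 := symm_deriv p2
  have q1 := p1 x hx
  have q3 := p3 x hx
  rw [conj_ofReal] at q1 q3
  rw [Q_real T hb mZ hZ hQa hQ x, ← conj_eq_iff_im, Qr]
  have e2 : conj (2 : ℂ) = 2 := map_ofNat (starRingEnd ℂ) 2
  rw [map_div₀, map_add, map_mul, map_mul, map_pow, map_pow, ← q1, ← q3, conj_ofReal, e2]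

theorem refl_nhds : Tendsto (fun z => 2 * x₀ - z) (𝓝 x₀) (𝓝 x₀) := by
  have h1 : Tendsto (fun z => 2 * x₀ - z) (𝓝 x₀) (𝓝 (2 * x₀ - x₀)) :=
    (continuous_const.sub continuous_id).tendsto _
  rwa [show 2 * x₀ - x₀ = x₀ by ring] at h1

/-- **an isotropic point: the conic invariant is constant** -/
theorem Q_const (T : LD h κ ρ Λ L H HH lam Φ l φ) {b : ℝ} (hb : 0 < b)
    (mZ : MeromorphicOn Z (Str b)) (hZ : ∀ x : ℝ, Z x = Complex.exp (I * Φ x)) {Q : ℂ → ℂ}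
    (hQa : ∀ x ∈ Str b, AnalyticAt ℂ Q x) (hQ : ∀ x ∈ Str b, ∀ᶠ z in 𝓝[≠] x, Qc Λ Z z = Q z)
    (hx₀ : x₀ ∈ Str b) (him : x₀.im ≠ 0) (hodd : ∀ᶠ z in 𝓝 x₀, Q (2 * x₀ - z) = Q z) :
    ∀ z ∈ Str b, ∀ w ∈ Str b, Q z = Q w := by
  have dQ : DifferentiableOn ℂ Q (Str b) := fun z hz =>
    (hQa z hz).differentiableAt.differentiableWithinAt
  have hp := Q_per T hb mZ hZ hQa hQ
  have hc := Q_conj T hb mZ hZ hQa hQ
  have hx₀' : |x₀.im| < b := hx₀
  rcases lt_or_gt_of_ne him with h1 | h1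
  · refine Vale.Agent.P097.H818.endI_core (z0 := conj x₀) dQ hp hc ?_ ?_ ?_
    · simpa using h1
    · have := (abs_lt.1 hx₀').1
      rw [conj_im]
      linarith
    · have h2 : Tendsto (fun z => conj z) (𝓝 (conj x₀)) (𝓝 x₀) := by
        have := (continuous_conj.tendsto (conj x₀))
        rwa [starRingEnd_self_apply] at this
      filter_upwards [h2.eventually hodd, h2.eventually ((isOpen_Str b).mem_nhds hx₀),
        h2.eventually (refl_nhds.eventually ((isOpen_Str b).mem_nhds hx₀))] with z a c d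
      have c' : z ∈ Str b := by
        have := conj_mem_Str c
        rwa [starRingEnd_self_apply] at this
      have e1 : 2 * conj x₀ - z = conj (2 * x₀ - conj z) := by
        have e2 : conj (2 : ℂ) = 2 := map_ofNat (starRingEnd ℂ) 2
        rw [map_sub, map_mul, starRingEnd_self_apply, e2]
      rw [e1, hc _ d, a, hc z c', starRingEnd_self_apply]
  · exact Vale.Agent.P097.H818.endI_core dQ hp hc h1 (abs_lt.1 hx₀').2 hodd

end Vale.Agent.P097.H898
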