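import Vale.Agent.P097.H898.CiG

/-! # P097 / CASE I, part H: the angle in the strip of meromorphy of `exp (I Φ)` -/

set_option linter.all false

open Complex Filter Topology Set Metric
open scoped ComplexConjugate

namespace Vale.Agent.P097.H898

open Vale.Agent.P097.TA Vale.Agent.P097.H202 Vale.Agent.P097.H402.Rat Vale.Agent.P097.NZ
open Vale.Agent.P097.Alg

variable {Z Z' : ℂ → ℂ} {x₀ : ℂ}
variable {h : ℝ → ℝ} {κ ρ Λ L : ℝ} {H HH lam Φ : ℂ → ℂ} {l φ : ℝ → ℝ}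

/-- from a constant conic invariant to the ellipse -/
theorem ellipse_of_const (T : LD h κ ρ Λ L H HH lam Φ l φ) (Hs : SmoothTable h) {b : ℝ}
    (hb : 0 < b) (mZ : MeromorphicOn Z (Str b)) (hZ : ∀ x : ℝ, Z x = Complex.exp (I * Φ x))
    {R : ℂ → ℂ} {δ : ℝ} {E ξ X : ℂ → ℂ → ℂ}
    (hR : ∀ x : ℝ, R x = ((h x + deriv (deriv h) x : ℝ) : ℂ)) (P : Pen R δ E ξ X) {Q : ℂ → ℂ}
    (hQa : ∀ x ∈ Str b, AnalyticAt ℂ Q x) (hQ : ∀ x ∈ Str b, ∀ᶠ z in 𝓝[≠] x, Qc Λ Z z = Q z)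
    (hc : ∀ z ∈ Str b, ∀ w ∈ Str b, Q z = Q w) : H407.IsEllipse h := by
  refine Vale.Agent.P097.H320.pkc h R δ (Q 0 ^ 3) Hs P.hδ P.dR hR fun x => ?_
  obtain ⟨s, hs⟩ := T.surj x
  have hΛ : (Λ : ℂ) ≠ 0 := by exact_mod_cast T.Λ0.ne'
  have hsρ : (s : ℂ) ∈ Str ρ := real_mem_Str T.ρ0 s
  have h0 := anΦ T hsρ
  have hm : 0 < min δ κ := lt_min P.hδ T.κ0
  have h3 : ∀ᶠ z in 𝓝 (s : ℂ), Φ z ∈ Str (min δ κ) := by
    refine h0.continuousAt.eventually ((isOpen_Str _).mem_nhds ?_)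
    rw [T.Φr]
    exact real_mem_Str hm _
  have h4 : ∀ᶠ z in 𝓝 (s : ℂ), R (Φ z) = gz Λ Z z := by
    filter_upwards [h3, real_W T hb mZ hZ s, (isOpen_Str ρ).mem_nhds hsρ] with z d e f
    have f' : z ∈ Str ρ := f
    rw [gz, e, (T.dΦ z f').deriv, R_eq T P.hδ P.dR hR _ d]
    have h5 := T.lam0 _ (T.Φm' f')
    field_simp
  have h5 := kap_eq hΛ (real_reg T hb mZ hZ s) h0 (real_eq T hb mZ hZ s) h4
  rw [← hs, h5, real_Qc T hb mZ hZ s, ← Q_real T hb mZ hZ hQa hQ s]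
  have h6 : (0 : ℂ) ∈ Str b := by
    have := real_mem_Str hb 0
    rwa [ofReal_zero] at this
  rw [hc _ (real_mem_Str hb s) _ h6]

/-- the properties depend on the germ -/
theorem RegZ.congr {x : ℂ} (hR : RegZ Z x) (he : Z =ᶠ[𝓝 x] Z') : RegZ Z' x := by
  refine ⟨hR.an.congr he, ?_, ?_⟩
  · rw [← he.self_of_nhds]
    exact hR.ne
  · rw [← he.deriv_eq]
    exact hR.d

theorem gz_congr {Λ x : ℂ} (he : Z =ᶠ[𝓝 x] Z') : gz Λ Z =ᶠ[𝓝 x] gz Λ Z' := by
  filter_upwards [he.eventually_nhds] with z hz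
  have h1 : Z =ᶠ[𝓝 z] Z' := hz
  rw [gz, gz, Wz, Wz, h1.self_of_nhds, h1.deriv_eq]

theorem GG.congr {Λ x : ℂ} (hG : GG Λ Z x) (he : Z =ᶠ[𝓝 x] Z') : GG Λ Z' x := by
  intro π hπ hπZ σ hσ
  refine hG π hπ ?_ σ ?_
  · filter_upwards [hπZ, he] with z a c
    rw [a, c]
  · filter_upwards [hσ, gz_congr (Λ := Λ) he] with z a c
    rw [a, c]

/-- **Case I, logarithm**: no isotropic point -/
theorem exists_Phi (T : LD h κ ρ Λ L H HH lam Φ l φ) {b : ℝ} (hb : 0 < b)
    (mZ : MeromorphicOn Z (Str b)) (hZ : ∀ x : ℝ, Z x = Complex.exp (I * Φ x))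
    (hall : ∀ x ∈ Str b, ∀ᶠ z in 𝓝[≠] x, RegZ Z z ∧ GG Λ Z z)
    (hord : ∀ x ∈ Str b, meromorphicOrderAt Z x = 0) :
    ∃ Φb : ℂ → ℂ, DifferentiableOn ℂ Φb (Str b) ∧ (∀ x : ℝ, Φb x = Φ x) ∧
      (∀ z ∈ Str b, Φb (z + 1) = Φb z + 2 * Real.pi) ∧
      (∀ z ∈ Str b, Φb (conj z) = conj (Φb z)) ∧
      (∀ x ∈ Str b, ∀ᶠ z in 𝓝[≠] x, Z z = Complex.exp (I * Φb z)) ∧
      ∀ x ∈ Str b, (deriv Φb x ≠ 0 ∧ GoodAt Φb (fun z => (Λ : ℂ) ^ 3 / deriv Φb z ^ 3) x) ∨
        (deriv Φb x = 0 ∧ deriv (deriv Φb) x ≠ 0) := by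
  have hΛ : (Λ : ℂ) ≠ 0 := by exact_mod_cast T.Λ0.ne'
  set Zt : ℂ → ℂ := toMeromorphicNFOn Z (Str b) with hZt
  have hnf : ∀ x ∈ Str b, MeromorphicNFAt Zt x := fun x hx => meromorphicNFOn_toMeromorphicNFOn _ _ hx
  have hpe : ∀ x ∈ Str b, ∀ᶠ z in 𝓝[≠] x, Z z = Zt z := fun x hx =>
    (mZ.toMeromorphicNFOn_eq_self_on_nhdsNE hx).symm
  have ho : ∀ x ∈ Str b, meromorphicOrderAt Zt x = 0 := fun x hx => by
    rw [hZt, meromorphicOrderAt_toMeromorphicNFOn mZ hx, hord x hx]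
  have han : ∀ x ∈ Str b, AnalyticAt ℂ Zt x := fun x hx => by
    rw [← (hnf x hx).meromorphicOrderAt_nonneg_iff_analyticAt, ho x hx]
  have hne : ∀ x ∈ Str b, Zt x ≠ 0 := fun x hx => by
    rw [← (hnf x hx).meromorphicOrderAt_eq_zero_iff]
    exact ho x hx
  have hallt : ∀ x ∈ Str b, ∀ᶠ z in 𝓝[≠] x, RegZ Zt z ∧ GG Λ Zt z := by
    intro x hx
    filter_upwards [hall x hx, ev_ev (hpe x hx)] with z a c
    exact ⟨a.1.congr c, a.2.congr c⟩
  have h0b : (0 : ℂ) ∈ Str b := by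
    have := real_mem_Str hb 0
    rwa [ofReal_zero] at this
  -- the primitive
  have hWd : ∀ x ∈ Str b, AnalyticAt ℂ (Wz Zt) x := fun x hx =>
    (han x hx).deriv.div (analyticAt_const.mul (han x hx)) (mul_ne_zero I_ne_zero (hne x hx))
  obtain ⟨F, hF⟩ := prim_convex (isOpen_Str b) (convex_Str b) (f := Wz Zt)
    fun x hx => (hWd x hx).differentiableAt.differentiableWithinAt
  set Φb : ℂ → ℂ := fun z => F z - F 0 + Φ 0 with hΦb
  have hΦd : ∀ z ∈ Str b, HasDerivAt Φb (Wz Zt z) z := fun z hz =>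
    ((hF z hz).sub_const _).add_const _
  have dΦb : DifferentiableOn ℂ Φb (Str b) := fun z hz =>
    (hΦd z hz).differentiableAt.differentiableWithinAt
  have aΦb : ∀ z ∈ Str b, AnalyticAt ℂ Φb z := fun z hz =>
    dΦb.analyticAt ((isOpen_Str b).mem_nhds hz)
  have hΦb0 : Φb 0 = Φ 0 := by
    rw [hΦb]
    simp only [sub_self, zero_add]
  -- near real points `Zt = Z = exp (I Φ)`
  have hreal : ∀ x : ℝ, ∀ᶠ z in 𝓝 (x : ℂ), Zt z = Complex.exp (I * Φ z) := by
    intro x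
    have h1 := real_eq T hb mZ hZ x
    have h2 : ∀ᶠ z in 𝓝[≠] (x : ℂ), Zt z = Complex.exp (I * Φ z) := by
      filter_upwards [hpe x (real_mem_Str hb x), eventually_nhdsWithin_of_eventually_nhds h1]
        with z a c
      rw [← a, c]
    have h3 : Zt x = Complex.exp (I * Φ x) := by
      refine eq_of_punct (g := fun z => Complex.exp (I * Φ z))
        (han x (real_mem_Str hb x)).continuousAt ?_ h2
      exact ((analyticAt_const.mul (anΦ T (real_mem_Str T.ρ0 x))).cexp).continuousAt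
    filter_upwards [eventually_nhdsWithin_iff.1 h2] with z hz
    rcases eq_or_ne z (x : ℂ) with rfl | hne'
    · exact h3
    · exact hz hne'
  have hexp : ∀ z ∈ Str b, Complex.exp (I * Φb z) = Zt z := by
    have hdd : ∀ z ∈ Str b, HasDerivAt (fun z => Complex.exp (I * Φb z) / Zt z) 0 z := by
      intro z hz
      have b1 := ((hΦd z hz).const_mul I).cexp
      have b2 := b1.fun_div (han z hz).differentiableAt.hasDerivAt (hne z hz)
      refine b2.congr_deriv ?_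
      have b3 := hne z hz
      rw [Wz]
      field_simp
      ring
    intro z hz
    have h8 := (convex_Str b).norm_image_sub_le_of_norm_hasDerivWithin_le
      (f := fun z => Complex.exp (I * Φb z) / Zt z) (f' := fun _ => 0) (C := 0)
      (fun w hw => (hdd w hw).hasDerivWithinAt) (fun w _ => by simp) h0b hz
    rw [zero_mul, norm_le_zero_iff, sub_eq_zero] at h8
    have h9 : Complex.exp (I * Φb z) / Zt z = Complex.exp (I * Φb 0) / Zt 0 := h8
    have h10 : Zt 0 = Complex.exp (I * Φ 0) := by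
      have := (hreal 0).self_of_nhds
      rwa [ofReal_zero] at this
    rw [hΦb0, h10, div_self (Complex.exp_ne_zero _), div_eq_one_iff_eq (hne z hz)] at h9
    exact h9
  -- the real axis
  have hm : 0 < min ρ b := lt_min T.ρ0 hb
  have hnear0 : Φb =ᶠ[𝓝 (0 : ℂ)] Φ := by
    refine log_unique (aΦb 0 h0b).continuousAt ?_ hΦb0 ?_
    · have := (anΦ T (real_mem_Str T.ρ0 0)).continuousAt
      rwa [ofReal_zero] at this
    · have h1 := hreal 0
      rw [ofReal_zero] at h1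
      filter_upwards [h1, (isOpen_Str b).mem_nhds h0b] with z a c
      rw [hexp z c, a]
  have hEqOn : ∀ z ∈ Str (min ρ b), Φb z = Φ z := by
    have h1 : AnalyticOnNhd ℂ Φb (Str (min ρ b)) := fun z hz =>
      aΦb z (Str_mono (min_le_right _ _) hz)
    have h2 : AnalyticOnNhd ℂ Φ (Str (min ρ b)) := fun z hz =>
      anΦ T (Str_mono (min_le_left _ _) hz)
    have h3 : (0 : ℂ) ∈ Str (min ρ b) := by
      have := real_mem_Str hm 0
      rwa [ofReal_zero] at this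
    exact h1.eqOn_of_preconnected_of_eventuallyEq h2 (convex_Str _).isPreconnected h3 hnear0
  have hΦr : ∀ x : ℝ, Φb x = Φ x := fun x => hEqOn _ (real_mem_Str hm x)
  have hder : ∀ x ∈ Str b, deriv Φb x = Wz Zt x := fun x hx => (hΦd x hx).deriv
  refine ⟨Φb, dΦb, hΦr, ?_, ?_, ?_, ?_⟩
  · have h1 : DifferentiableOn ℂ (fun z => Φb (z + 1)) (Str b) := by
      refine dΦb.comp (by fun_prop) fun z hz => ?_
      have := add_real_mem_Str hz 1
      rwa [ofReal_one] at this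
    have h2 : DifferentiableOn ℂ (fun z => Φb z + 2 * Real.pi) (Str b) := dΦb.add_const _
    refine fun z hz => H500.strip_eq hb h1 h2 (fun x => ?_) z hz
    show Φb ((x : ℂ) + 1) = Φb x + 2 * Real.pi
    have h3 : ((x + 1 : ℝ) : ℂ) = (x : ℂ) + 1 := by push_cast; rfl
    rw [← h3, hΦr, hΦr, h3, T.Φp _ (real_mem_Str T.ρ0 x)]
  · refine conj_strip hb dΦb fun x => ?_
    rw [hΦr, T.Φr, ofReal_im]
  · intro x hx
    filter_upwards [hpe x hx, nhdsWithin_le_nhds ((isOpen_Str b).mem_nhds hx)] with z a c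
    rw [a, hexp z c]
  · intro x hx
    obtain ⟨n, X, Φ₀, R, ψ₀, ε, hn, C, a1, a2, a3, a4, a5, E⟩ := fin_point hΛ (hallt x hx)
      (han x hx) (hne x hx) (Filter.Eventually.of_forall fun z => rfl)
    have hxx : ∀ᶠ z in 𝓝 x, Complex.exp (I * Φb z) = Zt z := by
      filter_upwards [(isOpen_Str b).mem_nhds hx] with z hz
      exact hexp z hz
    -- `deriv Φ₀ = Wz Zt` near `x`
    have hd0 : ∀ᶠ z in 𝓝 x, deriv Φ₀ z = Wz Zt z := by
      filter_upwards [a2.eventually_nhds, a1.eventually_analyticAt] with z b1 b2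
      exact deriv_log b2 b1
    have hd1 : deriv Φ₀ =ᶠ[𝓝 x] deriv Φb := by
      filter_upwards [hd0, (isOpen_Str b).mem_nhds hx] with z b1 b2
      rw [b1, hder z b2]
    have hchain : ∀ ξ ∈ ball (0 : ℂ) ε, AnalyticAt ℂ Φ₀ (X ξ) →
        deriv Φ₀ (X ξ) * deriv X ξ = n * ξ ^ (n - 1) := by
      intro ξ hξ hA
      have h7 : HasDerivAt (fun ξ => Φ₀ (X ξ)) (deriv Φ₀ (X ξ) * deriv X ξ) ξ :=
        HasDerivAt.comp ξ hA.differentiableAt.hasDerivAt (C.an ξ hξ).differentiableAt.hasDerivAt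
      have h8 : HasDerivAt (fun ξ => Φ₀ (X ξ)) (n * ξ ^ (n - 1)) ξ := by
        have h9 : HasDerivAt (fun ξ : ℂ => ψ₀ + ξ ^ n) (n * ξ ^ (n - 1)) ξ :=
          (hasDerivAt_pow n ξ).const_add ψ₀
        refine h9.congr_of_eventuallyEq ?_
        filter_upwards [isOpen_ball.mem_nhds hξ] with ξ' h10
        exact a3 ξ' h10
      exact h7.unique h8
    have h00 : (0 : ℂ) ∈ ball (0 : ℂ) ε := mem_ball_self C.hε
    have hA0 : AnalyticAt ℂ Φ₀ (X 0) := by rw [C.zero]; exact a1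
    rcases fin_exp E with hn1 | hn2
    · left
      subst hn1
      have c1 := hchain 0 h00 hA0
      rw [C.zero] at c1
      have c2 : deriv Φ₀ x ≠ 0 := by
        intro hcon
        rw [hcon] at c1
        simp at c1
      have c3 : deriv Φb x ≠ 0 := by
        rw [← hd1.self_of_nhds]
        exact c2
      refine ⟨c3, ?_⟩
      have c4 : RegZ Zt x := by
        refine ⟨han x hx, hne x hx, ?_⟩
        intro hcon
        apply c3
        rw [hder x hx, Wz, hcon, zero_div]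
      have c5 : ∀ᶠ z in 𝓝[≠] x, (GG Λ Zt z ↔ GG Λ Zt x) :=
        eventually_nhdsWithin_of_eventually_nhds (GG_local hΛ c4)
      obtain ⟨z, d1, d2⟩ := (c5.and (hallt x hx)).exists
      have c6 : GG Λ Zt x := d1.1 d2.2
      intro σ hσ
      refine c6 Φb (aΦb x hx) hxx σ ?_
      filter_upwards [hσ, (isOpen_Str b).mem_nhds hx] with z e1 e2
      rw [e1, gz, hder z e2]
    · right
      subst hn2
      have c1 := hchain 0 h00 hA0
      rw [C.zero] at c1
      have c0 : deriv Φ₀ x = 0 := by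
        have c2 : deriv X 0 ≠ 0 := C.d 0 h00
        have c3 : deriv Φ₀ x * deriv X 0 = 0 := by
          rw [c1]
          simp
        exact (mul_eq_zero.1 c3).resolve_right c2
      refine ⟨by rw [← hd1.self_of_nhds]; exact c0, ?_⟩
      have hXc : ContinuousAt X 0 := (C.an 0 h00).continuousAt
      have hev1 : ∀ᶠ ξ in 𝓝 (0 : ℂ), deriv Φ₀ (X ξ) * deriv X ξ = 2 * ξ := by
        have e1 : ∀ᶠ ξ in 𝓝 (0 : ℂ), AnalyticAt ℂ Φ₀ (X ξ) := by
          refine hXc.eventually ?_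
          rw [C.zero]
          exact a1.eventually_analyticAt
        filter_upwards [e1, isOpen_ball.mem_nhds h00] with ξ e2 e3
        have := hchain ξ e3 e2
        simpa using this
      have h7 : HasDerivAt (fun ξ => deriv Φ₀ (X ξ) * deriv X ξ)
          ((deriv (deriv Φ₀) (X 0) * deriv X 0) * deriv X 0 +
            deriv Φ₀ (X 0) * deriv (deriv X) 0) 0 := by
        have f1 : HasDerivAt (fun ξ => deriv Φ₀ (X ξ)) (deriv (deriv Φ₀) (X 0) * deriv X 0) 0 :=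
          HasDerivAt.comp (0 : ℂ) hA0.deriv.differentiableAt.hasDerivAt
            (C.an 0 h00).differentiableAt.hasDerivAt
        exact f1.fun_mul (C.an 0 h00).deriv.differentiableAt.hasDerivAt
      have h8 : HasDerivAt (fun ξ => deriv Φ₀ (X ξ) * deriv X ξ) 2 0 := by
        have h9 : HasDerivAt (fun ξ : ℂ => 2 * ξ) 2 0 := by
          simpa using (hasDerivAt_id (0 : ℂ)).const_mul 2
        exact h9.congr_of_eventuallyEq hev1
      have h9 := h7.unique h8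
      rw [C.zero, c0, zero_mul, add_zero] at h9
      rw [← hd1.deriv_eq]
      intro hcon
      rw [hcon] at h9
      simp at h9

end Vale.Agent.P097.H898
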