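import Vale.Agent.P097.H898.CiH

/-! # P097 / CASE I, part I: main theorem and the support function -/

set_option linter.all false

open Complex Filter Topology Set Metric
open scoped ComplexConjugate

namespace Vale.Agent.P097.H898

open Vale.Agent.P097.TA Vale.Agent.P097.H202 Vale.Agent.P097.H402.Rat Vale.Agent.P097.NZ
open Vale.Agent.P097.Alg

variable {Z Z' : ℂ → ℂ} {x₀ : ℂ}
variable {h : ℝ → ℝ} {κ ρ Λ L : ℝ} {H HH lam Φ : ℂ → ℂ} {l φ : ℝ → ℝ}

/-- **CASE I.**  A table with a collar of invariant curves.  If `exp (I Φ)` (`Φ` = normal angle as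
a function of the Lazutkin coordinate) is meromorphic in the strip `|Im x| < b` then either the table
is an ellipse or `Φ` itself is holomorphic in the strip, and every point of the strip is a good
regular point (`Φ' ≠ 0`) or a simple zero of `Φ'`. -/
theorem caseI (eb : EndBd) (ei : EndBdI)
    (even : ∀ (s : ℂ) (R : ℂ → ℂ) (ε : ℝ), EndI s 1 3 R ε →
      ∀ᶠ ξ in 𝓝 (0 : ℂ), R (-ξ) = R ξ)
    (T : LD h κ ρ Λ L H HH lam Φ l φ) (Hs : SmoothTable h) {η : ℝ} (hη : 0 < η) (Hc : Collar h η)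
    {b : ℝ} (hb : 0 < b) (mZ : MeromorphicOn Z (Str b))
    (hZ : ∀ x : ℝ, Z x = Complex.exp (I * Φ x)) :
    H407.IsEllipse h ∨
    ∃ Φb : ℂ → ℂ, DifferentiableOn ℂ Φb (Str b) ∧ (∀ x : ℝ, Φb x = Φ x) ∧
      (∀ z ∈ Str b, Φb (z + 1) = Φb z + 2 * Real.pi) ∧
      (∀ z ∈ Str b, Φb (conj z) = conj (Φb z)) ∧
      (∀ x ∈ Str b, ∀ᶠ z in 𝓝[≠] x, Z z = Complex.exp (I * Φb z)) ∧
      ∀ x ∈ Str b, (deriv Φb x ≠ 0 ∧ GoodAt Φb (fun z => (Λ : ℂ) ^ 3 / deriv Φb z ^ 3) x) ∨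
        (deriv Φb x = 0 ∧ deriv (deriv Φb) x ≠ 0) := by
  obtain ⟨R, δ, E, ξ, X, hR, P⟩ := H202.pa h η hη Hs Hc
  have hΛ : (Λ : ℂ) ≠ 0 := by exact_mod_cast T.Λ0.ne'
  have r0 := real_reg T hb mZ hZ 0
  have g0 := real_GG T hb mZ hZ hR P 0
  have hreg : ∀ᶠ z in 𝓝[≠] ((0 : ℝ) : ℂ), RegZ Z z :=
    eventually_nhdsWithin_of_eventually_nhds r0.eventually
  have hgg : ∀ᶠ z in 𝓝[≠] ((0 : ℝ) : ℂ), GG Λ Z z := by
    filter_upwards [eventually_nhdsWithin_of_eventually_nhds (GG_local hΛ r0)] with z hz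
    exact hz.2 g0
  have hall := GG_all hb hΛ mZ hreg hgg
  by_cases hord : ∀ x ∈ Str b, meromorphicOrderAt Z x = 0
  · exact Or.inr (exists_Phi T hb mZ hZ hall hord)
  left
  push Not at hord
  obtain ⟨x₀, hx₀, hne⟩ := hord
  obtain ⟨Q, hQa, hQ⟩ := exists_Q eb ei hΛ mZ hall
  have him : x₀.im ≠ 0 := by
    intro hcon
    apply hne
    have h1 : x₀ = ((x₀.re : ℝ) : ℂ) := by
      apply Complex.ext
      · simp
      · simpa using hcon
    rw [h1]
    have h2 := real_reg T hb mZ hZ x₀.re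
    exact h2.an.meromorphicNFAt.meromorphicOrderAt_eq_zero_iff.2 h2.ne
  rcases point_cases ((hall x₀ hx₀).mono fun z hz => hz.1) (mZ x₀ hx₀) with
    ⟨h1, -⟩ | ⟨-, f, s, h1, h2, h3, h4⟩
  · exact absurd h1 hne
  have h5 := Z_odd even hΛ (hall x₀ hx₀) h1 h2 h3 h4
  have h6 := Q_even h5 (hQ x₀ hx₀)
  exact ellipse_of_const T Hs hb mZ hZ hR P hQa hQ (Q_const T hb mZ hZ hQa hQ hx₀ him h6)

/-- derivative at a pole -/
theorem pole_step {f A : ℂ → ℂ} {m : ℕ} (hA : AnalyticAt ℂ A x₀)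
    (hf : ∀ᶠ z in 𝓝[≠] x₀, f z * (z - x₀) ^ m = A z) :
    ∀ᶠ z in 𝓝[≠] x₀, deriv f z * (z - x₀) ^ (m + 1) = (z - x₀) * deriv A z - m * A z := by
  filter_upwards [ev_ev hf, self_mem_nhdsWithin,
    eventually_nhdsWithin_of_eventually_nhds hA.eventually_analyticAt] with z h1 h2 h3
  have hz : z - x₀ ≠ 0 := sub_ne_zero.2 h2
  have e0 : HasDerivAt (fun z => (z - x₀) ^ m) (m * (z - x₀) ^ (m - 1)) z := by
    have := ((hasDerivAt_id z).sub_const x₀).fun_pow m
    simpa using this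
  have e1 : DifferentiableAt ℂ f z := by
    have h4 : (fun z => A z / (z - x₀) ^ m) =ᶠ[𝓝 z] f := by
      filter_upwards [h1, isOpen_ne.mem_nhds h2] with w a c
      have : w - x₀ ≠ 0 := sub_ne_zero.2 c
      rw [← a]
      field_simp
    exact (h3.differentiableAt.fun_div e0.differentiableAt (pow_ne_zero _ hz)).congr_of_eventuallyEq
      h4.symm
  have e2 := e1.hasDerivAt.fun_mul e0
  have e3 : HasDerivAt (fun z => f z * (z - x₀) ^ m) (deriv A z) z :=
    h3.differentiableAt.hasDerivAt.congr_of_eventuallyEq h1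
  have e4 := e2.unique e3
  have e5 : (m : ℂ) * ((z - x₀) ^ (m - 1) * (z - x₀)) = m * (z - x₀) ^ m := by
    rcases Nat.eq_zero_or_pos m with rfl | hm
    · simp
    · rw [← pow_succ, Nat.sub_add_cancel hm]
  rw [← e4, ← h1.self_of_nhds, pow_succ]
  linear_combination (-f z) * e5

/-- the equation excludes poles -/
theorem no_pole {q W : ℂ → ℂ} {c : ℂ} (hW : AnalyticAt ℂ W x₀) (hW0 : W x₀ ≠ 0 ∨ deriv W x₀ ≠ 0)
    (hq : MeromorphicAt q x₀)
    (ode : ∀ᶠ z in 𝓝[≠] x₀,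
      deriv (deriv q) z * W z - deriv q z * deriv W z + q z * W z ^ 3 = c) :
    0 ≤ meromorphicOrderAt q x₀ := by
  by_contra hcon
  push Not at hcon
  have h1 : meromorphicOrderAt q x₀ ≠ ⊤ := ne_top_of_lt hcon
  obtain ⟨n, hn⟩ := WithTop.ne_top_iff_exists.1 h1
  have hn0 : n < 0 := by
    rw [← hn] at hcon
    exact_mod_cast hcon
  obtain ⟨A, g1, g2, g3⟩ := (meromorphicOrderAt_eq_int_iff hq).1 hn.symm
  set m : ℕ := n.natAbs with hm
  have hmn : n = -(m : ℤ) := by omega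
  have hm0 : 0 < m := by omega
  have p0 : ∀ᶠ z in 𝓝[≠] x₀, q z * (z - x₀) ^ m = A z := by
    filter_upwards [g3, self_mem_nhdsWithin] with z a a'
    have hz : z - x₀ ≠ 0 := sub_ne_zero.2 a'
    rw [a, smul_eq_mul, hmn, zpow_neg, zpow_natCast]
    field_simp
  have p1 := pole_step g1 p0
  have a1 : AnalyticAt ℂ (fun z => (z - x₀) * deriv A z - m * A z) x₀ :=
    ((analyticAt_id.sub analyticAt_const).mul g1.deriv).sub (analyticAt_const.mul g1)
  have p2 := pole_step a1 p1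
  -- the zero of `W`
  obtain ⟨e, he, B, hB, hB0, hWB⟩ : ∃ e : ℕ, e ≤ 1 ∧ ∃ B : ℂ → ℂ, AnalyticAt ℂ B x₀ ∧ B x₀ ≠ 0 ∧
      ∀ᶠ z in 𝓝 x₀, W z = (z - x₀) ^ e * B z := by
    by_cases hw : W x₀ = 0
    · have hd : deriv W x₀ ≠ 0 := by
        rcases hW0 with h2 | h2
        · exact absurd hw h2
        · exact h2
      refine ⟨1, le_rfl, dslope W x₀, ?_, ?_, ?_⟩
      · obtain ⟨p, hp⟩ := hW
        exact ⟨_, hp.has_fpower_series_dslope_fslope⟩
      · rwa [dslope_same]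
      · refine Filter.Eventually.of_forall fun z => ?_
        have := sub_smul_dslope W x₀ z
        rw [hw, sub_zero, smul_eq_mul] at this
        rw [pow_one, this]
    · exact ⟨0, by norm_num, W, hW, hw, Filter.Eventually.of_forall fun z => by simp⟩
  have hD : ∀ᶠ z in 𝓝[≠] x₀, (z - x₀) * deriv W z =
      (z - x₀) ^ e * (e * B z + (z - x₀) * deriv B z) := by
    refine eventually_nhdsWithin_of_eventually_nhds ?_
    filter_upwards [hWB.eventually_nhds, hB.eventually_analyticAt] with z b1 b2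
    have e0 : HasDerivAt (fun z => (z - x₀) ^ e) (e * (z - x₀) ^ (e - 1)) z := by
      have := ((hasDerivAt_id z).sub_const x₀).fun_pow e
      simpa using this
    have e1 := (e0.fun_mul b2.differentiableAt.hasDerivAt).congr_of_eventuallyEq b1
    have e5 : (e : ℂ) * ((z - x₀) ^ (e - 1) * (z - x₀)) = e * (z - x₀) ^ e := by
      rcases Nat.eq_zero_or_pos e with rfl | hm
      · simp
      · rw [← pow_succ, Nat.sub_add_cancel hm]
    rw [e1.deriv]
    linear_combination (B z) * e5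
  -- the leading coefficient
  set A1 : ℂ → ℂ := fun z => (z - x₀) * deriv A z - m * A z with hA1
  set A2 : ℂ → ℂ := fun z => (z - x₀) * deriv A1 z - ((m + 1 : ℕ) : ℂ) * A1 z with hA2
  have hG : ∀ᶠ z in 𝓝[≠] x₀, A2 z * B z - A1 z * (e * B z + (z - x₀) * deriv B z) +
      A z * (z - x₀) ^ (2 + 2 * e) * B z ^ 3 - c * (z - x₀) ^ (m + 2 - e) = 0 := by
    filter_upwards [ode, p0, p1, p2, hD, eventually_nhdsWithin_of_eventually_nhds hWB,
      self_mem_nhdsWithin] with z b0 b1 b2 b3 b4 b5 b6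
    have hz : z - x₀ ≠ 0 := sub_ne_zero.2 b6
    have b3' : deriv (deriv q) z * (z - x₀) ^ (m + 2) = A2 z := b3
    have b2' : deriv q z * (z - x₀) ^ (m + 1) = A1 z := b2
    refine (mul_eq_zero.1 ?_).resolve_left (pow_ne_zero e hz)
    have e1 : (z - x₀) ^ (m + 2) = (z - x₀) ^ e * (z - x₀) ^ (m + 2 - e) := by
      rw [← pow_add]
      congr 1
      omega
    have e2 : W z ^ 3 * (z - x₀) ^ 2 = (z - x₀) ^ e * ((z - x₀) ^ (2 + 2 * e) * B z ^ 3) := by
      rw [b5]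
      ring
    have e3 : (z - x₀) ^ (m + 2) = (z - x₀) ^ (m + 1) * (z - x₀) := by ring
    have e4 : (z - x₀) ^ (m + 2) = (z - x₀) ^ m * (z - x₀) ^ 2 := by ring
    calc (z - x₀) ^ e * (A2 z * B z - A1 z * (e * B z + (z - x₀) * deriv B z) +
          A z * (z - x₀) ^ (2 + 2 * e) * B z ^ 3 - c * (z - x₀) ^ (m + 2 - e))
        = A2 z * ((z - x₀) ^ e * B z) -
          A1 z * ((z - x₀) ^ e * (e * B z + (z - x₀) * deriv B z)) +
          A z * ((z - x₀) ^ e * ((z - x₀) ^ (2 + 2 * e) * B z ^ 3)) -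
          c * ((z - x₀) ^ e * (z - x₀) ^ (m + 2 - e)) := by ring
      _ = A2 z * W z - A1 z * ((z - x₀) * deriv W z) + A z * (W z ^ 3 * (z - x₀) ^ 2) -
          c * (z - x₀) ^ (m + 2) := by rw [← b5, ← b4, ← e2, ← e1]
      _ = deriv (deriv q) z * (z - x₀) ^ (m + 2) * W z -
          deriv q z * (z - x₀) ^ (m + 1) * ((z - x₀) * deriv W z) +
          q z * (z - x₀) ^ m * (W z ^ 3 * (z - x₀) ^ 2) - c * (z - x₀) ^ (m + 2) := by
            rw [b3', b2', b1]
      _ = (deriv (deriv q) z * W z - deriv q z * deriv W z + q z * W z ^ 3 - c) *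
          (z - x₀) ^ (m + 2) := by ring
      _ = 0 := by rw [b0]; ring
  have a2 : AnalyticAt ℂ A2 x₀ :=
    ((analyticAt_id.sub analyticAt_const).mul a1.deriv).sub (analyticAt_const.mul a1)
  have hGc : ContinuousAt (fun z => A2 z * B z - A1 z * (e * B z + (z - x₀) * deriv B z) +
      A z * (z - x₀) ^ (2 + 2 * e) * B z ^ 3 - c * (z - x₀) ^ (m + 2 - e)) x₀ := by
    have c1 := a2.continuousAt
    have c2 : ContinuousAt A1 x₀ := a1.continuousAt
    have c3 := hB.continuousAt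
    have c4 := hB.deriv.continuousAt
    have c5 := g1.continuousAt
    have c6 : ContinuousAt (fun z : ℂ => z - x₀) x₀ := by fun_prop
    exact ((c1.mul c3).sub (c2.mul ((continuousAt_const.mul c3).add (c6.mul c4)))).add
      ((c5.mul (c6.pow _)).mul (c3.pow _)) |>.sub (continuousAt_const.mul (c6.pow _))
  have hG0 := eq_of_punct hGc (continuousAt_const (y := (0 : ℂ))) hG
  have hpow : m + 2 - e ≠ 0 := by omega
  have hA1x : A1 x₀ = -(m * A x₀) := by
    rw [hA1]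
    simp
  have hA2x : A2 x₀ = (m + 1) * (m * A x₀) := by
    rw [hA2]
    simp only [sub_self, zero_mul, zero_sub, hA1x]
    push_cast
    ring
  simp only [sub_self, zero_mul, add_zero, hA1x, hA2x, zero_pow hpow,
    zero_pow (show 2 + 2 * e ≠ 0 by omega), mul_zero, sub_zero] at hG0
  have hfin : ((m : ℂ) * (m + 1 + e)) * (A x₀ * B x₀) = 0 := by linear_combination hG0
  have hne : ((m : ℂ) * (m + 1 + e)) ≠ 0 := by
    have : (m * (m + 1 + e) : ℕ) ≠ 0 := by
      have : 0 < m * (m + 1 + e) := by positivity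
      omega
    exact_mod_cast this
  exact (mul_ne_zero hne (mul_ne_zero g2 hB0)) hfin

/-- **CASE I, the support function.**  If moreover `H ∘ Φ` is meromorphic in the strip then it is
holomorphic in the strip (`Φb` as in `caseI`). -/
theorem caseI_supp (T : LD h κ ρ Λ L H HH lam Φ l φ) {b : ℝ} (hb : 0 < b) {Φb : ℂ → ℂ}
    (dΦb : DifferentiableOn ℂ Φb (Str b)) (hΦr : ∀ x : ℝ, Φb x = Φ x)
    (hcl : ∀ x ∈ Str b, deriv Φb x ≠ 0 ∨ deriv (deriv Φb) x ≠ 0) {q : ℂ → ℂ}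
    (mq : MeromorphicOn q (Str b)) (hq : ∀ x : ℝ, q x = H (Φ x)) :
    ∃ qb : ℂ → ℂ, DifferentiableOn ℂ qb (Str b) ∧ (∀ x : ℝ, qb x = H (Φ x)) ∧
      (∀ z ∈ Str b, qb (z + 1) = qb z) ∧ (∀ z ∈ Str b, qb (conj z) = conj (qb z)) ∧
      (∀ x ∈ Str b, ∀ᶠ z in 𝓝[≠] x, q z = qb z) ∧
      ∀ z ∈ Str b, deriv (deriv qb) z * deriv Φb z - deriv qb z * deriv (deriv Φb) z +
        qb z * deriv Φb z ^ 3 = (Λ : ℂ) ^ 3 := by
  have hΛ : (Λ : ℂ) ≠ 0 := by exact_mod_cast T.Λ0.ne'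
  have aΦb : ∀ z ∈ Str b, AnalyticAt ℂ Φb z := fun z hz =>
    dΦb.analyticAt ((isOpen_Str b).mem_nhds hz)
  have hm : 0 < min ρ b := lt_min T.ρ0 hb
  have hΦeq : ∀ z ∈ Str (min ρ b), Φb z = Φ z :=
    H500.strip_eq hm (dΦb.mono (Str_mono (min_le_right _ _)))
      (T.dΦ'.mono (Str_mono (min_le_left _ _))) hΦr
  -- `H ∘ Φ` is holomorphic near the real axis
  have hHΦ : ∀ z ∈ Str ρ, AnalyticAt ℂ (fun z => H (Φ z)) z := fun z hz =>
    AnalyticAt.comp' (T.dH.analyticAt ((isOpen_Str κ).mem_nhds (T.Φm' hz))) (anΦ T hz)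
  have hqr : ∀ x : ℝ, ∀ᶠ z in 𝓝 (x : ℂ), q z = H (Φ z) := by
    intro x
    have h2 : ∃ᶠ z in 𝓝[≠] (x : ℂ), H (Φ z) = q z :=
      (ofReal_tendsto x).frequently
        (Filter.Eventually.frequently (Filter.Eventually.of_forall fun y => (hq y).symm))
    have h3 := ((hHΦ x (real_mem_Str T.ρ0 x)).meromorphicAt.frequently_eq_iff_eventuallyEq
      (mq x (real_mem_Str hb x))).1 h2
    filter_upwards [eventually_nhdsWithin_iff.1 h3] with z hz
    rcases eq_or_ne z (x : ℂ) with rfl | hne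
    · exact hq x
    · exact (hz hne).symm
  -- the equation near the real axis
  have hode0 : ∀ x : ℝ, ∀ᶠ z in 𝓝 (x : ℂ), deriv (deriv q) z * deriv Φb z -
      deriv q z * deriv (deriv Φb) z + q z * deriv Φb z ^ 3 = (Λ : ℂ) ^ 3 := by
    intro x
    have hxm : (x : ℂ) ∈ Str (min ρ b) := real_mem_Str hm x
    have hxρ : (x : ℂ) ∈ Str ρ := real_mem_Str T.ρ0 x
    have e1 : ∀ᶠ z in 𝓝 (x : ℂ), q =ᶠ[𝓝 z] fun z => H (Φ z) := (hqr x).eventually_nhds
    have e2 : ∀ᶠ z in 𝓝 (x : ℂ), Φb =ᶠ[𝓝 z] Φ := by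
      filter_upwards [(isOpen_Str (min ρ b)).mem_nhds hxm] with z hz
      filter_upwards [(isOpen_Str (min ρ b)).mem_nhds hz] with w hw
      exact hΦeq w hw
    filter_upwards [e1, e2, (isOpen_Str ρ).mem_nhds hxρ] with z f1 f2 f3
    have f3' : z ∈ Str ρ := f3
    have hHd : ∀ ψ ∈ Str κ, HasDerivAt H (deriv H ψ) ψ := fun ψ hψ =>
      (T.dH.differentiableAt ((isOpen_Str κ).mem_nhds hψ)).hasDerivAt
    have hH1 : DifferentiableOn ℂ (deriv H) (Str κ) := T.dH.deriv (isOpen_Str κ)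
    have hHdd : ∀ ψ ∈ Str κ, HasDerivAt (deriv H) (deriv (deriv H) ψ) ψ := fun ψ hψ =>
      (hH1.differentiableAt ((isOpen_Str κ).mem_nhds hψ)).hasDerivAt
    have g1 : ∀ w ∈ Str ρ, HasDerivAt (fun z => H (Φ z)) (deriv H (Φ w) * deriv Φ w) w := by
      intro w hw
      exact HasDerivAt.comp w (hHd _ (T.Φm' hw)) (anΦ T hw).differentiableAt.hasDerivAt
    have g2 : deriv (fun z => H (Φ z)) =ᶠ[𝓝 z] fun w => deriv H (Φ w) * deriv Φ w := by
      filter_upwards [(isOpen_Str ρ).mem_nhds f3'] with w hw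
      exact (g1 w hw).deriv
    have g3 : HasDerivAt (fun w => deriv H (Φ w) * deriv Φ w)
        ((deriv (deriv H) (Φ z) * deriv Φ z) * deriv Φ z + deriv H (Φ z) * deriv (deriv Φ) z) z := by
      have g4 : HasDerivAt (fun w => deriv H (Φ w)) (deriv (deriv H) (Φ z) * deriv Φ z) z :=
        HasDerivAt.comp z (hHdd _ (T.Φm' f3')) (anΦ T f3').differentiableAt.hasDerivAt
      exact g4.fun_mul (anΦ T f3').deriv.differentiableAt.hasDerivAt
    rw [f1.self_of_nhds, f1.deriv_eq, f1.deriv.deriv_eq, f2.deriv_eq, f2.deriv.deriv_eq,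
      g2.deriv_eq, g3.deriv, (g1 z f3').deriv]
    have g5 : lam (Φ z) ^ 3 * deriv Φ z ^ 3 = (Λ : ℂ) ^ 3 := by
      rw [(T.dΦ z f3').deriv]
      have := T.lam0 _ (T.Φm' f3')
      field_simp
    rw [← g5, T.lam3 _ (T.Φm' f3')]
    ring
  -- the equation everywhere
  have mW : ∀ x ∈ Str b, MeromorphicAt (deriv Φb) x := fun x hx => (aΦb x hx).deriv.meromorphicAt
  have mW1 : ∀ x ∈ Str b, MeromorphicAt (deriv (deriv Φb)) x := fun x hx =>
    (aΦb x hx).deriv.deriv.meromorphicAt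
  set D : ℂ → ℂ := fun z => deriv (deriv q) z * deriv Φb z -
      deriv q z * deriv (deriv Φb) z + q z * deriv Φb z ^ 3 - (Λ : ℂ) ^ 3 with hD
  have mD : MeromorphicOn D (Str b) := by
    intro x hx
    exact ((((mq.deriv.deriv x hx).fun_mul (mW x hx)).fun_sub ((mq.deriv x hx).fun_mul (mW1 x hx))).fun_add
      ((mq x hx).fun_mul ((mW x hx).fun_pow 3))).fun_sub (MeromorphicAt.const _ x)
  have hode : ∀ x ∈ Str b, ∀ᶠ z in 𝓝[≠] x, deriv (deriv q) z * deriv Φb z -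
      deriv q z * deriv (deriv Φb) z + q z * deriv Φb z ^ 3 = (Λ : ℂ) ^ 3 := by
    intro x hx
    have h1 : meromorphicOrderAt D x = ⊤ := by
      by_contra hcon
      have h2 := mD.meromorphicOrderAt_ne_top_of_isPreconnected (convex_Str b).isPreconnected hx
        (real_mem_Str hb 0) hcon
      apply h2
      rw [meromorphicOrderAt_eq_top_iff]
      filter_upwards [eventually_nhdsWithin_of_eventually_nhds (hode0 0)] with z hz
      rw [hD]
      simp only
      rw [hz, sub_self]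
    rw [meromorphicOrderAt_eq_top_iff] at h1
    filter_upwards [h1] with z hz
    exact sub_eq_zero.1 hz
  -- no pole
  set qb : ℂ → ℂ := toMeromorphicNFOn q (Str b) with hqb
  have hpe : ∀ x ∈ Str b, ∀ᶠ z in 𝓝[≠] x, q z = qb z := fun x hx =>
    (mq.toMeromorphicNFOn_eq_self_on_nhdsNE hx).symm
  have han : ∀ x ∈ Str b, AnalyticAt ℂ qb x := fun x hx => by
    have h1 : MeromorphicNFAt qb x := meromorphicNFOn_toMeromorphicNFOn _ _ hx
    rw [← h1.meromorphicOrderAt_nonneg_iff_analyticAt, hqb, meromorphicOrderAt_toMeromorphicNFOn mq hx]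
    exact no_pole (aΦb x hx).deriv (hcl x hx) (mq x hx) (hode x hx)
  have dqb : DifferentiableOn ℂ qb (Str b) := fun z hz =>
    (han z hz).differentiableAt.differentiableWithinAt
  have hqbr : ∀ x : ℝ, qb x = H (Φ x) := by
    intro x
    refine eq_of_punct (g := fun z => H (Φ z)) (han x (real_mem_Str hb x)).continuousAt
      (hHΦ x (real_mem_Str T.ρ0 x)).continuousAt ?_
    filter_upwards [hpe x (real_mem_Str hb x), eventually_nhdsWithin_of_eventually_nhds (hqr x)]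
      with z a c
    rw [← a, c]
  refine ⟨qb, dqb, hqbr, ?_, ?_, hpe, ?_⟩
  · have h1 : DifferentiableOn ℂ (fun z => qb (z + 1)) (Str b) := by
      refine dqb.comp (by fun_prop) fun z hz => ?_
      have := add_real_mem_Str hz 1
      rwa [ofReal_one] at this
    refine fun z hz => H500.strip_eq hb h1 dqb (fun x => ?_) z hz
    show qb ((x : ℂ) + 1) = qb x
    have h3 : ((x + 1 : ℝ) : ℂ) = (x : ℂ) + 1 := by push_cast; rfl
    have hxρ : (x : ℂ) ∈ Str ρ := real_mem_Str T.ρ0 x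
    rw [← h3, hqbr, hqbr, h3, T.Φp _ hxρ, T.Hp _ (T.Φm' hxρ)]
  · refine conj_strip hb dqb fun x => ?_
    rw [hqbr, T.Φr, T.Hr, ofReal_im]
  · intro z hz
    have b1 := han z hz
    have b2 := aΦb z hz
    refine eq_of_punct (f := fun z => deriv (deriv qb) z * deriv Φb z -
      deriv qb z * deriv (deriv Φb) z + qb z * deriv Φb z ^ 3) (g := fun _ => (Λ : ℂ) ^ 3) ?_
      continuousAt_const ?_
    · exact ((b1.deriv.deriv.continuousAt.mul b2.deriv.continuousAt).sub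
        (b1.deriv.continuousAt.mul b2.deriv.deriv.continuousAt)).add
        (b1.continuousAt.mul (b2.deriv.continuousAt.pow 3))
    · filter_upwards [hode z hz, ev_ev (hpe z hz)] with w c1 c2
      have c3 : q =ᶠ[𝓝 w] qb := c2
      rw [← c3.self_of_nhds, ← c3.deriv_eq, ← c3.deriv.deriv_eq, c1]

end Vale.Agent.P097.H898
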