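import Mathlib

/-! # P097 / ALG-NA, part A: the minimal polynomial and its Bezout relation -/

set_option linter.all false

open Polynomial

namespace Vale.Agent.P097.H898

section
variable {A : Type*} [CommRing A] [IsDomain A] [CharZero A]

/-- integral version of a polynomial over the fraction field -/
theorem exists_int (p : (FractionRing A)[X]) :
    ∃ (b : A) (q : A[X]), b ≠ 0 ∧ q.map (algebraMap A (FractionRing A)) =
      C (algebraMap A (FractionRing A) b) * p := by
  obtain ⟨b, hb⟩ := IsLocalization.integerNormalization_map_to_map (nonZeroDivisors A) p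
  refine ⟨b, IsLocalization.integerNormalization (nonZeroDivisors A) p,
    nonZeroDivisors.ne_zero b.2, ?_⟩
  rw [hb, ← Polynomial.smul_eq_C_mul]
  rw [algebraMap_smul]

theorem exists_min (V : Ideal A[X]) [hV : V.IsPrime] (hne : ∃ P ∈ V, P ≠ 0)
    (hC : ∀ a : A, C a ∈ V → a = 0) (hX : (X : A[X]) ∉ V) :
    ∃ P ∈ V, 1 ≤ P.natDegree ∧ P.coeff 0 ≠ 0 ∧
      ∃ (U W : A[X]) (D : A), D ≠ 0 ∧ U * P + W * derivative P = C D := by
  classical
  -- minimal degree
  have hex : ∃ n : ℕ, ∃ P ∈ V, P ≠ 0 ∧ P.natDegree = n := by
    obtain ⟨P, h1, h2⟩ := hne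
    exact ⟨_, P, h1, h2, rfl⟩
  obtain ⟨P, hPV, hP0, hPd⟩ := Nat.find_spec hex
  have hmin : ∀ Q ∈ V, Q ≠ 0 → P.natDegree ≤ Q.natDegree := by
    intro Q h1 h2
    rw [hPd]
    exact Nat.find_min' hex ⟨Q, h1, h2, rfl⟩
  have hd1 : 1 ≤ P.natDegree := by
    by_contra hcon
    have h0 : P.natDegree = 0 := by omega
    rw [Polynomial.natDegree_eq_zero] at h0
    obtain ⟨a, ha⟩ := h0
    rw [← ha] at hPV hP0
    exact hP0 (by rw [hC a hPV, C_0])
  refine ⟨P, hPV, hd1, ?_, ?_⟩
  · intro h0
    obtain ⟨Q, hQ⟩ := X_dvd_iff.2 h0
    have hQ0 : Q ≠ 0 := by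
      rintro rfl
      exact hP0 (by rw [hQ, mul_zero])
    have h1 : P.natDegree = 1 + Q.natDegree := by
      rw [hQ, natDegree_mul X_ne_zero hQ0, natDegree_X]
    have h2 : Q ∈ V := by
      rw [hQ] at hPV
      exact (hV.mem_or_mem hPV).resolve_left hX
    have := hmin Q h2 hQ0
    omega
  · set φ : A →+* FractionRing A := algebraMap A (FractionRing A) with hφ
    have hinj : Function.Injective φ := IsFractionRing.injective A (FractionRing A)
    have hP'0 : derivative P ≠ 0 := by
      intro h
      have := Polynomial.natDegree_eq_zero_of_derivative_eq_zero h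
      omega
    have hP'd : (derivative P).natDegree < P.natDegree :=
      Polynomial.natDegree_derivative_lt (by omega)
    have hcop : IsCoprime (P.map φ) ((derivative P).map φ) := by
      refine isCoprime_of_dvd _ _ ?_ ?_
      · rintro ⟨h, -⟩
        exact hP0 ((Polynomial.map_eq_zero_iff hinj).1 h)
      · intro z hz hz0 hzP hzP'
        obtain ⟨h, hh⟩ := hzP
        have hPm0 : P.map φ ≠ 0 := fun h => hP0 ((Polynomial.map_eq_zero_iff hinj).1 h)
        have hh0 : h ≠ 0 := by
          rintro rfl
          exact hPm0 (by rw [hh, mul_zero])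
        have hzd : 1 ≤ z.natDegree := by
          by_contra hcon
          have h0 : z.natDegree = 0 := by omega
          rw [Polynomial.natDegree_eq_zero] at h0
          obtain ⟨a, ha⟩ := h0
          have ha0 : a ≠ 0 := by
            rintro rfl
            exact hz0 (by rw [← ha, C_0])
          exact hz (by rw [← ha]; exact isUnit_C.2 (isUnit_iff_ne_zero.2 ha0))
        have hzd2 : z.natDegree < P.natDegree := by
          have h1 := Polynomial.natDegree_le_of_dvd hzP'
            (fun h => hP'0 ((Polynomial.map_eq_zero_iff hinj).1 h))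
          rw [Polynomial.natDegree_map_eq_of_injective hinj] at h1
          omega
        have hhd : h.natDegree < P.natDegree := by
          have h1 : (P.map φ).natDegree = z.natDegree + h.natDegree := by
            rw [hh, natDegree_mul hz0 hh0]
          rw [Polynomial.natDegree_map_eq_of_injective hinj] at h1
          omega
        obtain ⟨b, z₁, hb, hz₁⟩ := exists_int z
        obtain ⟨c, h₁, hc, hh₁⟩ := exists_int h
        have hb' : φ b ≠ 0 := fun h => hb (hinj (by rw [h, map_zero]))
        have hc' : φ c ≠ 0 := fun h => hc (hinj (by rw [h, map_zero]))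
        have hz₁0 : z₁ ≠ 0 := by
          rintro rfl
          rw [Polynomial.map_zero] at hz₁
          exact mul_ne_zero (C_ne_zero.2 hb') hz0 hz₁.symm
        have hh₁0 : h₁ ≠ 0 := by
          rintro rfl
          rw [Polynomial.map_zero] at hh₁
          exact mul_ne_zero (C_ne_zero.2 hc') hh0 hh₁.symm
        have hz₁d : z₁.natDegree = z.natDegree := by
          rw [← Polynomial.natDegree_map_eq_of_injective hinj z₁, hz₁, natDegree_C_mul hb']
        have hh₁d : h₁.natDegree = h.natDegree := by
          rw [← Polynomial.natDegree_map_eq_of_injective hinj h₁, hh₁, natDegree_C_mul hc']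
        have hprod : z₁ * h₁ = C (b * c) * P := by
          apply Polynomial.map_injective φ hinj
          rw [Polynomial.map_mul, Polynomial.map_mul, hz₁, hh₁, Polynomial.map_C, hh, map_mul, C_mul]
          ring
        have hmem : z₁ * h₁ ∈ V := by
          rw [hprod]
          exact V.mul_mem_left _ hPV
        rcases hV.mem_or_mem hmem with h1 | h1
        · have := hmin z₁ h1 hz₁0
          omega
        · have := hmin h₁ h1 hh₁0
          omega
    obtain ⟨u, w, huw⟩ := hcop
    obtain ⟨b, u₁, hb, hu₁⟩ := exists_int u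
    obtain ⟨c, w₁, hc, hw₁⟩ := exists_int w
    refine ⟨C c * u₁, C b * w₁, b * c, mul_ne_zero hb hc, ?_⟩
    apply Polynomial.map_injective φ hinj
    rw [Polynomial.map_add, Polynomial.map_mul, Polynomial.map_mul, Polynomial.map_mul,
      Polynomial.map_mul, hu₁, hw₁, Polynomial.map_C, Polynomial.map_C, Polynomial.map_C, map_mul,
      C_mul]
    linear_combination (C (φ b) * C (φ c)) * huw

end

end Vale.Agent.P097.H898
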