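import Mathlib

/-! # P097 / ALG-NA, part B: local branches of an algebraic function -/

set_option linter.all false

open Polynomial Filter Topology Set

namespace Vale.Agent.P097.H898

theorem ee_sum (P : ℂ[X][X]) (z Y : ℂ) :
    P.evalEval z Y = ∑ i ∈ Finset.range (P.natDegree + 1), (P.coeff i).eval z * Y ^ i := by
  have h : Polynomial.eval (C Y) P =
      ∑ i ∈ Finset.range (P.natDegree + 1), P.coeff i * (C Y) ^ i :=
    Polynomial.eval_eq_sum_range _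
  rw [evalEval, h, Polynomial.eval_finset_sum]
  refine Finset.sum_congr rfl fun i _ => ?_
  simp

theorem ee_an (P : ℂ[X][X]) (p : ℂ × ℂ) :
    AnalyticAt ℂ (fun p : ℂ × ℂ => P.evalEval p.1 p.2) p := by
  have h : (fun p : ℂ × ℂ => P.evalEval p.1 p.2) = fun p : ℂ × ℂ =>
      ∑ i ∈ Finset.range (P.natDegree + 1), (P.coeff i).eval p.1 * p.2 ^ i := by
    funext p
    exact ee_sum P p.1 p.2
  rw [h]
  refine Finset.analyticAt_fun_sum _ fun i _ => ?_
  refine AnalyticAt.mul ?_ (analyticAt_snd.pow i)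
  have h1 : AnalyticAt ℂ (fun z : ℂ => (P.coeff i).eval z) p.1 :=
    (P.coeff i).differentiable.analyticAt _
  exact h1.comp analyticAt_fst

theorem ee_deriv (P : ℂ[X][X]) (z Y : ℂ) :
    HasDerivAt (fun Y => P.evalEval z Y) ((derivative P).evalEval z Y) Y := by
  have h := (P.map (evalRingHom z)).hasDerivAt Y
  rw [derivative_map, map_evalRingHom_eval] at h
  refine h.congr_of_eventuallyEq (Eventually.of_forall fun Y' => ?_)
  exact (map_evalRingHom_eval z Y' P).symm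

/-- **local branch through a simple root** -/
theorem exists_br {P : ℂ[X][X]} {z₀ Y₀ : ℂ} (h0 : P.evalEval z₀ Y₀ = 0)
    (h1 : (derivative P).evalEval z₀ Y₀ ≠ 0) :
    ∃ y : ℂ → ℂ, AnalyticAt ℂ y z₀ ∧ y z₀ = Y₀ ∧
      ∀ᶠ p in 𝓝 ((z₀, Y₀) : ℂ × ℂ), (P.evalEval p.1 p.2 = 0 ↔ y p.1 = p.2) := by
  set f : ℂ × ℂ → ℂ := fun p => P.evalEval p.1 p.2 with hf
  have hcd : ContDiffAt ℂ ⊤ f (z₀, Y₀) := (ee_an P (z₀, Y₀)).contDiffAt
  have hd : HasFDerivAt f (fderiv ℂ f (z₀, Y₀)) (z₀, Y₀) :=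
    (ee_an P (z₀, Y₀)).differentiableAt.hasFDerivAt
  have hder : (derivative P).evalEval z₀ Y₀ = fderiv ℂ f (z₀, Y₀) (0, 1) := by
    have h2 : HasDerivAt (fun Y : ℂ => ((z₀, Y) : ℂ × ℂ)) (0, 1) Y₀ :=
      (hasDerivAt_const Y₀ z₀).prodMk (hasDerivAt_id Y₀)
    have h3 : HasDerivAt (fun Y : ℂ => f (z₀, Y)) (fderiv ℂ f (z₀, Y₀) (0, 1)) Y₀ :=
      HasFDerivAt.comp_hasDerivAt Y₀ hd h2
    exact (ee_deriv P z₀ Y₀).unique h3
  have hinv : (fderiv ℂ f (z₀, Y₀) ∘L ContinuousLinearMap.inr ℂ ℂ ℂ).IsInvertible := by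
    refine ⟨ContinuousLinearEquiv.unitsEquivAut ℂ (Units.mk0 _ h1), ?_⟩
    ext
    simpa using hder
  have hn0 : (⊤ : WithTop ℕ∞) ≠ 0 := by simp
  refine ⟨hcd.implicitFunction hn0 hinv, (hcd.contDiffAt_implicitFunction hn0 hinv).analyticAt,
    hcd.implicitFunction_apply_self hn0 hinv, ?_⟩
  filter_upwards [hcd.eventually_apply_eq_iff_implicitFunction hn0 hinv] with p hp
  rw [← hp]
  show f p = 0 ↔ f p = f (z₀, Y₀)
  rw [show f (z₀, Y₀) = 0 from h0]

/-- **uniqueness of the germ** -/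
theorem germ_unique {P : ℂ[X][X]} {E f g : ℂ → ℂ} {ψ : ℂ}
    (hE : ContinuousAt E ψ) (hf : ContinuousAt f ψ) (hg : ContinuousAt g ψ)
    (h1 : (derivative P).evalEval (E ψ) (f ψ) ≠ 0) (he : f ψ = g ψ)
    (hPf : ∀ᶠ ψ' in 𝓝 ψ, P.evalEval (E ψ') (f ψ') = 0)
    (hPg : ∀ᶠ ψ' in 𝓝 ψ, P.evalEval (E ψ') (g ψ') = 0) : f =ᶠ[𝓝 ψ] g := by
  obtain ⟨y, -, -, hy⟩ := exists_br hPf.self_of_nhds h1
  have h2 : Tendsto (fun ψ' => (E ψ', f ψ')) (𝓝 ψ) (𝓝 (E ψ, f ψ)) := hE.prodMk_nhds hf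
  have h3 : Tendsto (fun ψ' => (E ψ', g ψ')) (𝓝 ψ) (𝓝 (E ψ, f ψ)) := by
    rw [he]
    exact hE.prodMk_nhds hg
  filter_upwards [h2.eventually hy, h3.eventually hy, hPf, hPg] with ψ' a b c d
  rw [← a.1 c, ← b.1 d]

/-- the bad points of the minimal polynomial: outside, the roots are simple, nonzero and there are
`P.natDegree` of them -/
structure Reg (P : ℂ[X][X]) (z : ℂ) : Prop where
  lead : P.leadingCoeff.eval z ≠ 0
  simple : ∀ Y, P.evalEval z Y = 0 → (derivative P).evalEval z Y ≠ 0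

open Classical in
/-- the roots over `z` -/
noncomputable def rts (P : ℂ[X][X]) (z : ℂ) : Finset ℂ := (P.map (evalRingHom z)).roots.toFinset

theorem map_ne_zero' {P : ℂ[X][X]} {z : ℂ} (h : P.leadingCoeff.eval z ≠ 0) :
    P.map (evalRingHom z) ≠ 0 := by
  intro h0
  have h1 : (P.map (evalRingHom z)).coeff P.natDegree = 0 := by rw [h0, coeff_zero]
  rw [coeff_map, coe_evalRingHom] at h1
  exact h h1

theorem mem_rts {P : ℂ[X][X]} {z Y : ℂ} (h : P.leadingCoeff.eval z ≠ 0) :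
    Y ∈ rts P z ↔ P.evalEval z Y = 0 := by
  rw [rts, Multiset.mem_toFinset, Polynomial.mem_roots (map_ne_zero' h), IsRoot.def,
    map_evalRingHom_eval]

theorem card_rts_le (P : ℂ[X][X]) (z : ℂ) : (rts P z).card ≤ P.natDegree := by
  refine (Multiset.toFinset_card_le _).trans ?_
  refine (Polynomial.card_roots' _).trans ?_
  exact Polynomial.natDegree_map_le

theorem Reg.card_rts {P : ℂ[X][X]} {z : ℂ} (h : Reg P z) : (rts P z).card = P.natDegree := by
  classical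
  have h0 := map_ne_zero' h.lead
  have h1 : (P.map (evalRingHom z)).roots.Nodup := by
    rw [Multiset.nodup_iff_count_le_one]
    intro Y
    rw [count_roots]
    by_contra hcon
    have h2 : 1 < (P.map (evalRingHom z)).rootMultiplicity Y := by omega
    rw [one_lt_rootMultiplicity_iff_isRoot h0] at h2
    obtain ⟨h4, h3⟩ := h2
    rw [derivative_map, IsRoot.def, map_evalRingHom_eval] at h3
    rw [IsRoot.def, map_evalRingHom_eval] at h4
    exact h.simple Y h4 h3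
  rw [rts, Multiset.toFinset_card_of_nodup h1, IsAlgClosed.card_roots_eq_natDegree]
  exact Polynomial.natDegree_map_of_leadingCoeff_ne_zero _ h.lead

/-- all the roots near a regular point -/
theorem Reg.nearby {P : ℂ[X][X]} {z₀ : ℂ} (h : Reg P z₀) :
    ∃ y : ℂ → ℂ → ℂ, (∀ Y ∈ rts P z₀, AnalyticAt ℂ (y Y) z₀ ∧ y Y z₀ = Y ∧
      ∀ᶠ z in 𝓝 z₀, P.evalEval z (y Y z) = 0) ∧
      ∀ᶠ z in 𝓝 z₀, (∀ Y ∈ rts P z₀, ∀ Y' ∈ rts P z₀, y Y z = y Y' z → Y = Y') ∧
        rts P z = (rts P z₀).image fun Y => y Y z := by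
  classical
  have h1 : ∀ Y ∈ rts P z₀, ∃ y : ℂ → ℂ, AnalyticAt ℂ y z₀ ∧ y z₀ = Y ∧
      ∀ᶠ z in 𝓝 z₀, P.evalEval z (y z) = 0 := by
    intro Y hY
    have h2 := (mem_rts h.lead).1 hY
    obtain ⟨y, ha, hb, hc⟩ := exists_br h2 (h.simple Y h2)
    refine ⟨y, ha, hb, ?_⟩
    have h3 : Tendsto (fun z => (z, y z)) (𝓝 z₀) (𝓝 (z₀, Y)) := by
      have := (continuousAt_id (x := z₀)).prodMk_nhds ha.continuousAt
      rwa [hb] at this
    filter_upwards [h3.eventually hc] with z hz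
    exact hz.2 rfl
  choose! y hy using h1
  refine ⟨y, hy, ?_⟩
  have h2 : ∀ᶠ z in 𝓝 z₀, ∀ Y ∈ rts P z₀, P.evalEval z (y Y z) = 0 :=
    (Filter.eventually_all_finset _).2 fun Y hY => (hy Y hY).2.2
  have h3 : ∀ᶠ z in 𝓝 z₀, ∀ Y ∈ rts P z₀, ∀ Y' ∈ rts P z₀, y Y z = y Y' z → Y = Y' := by
    refine (Filter.eventually_all_finset _).2 fun Y hY => ?_
    refine (Filter.eventually_all_finset _).2 fun Y' hY' => ?_
    by_cases hYY : Y = Y'
    · exact Eventually.of_forall fun z _ => hYY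
    · have h4 : ContinuousAt (fun z => y Y z - y Y' z) z₀ :=
        (hy Y hY).1.continuousAt.sub (hy Y' hY').1.continuousAt
      have h5 : y Y z₀ - y Y' z₀ ≠ 0 := by
        rw [(hy Y hY).2.1, (hy Y' hY').2.1]
        exact sub_ne_zero.2 hYY
      filter_upwards [h4.eventually_ne h5] with z hz h6
      exact absurd (sub_eq_zero.2 h6) hz
  have h4 : ∀ᶠ z in 𝓝 z₀, P.leadingCoeff.eval z ≠ 0 :=
    P.leadingCoeff.continuous.continuousAt.eventually_ne h.lead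
  filter_upwards [h2, h3, h4] with z a b c
  refine ⟨b, ?_⟩
  symm
  apply Finset.eq_of_subset_of_card_le
  · intro Y' hY'
    rw [Finset.mem_image] at hY'
    obtain ⟨Y, hY, rfl⟩ := hY'
    rw [mem_rts c]
    exact a Y hY
  · rw [Finset.card_image_of_injOn (fun Y hY Y' hY' hYY => b Y hY Y' hY' hYY), h.card_rts]
    exact card_rts_le P z

end Vale.Agent.P097.H898
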