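import Vale.Agent.P097.H898.NaB

/-! # P097 / ALG-NA, part C: the norm argument (product over the good branches, Liouville) -/

set_option linter.all false

open Polynomial Filter Topology Set Metric

namespace Vale.Agent.P097.H898

/-- Liouville's theorem with finitely many exceptional points -/
theorem liouville_fin {B : Set ℂ} (hB : B.Finite) {F : ℂ → ℂ}
    (hF : ∀ z, z ∉ B → AnalyticAt ℂ F z)
    (hb : ∀ b ∈ B, ∃ M : ℝ, ∀ᶠ z in 𝓝[≠] b, ‖F z‖ ≤ M)
    (hinf : ∃ M r : ℝ, ∀ z : ℂ, r < ‖z‖ → ‖F z‖ ≤ M) : ∃ c : ℂ, ∀ z, z ∉ B → F z = c := by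
  classical
  set G : ℂ → ℂ := fun z => limUnder (𝓝[≠] z) F with hG
  have hGF : ∀ z, z ∉ B → G z = F z := by
    intro z hz
    exact ((hF z hz).continuousAt.tendsto.mono_left nhdsWithin_le_nhds).limUnder_eq
  have hBo : IsOpen Bᶜ := hB.isClosed.isOpen_compl
  have hGd : Differentiable ℂ G := by
    intro z
    by_cases hz : z ∈ B
    · obtain ⟨M, hM⟩ := hb z hz
      have h1 : ∀ᶠ z' in 𝓝[≠] z, z' ∉ B := by
        have h2 : IsClosed (B \ {z}) := (hB.subset diff_subset).isClosed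
        have h3 : (B \ {z})ᶜ ∈ 𝓝 z := h2.isOpen_compl.mem_nhds (by simp)
        filter_upwards [mem_nhdsWithin_of_mem_nhds h3, self_mem_nhdsWithin] with z' a b c
        exact a ⟨c, b⟩
      have h2 := hM.and h1
      rw [eventually_nhdsWithin_iff, Metric.eventually_nhds_iff_ball] at h2
      obtain ⟨r, hr, h3⟩ := h2
      have h4 : DifferentiableOn ℂ F (ball z r \ {z}) := fun w hw =>
        (hF w (h3 w hw.1 hw.2).2).differentiableAt.differentiableWithinAt
      have h5 : BddAbove (norm ∘ F '' (ball z r \ {z})) := by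
        refine ⟨M, ?_⟩
        rintro _ ⟨w, hw, rfl⟩
        exact (h3 w hw.1 hw.2).1
      have h6 := Complex.differentiableOn_update_limUnder_of_bddAbove (ball_mem_nhds z hr) h4 h5
      have h7 : DifferentiableAt ℂ (Function.update F z (limUnder (𝓝[≠] z) F)) z :=
        h6.differentiableAt (ball_mem_nhds z hr)
      refine h7.congr_of_eventuallyEq ?_
      filter_upwards [ball_mem_nhds z hr] with w hw
      by_cases hwz : w = z
      · subst hwz
        rw [Function.update_self]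
      · rw [Function.update_of_ne hwz]
        exact hGF w (h3 w hw hwz).2
    · refine (hF z hz).differentiableAt.congr_of_eventuallyEq ?_
      filter_upwards [hBo.mem_nhds hz] with w hw
      exact hGF w hw
  have hbd : Bornology.IsBounded (range G) := by
    obtain ⟨M, r, hM⟩ := hinf
    obtain ⟨r', hr'⟩ := hB.isBounded.subset_closedBall (0 : ℂ)
    obtain ⟨M', hM'⟩ := (isCompact_closedBall (0 : ℂ) (max r r')).exists_bound_of_continuousOn
      hGd.continuous.continuousOn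
    refine isBounded_iff_forall_norm_le.2 ⟨max M M', ?_⟩
    rintro _ ⟨z, rfl⟩
    by_cases hz : z ∈ closedBall (0 : ℂ) (max r r')
    · exact (hM' z hz).trans (le_max_right _ _)
    · rw [mem_closedBall_zero_iff, not_le] at hz
      have h1 : z ∉ B := by
        intro h
        have := hr' h
        rw [mem_closedBall_zero_iff] at this
        exact absurd (lt_of_le_of_lt (le_max_right r r') hz) (not_lt.2 this)
      rw [hGF z h1]
      exact (hM z (lt_of_le_of_lt (le_max_left r r') hz)).trans (le_max_left _ _)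
  refine ⟨G 0, fun z hz => ?_⟩
  rw [← hGF z hz]
  exact hGd.apply_eq_apply_of_bounded hbd z 0

/-- **the norm argument** -/
theorem norm_arg {P : ℂ[X][X]} {B : Set ℂ} (hB : B.Finite) (hreg : ∀ z, z ∉ B → Reg P z)
    (G : ℂ → ℂ → Prop) (K : ℂ → ℂ → ℂ)
    (hG : ∀ z, z ∉ B → ∀ y : ℂ → ℂ, AnalyticAt ℂ y z → (∀ᶠ z' in 𝓝 z, P.evalEval z' (y z') = 0) →
      ∀ᶠ z' in 𝓝 z, (G z' (y z') ↔ G z (y z)))
    (hK : ∀ z, z ∉ B → ∀ y : ℂ → ℂ, AnalyticAt ℂ y z → (∀ᶠ z' in 𝓝 z, P.evalEval z' (y z') = 0) →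
      AnalyticAt ℂ (fun z' => K z' (y z')) z)
    (hb : ∀ b ∈ B, ∃ M : ℝ, ∀ᶠ z in 𝓝[≠] b, ∀ Y, P.evalEval z Y = 0 → G z Y → ‖K z Y‖ ≤ M)
    (hinf : ∃ M r : ℝ, ∀ z : ℂ, r < ‖z‖ → ∀ Y, P.evalEval z Y = 0 → G z Y → ‖K z Y‖ ≤ M) :
    ∃ S : Set ℂ, S.Finite ∧ ∀ z, z ∉ B → ∀ Y, P.evalEval z Y = 0 → G z Y → K z Y ∈ S := by
  classical
  set F : ℂ → ℂ → ℂ := fun T z => ∏ Y ∈ (rts P z).filter (G z), (T - K z Y) with hFdef
  -- holomorphy
  have hF : ∀ T z, z ∉ B → AnalyticAt ℂ (F T) z := by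
    intro T z₀ hz₀
    have hr := hreg z₀ hz₀
    obtain ⟨y, hy, hev⟩ := hr.nearby
    have h1 : AnalyticAt ℂ (fun z => ∏ Y ∈ (rts P z₀).filter (G z₀), (T - K z (y Y z))) z₀ := by
      refine Finset.analyticAt_fun_prod _ fun Y hY => ?_
      have hY' := (Finset.mem_filter.1 hY).1
      exact analyticAt_const.sub (hK z₀ hz₀ (y Y) (hy Y hY').1 (hy Y hY').2.2)
    refine h1.congr ?_
    have h2 : ∀ᶠ z in 𝓝 z₀, ∀ Y ∈ rts P z₀, (G z (y Y z) ↔ G z₀ Y) := by
      refine (Filter.eventually_all_finset _).2 fun Y hY => ?_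
      have h3 := hG z₀ hz₀ (y Y) (hy Y hY).1 (hy Y hY).2.2
      rwa [(hy Y hY).2.1] at h3
    filter_upwards [hev, h2] with z a b
    obtain ⟨c, d⟩ := a
    show _ = ∏ Y ∈ (rts P z).filter (G z), (T - K z Y)
    have h4 : (rts P z).filter (G z) = ((rts P z₀).filter (G z₀)).image fun Y => y Y z := by
      ext Y'
      rw [Finset.mem_filter, Finset.mem_image, d, Finset.mem_image]
      constructor
      · rintro ⟨⟨Y, hY, rfl⟩, h5⟩
        exact ⟨Y, Finset.mem_filter.2 ⟨hY, (b Y hY).1 h5⟩, rfl⟩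
      · rintro ⟨Y, hY, rfl⟩
        obtain ⟨hY1, hY2⟩ := Finset.mem_filter.1 hY
        exact ⟨⟨Y, hY1, rfl⟩, (b Y hY1).2 hY2⟩
    rw [h4, Finset.prod_image]
    intro Y hY Y' hY' h5
    exact c Y (Finset.mem_filter.1 hY).1 Y' (Finset.mem_filter.1 hY').1 h5
  -- bounds
  have hbound : ∀ (T z : ℂ) (M : ℝ), P.leadingCoeff.eval z ≠ 0 →
      (∀ Y, P.evalEval z Y = 0 → G z Y → ‖K z Y‖ ≤ M) →
      ‖F T z‖ ≤ (1 + ‖T‖ + |M|) ^ P.natDegree := by
    intro T z M hz hM
    show ‖∏ Y ∈ (rts P z).filter (G z), (T - K z Y)‖ ≤ _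
    have h1 : (1 : ℝ) ≤ 1 + ‖T‖ + |M| := by
      have := norm_nonneg T
      have := abs_nonneg M
      linarith
    have hc : ((rts P z).filter (G z)).card ≤ P.natDegree :=
      (Finset.card_filter_le _ _).trans (card_rts_le P z)
    calc ‖∏ Y ∈ (rts P z).filter (G z), (T - K z Y)‖
        ≤ ∏ Y ∈ (rts P z).filter (G z), ‖T - K z Y‖ := Finset.norm_prod_le _ _
      _ ≤ ∏ Y ∈ (rts P z).filter (G z), (1 + ‖T‖ + |M|) := by
          refine Finset.prod_le_prod (fun Y _ => norm_nonneg _) fun Y hY => ?_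
          obtain ⟨hY1, hY2⟩ := Finset.mem_filter.1 hY
          have h2 := hM Y ((mem_rts hz).1 hY1) hY2
          have h3 := norm_sub_le T (K z Y)
          have h4 := le_abs_self M
          linarith
      _ = (1 + ‖T‖ + |M|) ^ ((rts P z).filter (G z)).card := by
          rw [Finset.prod_const]
      _ ≤ (1 + ‖T‖ + |M|) ^ P.natDegree := pow_le_pow_right₀ h1 hc
  have hconst : ∀ T, ∃ c : ℂ, ∀ z, z ∉ B → F T z = c := by
    intro T
    refine liouville_fin hB (hF T) ?_ ?_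
    · intro b hbB
      obtain ⟨M, hM⟩ := hb b hbB
      refine ⟨(1 + ‖T‖ + |M|) ^ P.natDegree, ?_⟩
      have h1 : ∀ᶠ z' in 𝓝[≠] b, z' ∉ B := by
        have h2 : IsClosed (B \ {b}) := (hB.subset diff_subset).isClosed
        have h3 : (B \ {b})ᶜ ∈ 𝓝 b := h2.isOpen_compl.mem_nhds (by simp)
        filter_upwards [mem_nhdsWithin_of_mem_nhds h3, self_mem_nhdsWithin] with z' a b c
        exact a ⟨c, b⟩
      filter_upwards [hM, h1] with z a c
      exact hbound T z M (hreg z c).lead a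
    · obtain ⟨M, r, hM⟩ := hinf
      obtain ⟨r', hr'⟩ := hB.isBounded.subset_closedBall (0 : ℂ)
      refine ⟨(1 + ‖T‖ + |M|) ^ P.natDegree, max r r', fun z hz => ?_⟩
      have h1 : z ∉ B := by
        intro h
        have := hr' h
        rw [mem_closedBall_zero_iff] at this
        exact absurd (lt_of_le_of_lt (le_max_right r r') hz) (not_lt.2 this)
      exact hbound T z M (hreg z h1).lead (hM z (lt_of_le_of_lt (le_max_left r r') hz))
  -- conclusion
  by_cases hne : ∃ z₀ : ℂ, z₀ ∉ B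
  · obtain ⟨z₀, hz₀⟩ := hne
    refine ⟨((rts P z₀).filter (G z₀)).image (K z₀), Finset.finite_toSet _, fun z hz Y hY hGY => ?_⟩
    obtain ⟨c, hc⟩ := hconst (K z Y)
    have h1 : F (K z Y) z = 0 := by
      refine Finset.prod_eq_zero (i := Y) ?_ (sub_self _)
      exact Finset.mem_filter.2 ⟨(mem_rts (hreg z hz).lead).2 hY, hGY⟩
    have h2 : F (K z Y) z₀ = 0 := by rw [hc z₀ hz₀, ← hc z hz, h1]
    obtain ⟨Y₀, hY₀, h3⟩ := Finset.prod_eq_zero_iff.1 h2
    rw [Finset.mem_coe, Finset.mem_image]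
    exact ⟨Y₀, hY₀, (sub_eq_zero.1 h3).symm⟩
  · push Not at hne
    exact ⟨∅, Set.finite_empty, fun z hz => absurd (hne z) hz⟩

end Vale.Agent.P097.H898
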