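import Vale.Agent.P097.H898.NaC
import Vale.Agent.P097.H402.Alg.Defs
import Vale.Agent.P097.H846.ContGood
import Vale.Agent.P097.H65.NZA

/-! # P097 / ALG-NA, part D: charts, goodness and the conic invariant along the branches -/

set_option linter.all false

open Complex Polynomial Filter Topology Set Metric

namespace Vale.Agent.P097.H898

open Vale.Agent.P097.TA Vale.Agent.P097.H202 Vale.Agent.P097.H402.Rat Vale.Agent.P097.NZ
open Vale.Agent.P097.Alg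

/-! ## the coordinate `z = exp (i ψ)` -/

theorem ez_diff : Differentiable ℂ ez := by
  unfold ez
  fun_prop

theorem ez_cont : Continuous ez := ez_diff.continuous

theorem ez_hasDerivAt (ψ : ℂ) : HasDerivAt ez (I * ez ψ) ψ := by
  have h : HasDerivAt (fun ψ : ℂ => Complex.exp (I * ψ)) (Complex.exp (I * ψ) * (I * 1)) ψ :=
    ((hasDerivAt_id ψ).const_mul I).cexp
  have h2 : Complex.exp (I * ψ) * (I * 1) = I * ez ψ := by
    unfold ez
    ring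
  rw [h2] at h
  exact h

theorem ez_ne (ψ : ℂ) : ez ψ ≠ 0 := Complex.exp_ne_zero _

/-! ## the conic invariant in the coordinate `z` -/

noncomputable def kz (y : ℂ → ℂ) (z : ℂ) : ℂ :=
  (2 * y z ^ 2 + 5 / 9 * (deriv y z * (I * z)) ^ 2 -
    1 / 3 * (y z * (deriv (deriv y) z * (I * z) * (I * z) + deriv y z * (I * (I * z))))) ^ 3 /
      y z ^ 8

theorem kz_congr {y₁ y₂ : ℂ → ℂ} {z : ℂ} (h : y₁ =ᶠ[𝓝 z] y₂) : kz y₁ z = kz y₂ z := by
  unfold kz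
  rw [h.self_of_nhds, h.deriv.self_of_nhds, h.deriv.deriv.self_of_nhds]

theorem kap_congr {ρ₁ ρ₂ : ℂ → ℂ} {z : ℂ} (h : ρ₁ =ᶠ[𝓝 z] ρ₂) : kap ρ₁ z = kap ρ₂ z := by
  unfold kap
  rw [h.self_of_nhds, h.deriv.self_of_nhds, h.deriv.deriv.self_of_nhds]

theorem kap_comp {y ρ : ℂ → ℂ} {ψ : ℂ} (hy : AnalyticAt ℂ y (ez ψ))
    (h : ρ =ᶠ[𝓝 ψ] fun ψ' => y (ez ψ')) : kap ρ ψ = kz y (ez ψ) := by
  rw [kap_congr h]
  have h1 : ∀ᶠ ψ' in 𝓝 ψ, AnalyticAt ℂ y (ez ψ') :=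
    ez_cont.continuousAt.eventually hy.eventually_analyticAt
  have h2 : deriv (fun ψ' => y (ez ψ')) =ᶠ[𝓝 ψ] fun ψ' => deriv y (ez ψ') * (I * ez ψ') := by
    filter_upwards [h1] with ψ' h3
    exact (h3.differentiableAt.hasDerivAt.comp ψ' (ez_hasDerivAt ψ')).deriv
  have h3 : deriv (deriv (fun ψ' => y (ez ψ'))) ψ =
      deriv (deriv y) (ez ψ) * (I * ez ψ) * (I * ez ψ) + deriv y (ez ψ) * (I * (I * ez ψ)) := by
    rw [h2.deriv_eq]
    have h4 : HasDerivAt (fun ψ' => deriv y (ez ψ')) (deriv (deriv y) (ez ψ) * (I * ez ψ)) ψ :=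
      (hy.deriv.differentiableAt.hasDerivAt).comp ψ (ez_hasDerivAt ψ)
    have h5 : HasDerivAt (fun ψ' => I * ez ψ') (I * (I * ez ψ)) ψ :=
      (ez_hasDerivAt ψ).const_mul I
    exact (h4.mul h5).deriv
  unfold kap kz
  rw [h3, h2.self_of_nhds]

theorem kz_an {y : ℂ → ℂ} {z : ℂ} (hy : AnalyticAt ℂ y z) (h0 : y z ≠ 0) :
    AnalyticAt ℂ (kz y) z := by
  unfold kz
  have h1 := hy.deriv
  have h2 := h1.deriv
  refine AnalyticAt.div ?_ (hy.pow 8) (pow_ne_zero _ h0)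
  fun_prop

/-! ## good germs -/

/-- the germ of solution through `Y` at the angle `ψ` is good -/
def GP (P : ℂ[X][X]) (ψ Y : ℂ) : Prop := ∀ ρ : ℂ → ℂ, AnalyticAt ℂ ρ ψ → ρ ψ = Y →
  (∀ᶠ ψ' in 𝓝 ψ, P.evalEval (ez ψ') (ρ ψ') = 0) → Good (Ik ρ) (TT ρ) ψ

/-- the root `Y` over `z` is good -/
def GR (P : ℂ[X][X]) (z Y : ℂ) : Prop := ∀ ψ : ℂ, ez ψ = z → GP P ψ Y

open Classical in
/-- the conic invariant of the root `Y` over `z` -/
noncomputable def KK (P : ℂ[X][X]) (z Y : ℂ) : ℂ :=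
  if h : ∃ y : ℂ → ℂ, AnalyticAt ℂ y z ∧ y z = Y ∧ ∀ᶠ z' in 𝓝 z, P.evalEval z' (y z') = 0 then
    kz h.choose z else 0

variable {P : ℂ[X][X]}

theorem KK_eq {z : ℂ} {y : ℂ → ℂ} (hy : AnalyticAt ℂ y z)
    (hP : ∀ᶠ z' in 𝓝 z, P.evalEval z' (y z') = 0) (hs : (derivative P).evalEval z (y z) ≠ 0) :
    KK P z (y z) = kz y z := by
  have h : ∃ y' : ℂ → ℂ, AnalyticAt ℂ y' z ∧ y' z = y z ∧
    ∀ᶠ z' in 𝓝 z, P.evalEval z' (y' z') = 0 := ⟨y, hy, rfl, hP⟩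
  rw [KK, dif_pos h]
  obtain ⟨h1, h2, h3⟩ := h.choose_spec
  refine kz_congr ?_
  refine germ_unique (P := P) (E := fun z => z) continuousAt_id h1.continuousAt hy.continuousAt
    ?_ h2 h3 hP
  rw [h2]
  exact hs

/-- the branch through a simple root, with its composition -/
theorem exists_br' {z Y : ℂ} (h0 : P.evalEval z Y = 0) (hs : (derivative P).evalEval z Y ≠ 0) :
    ∃ y : ℂ → ℂ, AnalyticAt ℂ y z ∧ y z = Y ∧ ∀ᶠ z' in 𝓝 z, P.evalEval z' (y z') = 0 := by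
  obtain ⟨y, ha, hb, hc⟩ := exists_br h0 hs
  refine ⟨y, ha, hb, ?_⟩
  have h3 : Tendsto (fun z => (z, y z)) (𝓝 z) (𝓝 (z, Y)) := by
    have := (continuousAt_id (x := z)).prodMk_nhds ha.continuousAt
    rwa [hb] at this
  filter_upwards [h3.eventually hc] with z hz
  exact hz.2 rfl

/-- **chart lemma**: germs at `π u` through `g u` and the function `g` in the chart `π` -/
theorem chart {π g : ℂ → ℂ} {u : ℂ} (hπ : AnalyticAt ℂ π u) (hπ0 : deriv π u ≠ 0)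
    (hg : AnalyticAt ℂ g u) (hP : ∀ᶠ u' in 𝓝 u, P.evalEval (ez (π u')) (g u') = 0)
    (hs : (derivative P).evalEval (ez (π u)) (g u) ≠ 0) :
    ∃ y : ℂ → ℂ, AnalyticAt ℂ y (ez (π u)) ∧ y (ez (π u)) = g u ∧
      (∀ᶠ z' in 𝓝 (ez (π u)), P.evalEval z' (y z') = 0) ∧
      ∀ ρ : ℂ → ℂ, ((∀ᶠ u' in 𝓝 u, ρ (π u') = g u') ↔ ρ =ᶠ[𝓝 (π u)] fun ψ => y (ez ψ)) := by
  obtain ⟨y, h1, h2, h3⟩ := exists_br' hP.self_of_nhds hs
  have hec : ContinuousAt (fun u' => ez (π u')) u := ez_cont.continuousAt.comp hπ.continuousAt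
  have h4 : g =ᶠ[𝓝 u] fun u' => y (ez (π u')) := by
    refine germ_unique (P := P) (E := fun u' => ez (π u')) hec hg.continuousAt ?_ hs h2.symm hP ?_
    · exact ContinuousAt.comp (f := fun u' => ez (π u')) (g := y) h1.continuousAt hec
    · exact hec.eventually h3
  have hmap : map π (𝓝 u) = 𝓝 (π u) := hπ.hasStrictDerivAt.map_nhds_eq hπ0
  refine ⟨y, h1, h2, h3, fun ρ => ?_⟩
  constructor
  · intro h5
    rw [Filter.EventuallyEq, ← hmap, Filter.eventually_map]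
    filter_upwards [h4, h5] with u' a b
    rw [b, a]
  · intro h5
    rw [Filter.EventuallyEq, ← hmap, Filter.eventually_map] at h5
    filter_upwards [h4, h5] with u' a b
    rw [b, a]

theorem goodAt_iff {π g : ℂ → ℂ} {u : ℂ} (hπ : AnalyticAt ℂ π u) (hπ0 : deriv π u ≠ 0)
    (hg : AnalyticAt ℂ g u) (hP : ∀ᶠ u' in 𝓝 u, P.evalEval (ez (π u')) (g u') = 0)
    (hs : (derivative P).evalEval (ez (π u)) (g u) ≠ 0) :
    GoodAt π g u ↔ GP P (π u) (g u) := by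
  obtain ⟨y, h1, h2, h3, h4⟩ := chart hπ hπ0 hg hP hs
  constructor
  · intro h ρ ha hb hc
    refine h ρ ((h4 ρ).2 ?_)
    refine germ_unique (P := P) (E := ez) ez_cont.continuousAt ha.continuousAt ?_ ?_ ?_ hc ?_
    · exact ContinuousAt.comp (f := ez) (g := y) h1.continuousAt ez_cont.continuousAt
    · rw [hb]
      exact hs
    · rw [hb, h2]
    · exact ez_cont.continuousAt.eventually h3
  · intro h ρ hρ
    have h5 := (h4 ρ).1 hρ
    have h6 : AnalyticAt ℂ (fun ψ => y (ez ψ)) (π u) :=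
      AnalyticAt.comp (f := ez) (g := y) h1 (ez_diff.analyticAt _)
    refine h ρ (h6.congr h5.symm) ?_ ?_
    · rw [h5.self_of_nhds]
      exact h2
    · filter_upwards [h5, ez_cont.continuousAt.eventually h3] with ψ' a b
      rw [a]
      exact b

theorem kap_chart {π g : ℂ → ℂ} {u : ℂ} (hπ : AnalyticAt ℂ π u) (hπ0 : deriv π u ≠ 0)
    (hg : AnalyticAt ℂ g u) (hP : ∀ᶠ u' in 𝓝 u, P.evalEval (ez (π u')) (g u') = 0)
    (hs : (derivative P).evalEval (ez (π u)) (g u) ≠ 0) {ρ : ℂ → ℂ}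
    (hρ : ∀ᶠ u' in 𝓝 u, ρ (π u') = g u') : kap ρ (π u) = KK P (ez (π u)) (g u) := by
  obtain ⟨y, h1, h2, h3, h4⟩ := chart hπ hπ0 hg hP hs
  rw [kap_comp h1 ((h4 ρ).1 hρ), ← h2]
  rw [KK_eq h1 h3]
  rw [h2]
  exact hs

/-- a function `ρ` with `ρ (π u') = g u'` near `u` -/
theorem exists_rho {π g : ℂ → ℂ} {u : ℂ} (hπ : AnalyticAt ℂ π u) (hπ0 : deriv π u ≠ 0)
    (hg : AnalyticAt ℂ g u) (hP : ∀ᶠ u' in 𝓝 u, P.evalEval (ez (π u')) (g u') = 0)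
    (hs : (derivative P).evalEval (ez (π u)) (g u) ≠ 0) :
    ∃ ρ : ℂ → ℂ, ∀ᶠ u' in 𝓝 u, ρ (π u') = g u' := by
  obtain ⟨y, h1, h2, h3, h4⟩ := chart hπ hπ0 hg hP hs
  exact ⟨fun ψ => y (ez ψ), (h4 _).2 (Eventually.of_forall fun _ => rfl)⟩

/-- **propagation in a chart** -/
theorem GP_cont {U : Set ℂ} {π g : ℂ → ℂ} (hU : IsOpen U) (hc : IsPreconnected U)
    (hπ : DifferentiableOn ℂ π U) (hg : DifferentiableOn ℂ g U)
    (hne : ∀ u ∈ U, deriv π u ≠ 0 ∧ g u ≠ 0)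
    (hP : ∀ u ∈ U, P.evalEval (ez (π u)) (g u) = 0)
    (hs : ∀ u ∈ U, (derivative P).evalEval (ez (π u)) (g u) ≠ 0) {u₀ u : ℂ} (hu₀ : u₀ ∈ U)
    (hu : u ∈ U) (h : GP P (π u₀) (g u₀)) : GoodAt π g u ∧ GP P (π u) (g u) := by
  have h1 : ∀ v ∈ U, (GoodAt π g v ↔ GP P (π v) (g v)) := by
    intro v hv
    refine goodAt_iff (hπ.analyticAt (hU.mem_nhds hv)) (hne v hv).1 (hg.analyticAt (hU.mem_nhds hv))
      ?_ (hs v hv)
    filter_upwards [hU.mem_nhds hv] with v' hv'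
    exact hP v' hv'
  have h2 := contGood (Vale.Agent.P097.H65.rootA) U π g u₀ hU hc hπ hg hne hu₀ ((h1 u₀ hu₀).2 h) u hu
  exact ⟨h2, (h1 u hu).1 h2⟩

end Vale.Agent.P097.H898
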