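import Vale.Agent.P097.H898.NaD

/-! # P097 / ALG-NA, part E: goodness and the conic invariant near the regular points -/

set_option linter.all false

open Complex Polynomial Filter Topology Set Metric

namespace Vale.Agent.P097.H898

open Vale.Agent.P097.TA Vale.Agent.P097.H202 Vale.Agent.P097.H402.Rat Vale.Agent.P097.NZ
open Vale.Agent.P097.Alg

variable {P : ℂ[X][X]}

/-- the branch of the angle near `z`, through `ψ` at `z` -/
noncomputable def ang (z ψ z' : ℂ) : ℂ := ψ - I * Complex.log (z' / z)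

theorem div_mem_slit {z z' : ℂ} (hz' : z' ∈ ball z ‖z‖) : z' / z ∈ slitPlane := by
  have hz : z ≠ 0 := by
    rintro rfl
    simp at hz'
  have h1 : z' / z ∈ ball (1 : ℂ) 1 := by
    rw [mem_ball, dist_eq_norm] at hz' ⊢
    have h2 : z' / z - 1 = (z' - z) / z := by field_simp
    rw [h2, norm_div, div_lt_one (norm_pos_iff.2 hz)]
    exact hz'
  exact Complex.ball_one_subset_slitPlane h1

theorem ang_deriv {z ψ z' : ℂ} (hz' : z' ∈ ball z ‖z‖) :
    HasDerivAt (ang z ψ) (-(I * (1 / z'))) z' := by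
  have hz : z ≠ 0 := by
    rintro rfl
    simp at hz'
  have h1 := div_mem_slit hz'
  have hz'0 : z' ≠ 0 := by
    rintro rfl
    simp at h1
  have h2 : HasDerivAt (fun z' : ℂ => z' / z) (1 / z) z' := (hasDerivAt_id z').div_const z
  have h3 := (h2.clog h1).const_mul I
  have h4 := h3.const_sub ψ
  have h5 : (1 / z) / (z' / z) = 1 / z' := by field_simp
  rw [h5] at h4
  exact h4

theorem ez_ang {z ψ z' : ℂ} (hz' : z' ∈ ball z ‖z‖) (h : ez ψ = z) : ez (ang z ψ z') = z' := by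
  have hz : z ≠ 0 := by
    rintro rfl
    simp at hz'
  have h1 := div_mem_slit hz'
  have h2 : z' / z ≠ 0 := slitPlane_ne_zero h1
  unfold ez ang
  have h3 : I * (ψ - I * Complex.log (z' / z)) = I * ψ + Complex.log (z' / z) := by
    have := I_mul_I
    linear_combination (-Complex.log (z' / z)) * this
  rw [h3, Complex.exp_add, Complex.exp_log h2]
  have h4 : Complex.exp (I * ψ) = z := h
  rw [h4]
  field_simp

theorem ang_self {z ψ : ℂ} (hz : z ≠ 0) : ang z ψ z = ψ := by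
  unfold ang
  rw [div_self hz, Complex.log_one]
  ring

/-- the exceptional set of the algebraic function -/
structure Exc (P : ℂ[X][X]) (B : Set ℂ) : Prop where
  fin : B.Finite
  zero : (0 : ℂ) ∈ B
  reg : ∀ z, z ∉ B → Reg P z
  low : ∀ z, z ∉ B → (P.coeff 0).eval z ≠ 0

variable {B : Set ℂ}

theorem Exc.open_compl (E : Exc P B) : IsOpen Bᶜ := E.fin.isClosed.isOpen_compl

theorem Exc.ne_zero (E : Exc P B) {z : ℂ} (hz : z ∉ B) : z ≠ 0 := by
  rintro rfl
  exact hz E.zero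

theorem Exc.root_ne (E : Exc P B) {z Y : ℂ} (hz : z ∉ B) (hY : P.evalEval z Y = 0) : Y ≠ 0 := by
  rintro rfl
  apply E.low z hz
  rw [ee_sum, Finset.sum_range_succ'] at hY
  simpa using hY

theorem hG (E : Exc P B) (z : ℂ) (hz : z ∉ B) (y : ℂ → ℂ) (hy : AnalyticAt ℂ y z)
    (hP : ∀ᶠ z' in 𝓝 z, P.evalEval z' (y z') = 0) :
    ∀ᶠ z' in 𝓝 z, (GR P z' (y z') ↔ GR P z (y z)) := by
  have hz0 := E.ne_zero hz
  have h1 : ∀ᶠ z' in 𝓝 z, z' ∈ Bᶜ := E.open_compl.mem_nhds hz
  have h2 : ∀ᶠ z' in 𝓝 z, z' ∈ ball z ‖z‖ := ball_mem_nhds z (norm_pos_iff.2 hz0)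
  obtain ⟨r, hr, h3⟩ := Metric.eventually_nhds_iff_ball.1
    (((h1.and h2).and hP).and hy.eventually_analyticAt)
  have key : ∀ ψ : ℂ, ez ψ = z → ∀ z₁ ∈ ball z r, ∀ z₂ ∈ ball z r,
      GP P (ang z ψ z₁) (y z₁) → GP P (ang z ψ z₂) (y z₂) := by
    intro ψ hψ z₁ hz₁ z₂ hz₂ h
    have hang : ∀ z' ∈ ball z r, ez (ang z ψ z') = z' := fun z' hz' =>
      ez_ang (h3 z' hz').1.1.2 hψ
    refine (GP_cont (P := P) (U := ball z r) (π := ang z ψ) (g := y) isOpen_ball
      (convex_ball z r).isPreconnected ?_ ?_ ?_ ?_ ?_ hz₁ hz₂ h).2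
    · intro z' hz'
      exact (ang_deriv (h3 z' hz').1.1.2).differentiableAt.differentiableWithinAt
    · intro z' hz'
      exact (h3 z' hz').2.differentiableAt.differentiableWithinAt
    · intro z' hz'
      refine ⟨?_, E.root_ne (h3 z' hz').1.1.1 (h3 z' hz').1.2⟩
      rw [(ang_deriv (h3 z' hz').1.1.2).deriv]
      have h4 := E.ne_zero (h3 z' hz').1.1.1
      simp [h4]
    · intro z' hz'
      rw [hang z' hz']
      exact (h3 z' hz').1.2
    · intro z' hz'
      rw [hang z' hz']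
      exact (E.reg z' (h3 z' hz').1.1.1).simple _ (h3 z' hz').1.2
  filter_upwards [ball_mem_nhds z hr] with z₁ hz₁
  constructor
  · intro h ψ hψ
    have h4 := key ψ hψ z₁ hz₁ z (mem_ball_self hr)
      (h (ang z ψ z₁) (ez_ang (h3 z₁ hz₁).1.1.2 hψ))
    rwa [ang_self hz0] at h4
  · intro h ψ₁ hψ₁
    have h5 := (h3 z₁ hz₁).1.1.2
    set ψ : ℂ := ψ₁ + I * Complex.log (z₁ / z) with hψdef
    have hψ : ez ψ = z := by
      have h6 : z₁ / z ≠ 0 := slitPlane_ne_zero (div_mem_slit h5)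
      have hz₁0 : z₁ ≠ 0 := E.ne_zero (h3 z₁ hz₁).1.1.1
      have h7 : I * ψ = I * ψ₁ - Complex.log (z₁ / z) := by
        have := I_mul_I
        rw [hψdef]
        linear_combination (Complex.log (z₁ / z)) * this
      unfold ez
      rw [h7, Complex.exp_sub, Complex.exp_log h6]
      have h8 : Complex.exp (I * ψ₁) = z₁ := hψ₁
      rw [h8]
      field_simp
    have h4 := key ψ hψ z (mem_ball_self hr) z₁ hz₁ (by
      rw [ang_self hz0]
      exact h ψ hψ)
    have h9 : ang z ψ z₁ = ψ₁ := by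
      unfold ang
      rw [hψdef]
      ring
    rwa [h9] at h4

theorem hK (E : Exc P B) (z : ℂ) (hz : z ∉ B) (y : ℂ → ℂ) (hy : AnalyticAt ℂ y z)
    (hP : ∀ᶠ z' in 𝓝 z, P.evalEval z' (y z') = 0) :
    AnalyticAt ℂ (fun z' => KK P z' (y z')) z := by
  have h1 : ∀ᶠ z' in 𝓝 z, z' ∈ Bᶜ := E.open_compl.mem_nhds hz
  have h2 : AnalyticAt ℂ (kz y) z := kz_an hy (E.root_ne hz hP.self_of_nhds)
  refine h2.congr ?_
  filter_upwards [h1, hy.eventually_analyticAt, hP.eventually_nhds] with z' a b c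
  exact (KK_eq b c ((E.reg z' a).simple _ c.self_of_nhds)).symm

end Vale.Agent.P097.H898
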